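import Vale.Agent.P328.Avg

/-!
# P328: block averages are projections, and a spectral gap gives contraction
-/

namespace Vale.Agent.P328

open Finset

open Classical in
/-- the set of contingency tables -/
noncomputable def tables {m n : ℕ} (r : Fin m → ℕ) (c : Fin n → ℕ) :
    Finset (Fin m → Fin n → ℕ) :=
  (Fintype.piFinset fun _ => Fintype.piFinset fun _ => range (∑ i, r i + 1)).filter (IsTable r c)

theorem mem_tables {m n : ℕ} {r : Fin m → ℕ} {c : Fin n → ℕ} {X : Fin m → Fin n → ℕ} :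
    X ∈ tables r c ↔ IsTable r c X := by
  unfold tables
  simp only [Finset.mem_filter, Fintype.mem_piFinset, Finset.mem_range]
  refine ⟨fun h => h.2, fun h => ⟨fun i j => ?_, h⟩⟩
  have := h.entry_le i j
  omega

/-- the uniform average over the block in the rows `u, v` and the columns `a, b` -/
noncomputable def blockAvg {m n : ℕ} (f : (Fin m → Fin n → ℕ) → ℝ) (u v : Fin m) (a b : Fin n)
    (X : Fin m → Fin n → ℕ) : ℝ :=
  mavg (min (X u a) (X v b) + min (X u b) (X v a) + 1) (fun k => f (blockUpd X u v a b k))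

/-- A spectral gap for the block dynamics on all sets of contingency tables. -/
def Gap (e : ℕ) : Prop :=
  ∀ (m n : ℕ) (r : Fin m → ℕ) (c : Fin n → ℕ), ∑ i, r i = ∑ j, c j →
  ∀ f : (Fin m → Fin n → ℕ) → ℝ, ∑ X ∈ tables r c, f X = 0 →
    ∑ X ∈ tables r c, f X ^ 2 ≤ ((m : ℝ) * n) ^ e *
      ∑ u : Fin m, ∑ v : Fin m, ∑ a : Fin n, ∑ b : Fin n,
        if u ≠ v ∧ a ≠ b then ∑ X ∈ tables r c, (f X - blockAvg f u v a b X) ^ 2 else 0

section Block

variable {m n : ℕ} (X : Fin m → Fin n → ℕ) {u v : Fin m} {a b : Fin n}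

theorem upd_ua (huv : u ≠ v) (hab : a ≠ b) {k : ℕ}
    (hk : k < min (X u a) (X v b) + min (X u b) (X v a) + 1) :
    blockUpd X u v a b k u a = X u a - min (X u a) (X v b) + k := by
  simp [blockUpd, Nat.mod_eq_of_lt hk]

theorem upd_vb (huv : u ≠ v) (hab : a ≠ b) {k : ℕ}
    (hk : k < min (X u a) (X v b) + min (X u b) (X v a) + 1) :
    blockUpd X u v a b k v b = X v b - min (X u a) (X v b) + k := by
  simp [blockUpd, Nat.mod_eq_of_lt hk, huv.symm]

theorem upd_ub (huv : u ≠ v) (hab : a ≠ b) {k : ℕ}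
    (hk : k < min (X u a) (X v b) + min (X u b) (X v a) + 1) :
    blockUpd X u v a b k u b = X u b + min (X u a) (X v b) - k := by
  simp [blockUpd, Nat.mod_eq_of_lt hk, huv, hab.symm]

theorem upd_va (huv : u ≠ v) (hab : a ≠ b) {k : ℕ}
    (hk : k < min (X u a) (X v b) + min (X u b) (X v a) + 1) :
    blockUpd X u v a b k v a = X v a + min (X u a) (X v b) - k := by
  simp [blockUpd, Nat.mod_eq_of_lt hk, huv.symm, hab]

theorem upd_min1 (huv : u ≠ v) (hab : a ≠ b) {k : ℕ}
    (hk : k < min (X u a) (X v b) + min (X u b) (X v a) + 1) :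
    min (blockUpd X u v a b k u a) (blockUpd X u v a b k v b) = k := by
  rw [upd_ua X huv hab hk, upd_vb X huv hab hk]
  omega

theorem upd_min2 (huv : u ≠ v) (hab : a ≠ b) {k : ℕ}
    (hk : k < min (X u a) (X v b) + min (X u b) (X v a) + 1) :
    min (blockUpd X u v a b k u b) (blockUpd X u v a b k v a) =
      min (X u a) (X v b) + min (X u b) (X v a) - k := by
  rw [upd_ub X huv hab hk, upd_va X huv hab hk]
  omega

theorem upd_sum (huv : u ≠ v) (hab : a ≠ b) {k : ℕ}
    (hk : k < min (X u a) (X v b) + min (X u b) (X v a) + 1) :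
    min (blockUpd X u v a b k u a) (blockUpd X u v a b k v b) +
      min (blockUpd X u v a b k u b) (blockUpd X u v a b k v a) + 1 =
      min (X u a) (X v b) + min (X u b) (X v a) + 1 := by
  rw [upd_min1 X huv hab hk, upd_min2 X huv hab hk]
  omega

theorem upd_upd (huv : u ≠ v) (hab : a ≠ b) {k : ℕ}
    (hk : k < min (X u a) (X v b) + min (X u b) (X v a) + 1) (l : ℕ) :
    blockUpd (blockUpd X u v a b k) u v a b l = blockUpd X u v a b l := by
  funext i j
  have h1 := upd_ua X huv hab hk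
  have h2 := upd_vb X huv hab hk
  have h3 := upd_ub X huv hab hk
  have h4 := upd_va X huv hab hk
  have h5 := upd_min1 X huv hab hk
  have h6 := upd_sum X huv hab hk
  have g1 : min (X u a) (X v b) ≤ X u a := min_le_left _ _
  have g2 : min (X u a) (X v b) ≤ X v b := min_le_right _ _
  have g3 : min (X u b) (X v a) ≤ X u b := min_le_left _ _
  have g4 : min (X u b) (X v a) ≤ X v a := min_le_right _ _
  have h7 : ∀ i j, blockUpd (blockUpd X u v a b k) u v a b l i j =
      if i = u ∧ j = a then blockUpd X u v a b k u a - k +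
          l % (min (X u a) (X v b) + min (X u b) (X v a) + 1)
      else if i = v ∧ j = b then blockUpd X u v a b k v b - k +
          l % (min (X u a) (X v b) + min (X u b) (X v a) + 1)
      else if i = u ∧ j = b then blockUpd X u v a b k u b + k -
          l % (min (X u a) (X v b) + min (X u b) (X v a) + 1)
      else if i = v ∧ j = a then blockUpd X u v a b k v a + k -
          l % (min (X u a) (X v b) + min (X u b) (X v a) + 1)
      else blockUpd X u v a b k i j := by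
    intro i j
    conv_lhs => rw [blockUpd, h6, h5]
  rw [h7, h1, h2, h3, h4]
  have h8 : blockUpd X u v a b l i j = if i = u ∧ j = a then X u a - min (X u a) (X v b) +
      l % (min (X u a) (X v b) + min (X u b) (X v a) + 1)
    else if i = v ∧ j = b then X v b - min (X u a) (X v b) +
      l % (min (X u a) (X v b) + min (X u b) (X v a) + 1)
    else if i = u ∧ j = b then X u b + min (X u a) (X v b) -
      l % (min (X u a) (X v b) + min (X u b) (X v a) + 1)
    else if i = v ∧ j = a then X v a + min (X u a) (X v b) -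
      l % (min (X u a) (X v b) + min (X u b) (X v a) + 1)
    else X i j := rfl
  rw [h8]
  clear h1 h2 h3 h4 h5 h6 h7 h8
  split_ifs with c1 c2 c3 c4
  · generalize min (X u a) (X v b) = p at *
    generalize min (X u b) (X v a) = q at *
    generalize l % (p + q + 1) = K
    omega
  · generalize min (X u a) (X v b) = p at *
    generalize min (X u b) (X v a) = q at *
    generalize l % (p + q + 1) = K
    omega
  · generalize min (X u a) (X v b) = p at *
    generalize min (X u b) (X v a) = q at *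
    generalize l % (p + q + 1) = K
    omega
  · generalize min (X u a) (X v b) = p at *
    generalize min (X u b) (X v a) = q at *
    generalize l % (p + q + 1) = K
    omega
  · rw [blockUpd, if_neg c1, if_neg c2, if_neg c3, if_neg c4]

theorem upd_self (huv : u ≠ v) (hab : a ≠ b) :
    blockUpd X u v a b (min (X u a) (X v b)) = X := by
  funext i j
  have hk : min (X u a) (X v b) < min (X u a) (X v b) + min (X u b) (X v a) + 1 := by omega
  rw [blockUpd, Nat.mod_eq_of_lt hk]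
  by_cases c1 : i = u ∧ j = a
  · rw [if_pos c1, c1.1, c1.2]
    omega
  · rw [if_neg c1]
    by_cases c2 : i = v ∧ j = b
    · rw [if_pos c2, c2.1, c2.2]
      omega
    · rw [if_neg c2]
      by_cases c3 : i = u ∧ j = b
      · rw [if_pos c3, c3.1, c3.2]
        omega
      · rw [if_neg c3]
        by_cases c4 : i = v ∧ j = a
        · rw [if_pos c4, c4.1, c4.2]
          omega
        · rw [if_neg c4]

theorem blockAvg_upd (huv : u ≠ v) (hab : a ≠ b) (f : (Fin m → Fin n → ℕ) → ℝ) {k : ℕ}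
    (hk : k < min (X u a) (X v b) + min (X u b) (X v a) + 1) :
    blockAvg f u v a b (blockUpd X u v a b k) = blockAvg f u v a b X := by
  unfold blockAvg
  rw [upd_sum X huv hab hk]
  simp only [upd_upd X huv hab hk]

end Block

/-- The average over the block is self-adjoint and idempotent. -/
theorem sum_mul_blockAvg {m n : ℕ} {r : Fin m → ℕ} {c : Fin n → ℕ} {u v : Fin m} {a b : Fin n}
    (huv : u ≠ v) (hab : a ≠ b) (h f : (Fin m → Fin n → ℕ) → ℝ)
    (hh : ∀ X, ∀ k < min (X u a) (X v b) + min (X u b) (X v a) + 1,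
      h (blockUpd X u v a b k) = h X) :
    ∑ X ∈ tables r c, h X * blockAvg f u v a b X = ∑ X ∈ tables r c, h X * f X := by
  classical
  have h1 : ∀ X : Fin m → Fin n → ℕ, h X * blockAvg f u v a b X =
      ∑ k ∈ range (min (X u a) (X v b) + min (X u b) (X v a) + 1),
        h X * f (blockUpd X u v a b k) /
          ((min (X u a) (X v b) + min (X u b) (X v a) + 1 : ℕ) : ℝ) := by
    intro X
    unfold blockAvg mavg
    rw [← Finset.sum_div, ← Finset.mul_sum]
    ring
  have h2 : ∀ X : Fin m → Fin n → ℕ, h X * f X =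
      ∑ _k ∈ range (min (X u a) (X v b) + min (X u b) (X v a) + 1),
        h X * f X / ((min (X u a) (X v b) + min (X u b) (X v a) + 1 : ℕ) : ℝ) := by
    intro X
    rw [Finset.sum_const, Finset.card_range, nsmul_eq_mul]
    have : ((min (X u a) (X v b) + min (X u b) (X v a) + 1 : ℕ) : ℝ) ≠ 0 :=
      (Nat.cast_pos.2 (Nat.succ_pos _)).ne'
    field_simp
  rw [Finset.sum_congr rfl fun X _ => h1 X, Finset.sum_congr rfl fun X _ => h2 X,
    Finset.sum_sigma', Finset.sum_sigma']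
  refine Finset.sum_bij' (fun p _ => ⟨blockUpd p.1 u v a b p.2, min (p.1 u a) (p.1 v b)⟩)
    (fun p _ => ⟨blockUpd p.1 u v a b p.2, min (p.1 u a) (p.1 v b)⟩) ?_ ?_ ?_ ?_ ?_
  · rintro ⟨X, k⟩ hp
    rw [Finset.mem_sigma, Finset.mem_range, mem_tables] at hp ⊢
    refine ⟨blockUpd_isTable hp.1 huv hab _, ?_⟩
    rw [upd_sum X huv hab hp.2]
    simp only
    omega
  · rintro ⟨X, k⟩ hp
    rw [Finset.mem_sigma, Finset.mem_range, mem_tables] at hp ⊢
    refine ⟨blockUpd_isTable hp.1 huv hab _, ?_⟩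
    rw [upd_sum X huv hab hp.2]
    simp only
    omega
  · rintro ⟨X, k⟩ hp
    rw [Finset.mem_sigma, Finset.mem_range] at hp
    simp only at hp ⊢
    rw [upd_upd X huv hab hp.2, upd_self X huv hab, upd_min1 X huv hab hp.2]
  · rintro ⟨X, k⟩ hp
    rw [Finset.mem_sigma, Finset.mem_range] at hp
    simp only at hp ⊢
    rw [upd_upd X huv hab hp.2, upd_self X huv hab, upd_min1 X huv hab hp.2]
  · rintro ⟨X, k⟩ hp
    rw [Finset.mem_sigma, Finset.mem_range] at hp
    simp only at hp ⊢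
    rw [upd_sum X huv hab hp.2, hh X k hp.2]

theorem sum_blockAvg {m n : ℕ} {r : Fin m → ℕ} {c : Fin n → ℕ} {u v : Fin m} {a b : Fin n}
    (huv : u ≠ v) (hab : a ≠ b) (f : (Fin m → Fin n → ℕ) → ℝ) :
    ∑ X ∈ tables r c, blockAvg f u v a b X = ∑ X ∈ tables r c, f X := by
  have := sum_mul_blockAvg (r := r) (c := c) huv hab (fun _ => 1) f (fun _ _ _ => rfl)
  simpa using this

theorem sum_blockAvg_sq {m n : ℕ} {r : Fin m → ℕ} {c : Fin n → ℕ} {u v : Fin m} {a b : Fin n}
    (huv : u ≠ v) (hab : a ≠ b) (f : (Fin m → Fin n → ℕ) → ℝ) :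
    ∑ X ∈ tables r c, blockAvg f u v a b X ^ 2 =
      ∑ X ∈ tables r c, f X ^ 2 - ∑ X ∈ tables r c, (f X - blockAvg f u v a b X) ^ 2 := by
  have h1 := sum_mul_blockAvg (r := r) (c := c) huv hab (blockAvg f u v a b) f
    (fun X k hk => blockAvg_upd X huv hab f hk)
  have h2 : ∑ X ∈ tables r c, (f X - blockAvg f u v a b X) ^ 2 =
      ∑ X ∈ tables r c, f X ^ 2 - 2 * ∑ X ∈ tables r c, blockAvg f u v a b X * f X +
        ∑ X ∈ tables r c, blockAvg f u v a b X * blockAvg f u v a b X := by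
    rw [Finset.mul_sum, ← Finset.sum_sub_distrib, ← Finset.sum_add_distrib]
    exact Finset.sum_congr rfl fun X _ => by ring
  rw [h2, ← h1]
  have h3 : ∑ X ∈ tables r c, blockAvg f u v a b X ^ 2 =
      ∑ X ∈ tables r c, blockAvg f u v a b X * blockAvg f u v a b X :=
    Finset.sum_congr rfl fun X _ => by ring
  rw [h3]
  ring

/-! ## The chain -/

/-- One block move, with the rows and columns given by natural numbers. -/
noncomputable def blk {m n : ℕ} (f : (Fin m → Fin n → ℕ) → ℝ) (X : Fin m → Fin n → ℕ)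
    (u v a b : ℕ) : ℝ :=
  if h : (u < m ∧ v < m) ∧ (a < n ∧ b < n) ∧ u ≠ v ∧ a ≠ b then
    blockAvg f ⟨u, h.1.1⟩ ⟨v, h.1.2⟩ ⟨a, h.2.1.1⟩ ⟨b, h.2.1.2⟩ X
  else f X

/-- The ideal chain: the average over all choices of two rows and two columns. -/
noncomputable def chain {m n : ℕ} (f : (Fin m → Fin n → ℕ) → ℝ) (X : Fin m → Fin n → ℕ) : ℝ :=
  mavg m fun u => mavg m fun v => mavg n fun a => mavg n fun b => blk f X u v a b

theorem chain_eq {m n : ℕ} (f : (Fin m → Fin n → ℕ) → ℝ) (X : Fin m → Fin n → ℕ) :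
    chain f X = (∑ u : Fin m, ∑ v : Fin m, ∑ a : Fin n, ∑ b : Fin n,
      if u ≠ v ∧ a ≠ b then blockAvg f u v a b X else f X) / ((m : ℝ) * n) ^ 2 := by
  unfold chain mavg
  have e : ∀ u v : Fin m, ∀ a b : Fin n, blk f X u v a b =
      if u ≠ v ∧ a ≠ b then blockAvg f u v a b X else f X := by
    intro u v a b
    unfold blk
    by_cases h : u ≠ v ∧ a ≠ b
    · rw [if_pos h, dif_pos ⟨⟨u.2, v.2⟩, ⟨a.2, b.2⟩, fun h' => h.1 (Fin.ext h'),
        fun h' => h.2 (Fin.ext h')⟩]
    · rw [if_neg h, dif_neg]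
      rintro ⟨-, -, h1, h2⟩
      exact h ⟨fun h' => h1 (by rw [h']), fun h' => h2 (by rw [h'])⟩
  rw [Finset.sum_range]
  simp only [Finset.sum_range, e, ← Finset.sum_div, div_div]
  congr 1
  ring

theorem sq_sum_le_card_mul {ι : Type*} (s : Finset ι) (g : ι → ℝ) :
    (∑ i ∈ s, g i) ^ 2 ≤ s.card * ∑ i ∈ s, g i ^ 2 := by
  exact sq_sum_le_card_mul_sum_sq

theorem chain_sq_le {m n : ℕ} (hm : 0 < m) (hn : 0 < n) (f : (Fin m → Fin n → ℕ) → ℝ)
    (X : Fin m → Fin n → ℕ) :
    chain f X ^ 2 ≤ (∑ u : Fin m, ∑ v : Fin m, ∑ a : Fin n, ∑ b : Fin n,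
      (if u ≠ v ∧ a ≠ b then blockAvg f u v a b X ^ 2 else f X ^ 2)) / ((m : ℝ) * n) ^ 2 := by
  have hmn : (0:ℝ) < ((m : ℝ) * n) ^ 2 := by
    have : (0:ℝ) < m := by exact_mod_cast hm
    have : (0:ℝ) < n := by exact_mod_cast hn
    positivity
  rw [chain_eq, div_pow, div_le_div_iff₀ (by positivity) hmn]
  have h1 : (∑ u : Fin m, ∑ v : Fin m, ∑ a : Fin n, ∑ b : Fin n,
      (if u ≠ v ∧ a ≠ b then blockAvg f u v a b X else f X)) =
      ∑ p : (Fin m × Fin m) × (Fin n × Fin n),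
        if p.1.1 ≠ p.1.2 ∧ p.2.1 ≠ p.2.2 then blockAvg f p.1.1 p.1.2 p.2.1 p.2.2 X else f X := by
    rw [Fintype.sum_prod_type, Fintype.sum_prod_type]
    refine Finset.sum_congr rfl fun u _ => Finset.sum_congr rfl fun v _ => ?_
    rw [Fintype.sum_prod_type]
  have h2 : (∑ u : Fin m, ∑ v : Fin m, ∑ a : Fin n, ∑ b : Fin n,
      (if u ≠ v ∧ a ≠ b then blockAvg f u v a b X ^ 2 else f X ^ 2)) =
      ∑ p : (Fin m × Fin m) × (Fin n × Fin n),
        (if p.1.1 ≠ p.1.2 ∧ p.2.1 ≠ p.2.2 then blockAvg f p.1.1 p.1.2 p.2.1 p.2.2 X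
          else f X) ^ 2 := by
    rw [Fintype.sum_prod_type, Fintype.sum_prod_type]
    refine Finset.sum_congr rfl fun u _ => Finset.sum_congr rfl fun v _ => ?_
    rw [Fintype.sum_prod_type]
    refine Finset.sum_congr rfl fun a _ => Finset.sum_congr rfl fun b _ => ?_
    split_ifs <;> rfl
  rw [h1, h2]
  have h3 := sq_sum_le_card_mul (univ : Finset ((Fin m × Fin m) × (Fin n × Fin n)))
    (fun p => if p.1.1 ≠ p.1.2 ∧ p.2.1 ≠ p.2.2 then blockAvg f p.1.1 p.1.2 p.2.1 p.2.2 X else f X)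
  have hcard : ((univ : Finset ((Fin m × Fin m) × (Fin n × Fin n))).card : ℝ) =
      ((m : ℝ) * n) ^ 2 := by
    rw [Finset.card_univ]
    simp only [Fintype.card_prod, Fintype.card_fin]
    push_cast
    ring
  rw [hcard] at h3
  calc _ ≤ (((m : ℝ) * n) ^ 2 * ∑ p : (Fin m × Fin m) × (Fin n × Fin n),
        (if p.1.1 ≠ p.1.2 ∧ p.2.1 ≠ p.2.2 then blockAvg f p.1.1 p.1.2 p.2.1 p.2.2 X
          else f X) ^ 2) * ((m : ℝ) * n) ^ 2 := mul_le_mul_of_nonneg_right h3 hmn.le
    _ = _ := by ring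

/-- The contraction. -/
theorem sum_chain_sq_le {e m n : ℕ} (hgap : Gap e) (hm : 0 < m) (hn : 0 < n) {r : Fin m → ℕ}
    {c : Fin n → ℕ} (hrc : ∑ i, r i = ∑ j, c j) (f : (Fin m → Fin n → ℕ) → ℝ)
    (hf : ∑ X ∈ tables r c, f X = 0) :
    ∑ X ∈ tables r c, chain f X ^ 2 ≤
      (1 - 1 / ((m : ℝ) * n) ^ (e + 2)) * ∑ X ∈ tables r c, f X ^ 2 := by
  have hmn : (0:ℝ) < (m : ℝ) * n := by
    have : (0:ℝ) < m := by exact_mod_cast hm
    have : (0:ℝ) < n := by exact_mod_cast hn
    positivity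
  have h1 : ∑ X ∈ tables r c, chain f X ^ 2 ≤
      (∑ u : Fin m, ∑ v : Fin m, ∑ a : Fin n, ∑ b : Fin n, ∑ X ∈ tables r c,
        (if u ≠ v ∧ a ≠ b then blockAvg f u v a b X ^ 2 else f X ^ 2)) / ((m : ℝ) * n) ^ 2 := by
    refine (Finset.sum_le_sum fun X _ => chain_sq_le hm hn f X).trans (le_of_eq ?_)
    rw [← Finset.sum_div]
    congr 1
    rw [Finset.sum_comm]
    refine Finset.sum_congr rfl fun u _ => ?_
    rw [Finset.sum_comm]
    refine Finset.sum_congr rfl fun v _ => ?_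
    rw [Finset.sum_comm]
    refine Finset.sum_congr rfl fun a _ => ?_
    rw [Finset.sum_comm]
  have h2 : ∀ (u v : Fin m) (a b : Fin n), ∑ X ∈ tables r c,
      (if u ≠ v ∧ a ≠ b then blockAvg f u v a b X ^ 2 else f X ^ 2) =
      ∑ X ∈ tables r c, f X ^ 2 -
        if u ≠ v ∧ a ≠ b then ∑ X ∈ tables r c, (f X - blockAvg f u v a b X) ^ 2 else 0 := by
    intro u v a b
    by_cases h : u ≠ v ∧ a ≠ b
    · simp only [if_pos h]
      rw [sum_blockAvg_sq h.1 h.2]
    · simp only [if_neg h, sub_zero]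
  have h3 := hgap m n r c hrc f hf
  simp only [h2, Finset.sum_sub_distrib, Finset.sum_const, Finset.card_univ, Fintype.card_fin,
    nsmul_eq_mul] at h1
  set S := ∑ X ∈ tables r c, f X ^ 2 with hS
  set E := ∑ u : Fin m, ∑ v : Fin m, ∑ a : Fin n, ∑ b : Fin n,
        (if u ≠ v ∧ a ≠ b then ∑ X ∈ tables r c, (f X - blockAvg f u v a b X) ^ 2 else 0) with hE
  refine h1.trans ?_
  have h4 : (m : ℝ) * (m * (n * (n * S))) = (m * n) ^ 2 * S := by ring
  rw [h4, sub_div, mul_div_cancel_left₀ _ (by positivity), sub_mul, one_mul]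
  apply sub_le_sub_left
  rw [pow_add, one_div, inv_mul_le_iff₀ (by positivity)]
  calc S ≤ (m * n) ^ e * E := h3
    _ = _ := by
        field_simp

theorem sum_chain {m n : ℕ} (hm : 0 < m) (hn : 0 < n) {r : Fin m → ℕ}
    {c : Fin n → ℕ} (f : (Fin m → Fin n → ℕ) → ℝ) :
    ∑ X ∈ tables r c, chain f X = ∑ X ∈ tables r c, f X := by
  have hmn : (0:ℝ) < (m : ℝ) * n := by
    have : (0:ℝ) < m := by exact_mod_cast hm
    have : (0:ℝ) < n := by exact_mod_cast hn
    positivity
  have h1 : ∑ X ∈ tables r c, chain f X =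
      (∑ u : Fin m, ∑ v : Fin m, ∑ a : Fin n, ∑ b : Fin n, ∑ X ∈ tables r c,
        (if u ≠ v ∧ a ≠ b then blockAvg f u v a b X else f X)) / ((m : ℝ) * n) ^ 2 := by
    rw [Finset.sum_congr rfl fun X _ => chain_eq f X, ← Finset.sum_div]
    congr 1
    rw [Finset.sum_comm]
    refine Finset.sum_congr rfl fun u _ => ?_
    rw [Finset.sum_comm]
    refine Finset.sum_congr rfl fun v _ => ?_
    rw [Finset.sum_comm]
    refine Finset.sum_congr rfl fun a _ => ?_
    rw [Finset.sum_comm]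
  have h2 : ∀ (u v : Fin m) (a b : Fin n), ∑ X ∈ tables r c,
      (if u ≠ v ∧ a ≠ b then blockAvg f u v a b X else f X) = ∑ X ∈ tables r c, f X := by
    intro u v a b
    by_cases h : u ≠ v ∧ a ≠ b
    · simp only [if_pos h]
      rw [sum_blockAvg h.1 h.2]
    · simp only [if_neg h]
  rw [h1]
  simp only [h2, Finset.sum_const, Finset.card_univ, Fintype.card_fin, nsmul_eq_mul]
  field_simp

/-- The iterated chain. -/
theorem iterate_chain_sq_le {e m n : ℕ} (hgap : Gap e) (hm : 0 < m) (hn : 0 < n)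
    {r : Fin m → ℕ} {c : Fin n → ℕ} (hrc : ∑ i, r i = ∑ j, c j) (T : ℕ)
    (f : (Fin m → Fin n → ℕ) → ℝ) (hf : ∑ X ∈ tables r c, f X = 0) :
    ∑ X ∈ tables r c, (chain^[T] f) X ^ 2 ≤
      (1 - 1 / ((m : ℝ) * n) ^ (e + 2)) ^ T * ∑ X ∈ tables r c, f X ^ 2 := by
  have hmn : (1:ℝ) ≤ (m : ℝ) * n := by
    have h1 : (1:ℝ) ≤ m := by exact_mod_cast hm
    have h2 : (1:ℝ) ≤ n := by exact_mod_cast hn
    nlinarith
  have h0 : 0 ≤ 1 - 1 / ((m : ℝ) * n) ^ (e + 2) := by
    have : 1 / ((m : ℝ) * n) ^ (e + 2) ≤ 1 := by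
      rw [div_le_one (by positivity)]
      exact one_le_pow₀ hmn
    linarith
  induction T generalizing f with
  | zero => simp
  | succ T ih =>
    rw [Function.iterate_succ_apply]
    refine (ih (chain f) (by rw [sum_chain hm hn, hf])).trans ?_
    rw [pow_succ (1 - 1 / ((m : ℝ) * n) ^ (e + 2)) T, mul_assoc]
    exact mul_le_mul_of_nonneg_left (sum_chain_sq_le hgap hm hn hrc f hf) (pow_nonneg h0 T)

end Vale.Agent.P328
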