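import Vale.Agent.P328.Sampler

/-!
# P328: determinism of the machine, and the statement with a real accuracy parameter
-/

namespace Vale.Agent.P328

open Finset

/-- The machine is deterministic, given the coin flips. -/
theorem Exec.deterministic {p : Prog} {M M1 M2 : Mem} {w w1 w2 : List Bool} {k1 k2 : ℕ}
    (h1 : Exec p M w M1 w1 k1) (h2 : Exec p M w M2 w2 k2) : M1 = M2 ∧ w1 = w2 ∧ k1 = k2 := by
  induction h1 generalizing M2 w2 k2 with
  | store a e M w =>
    cases h2
    exact ⟨rfl, rfl, rfl⟩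
  | coin a M b w =>
    cases h2
    exact ⟨rfl, rfl, rfl⟩
  | seq hp hq ihp ihq =>
    cases h2 with
    | seq hp' hq' =>
      obtain ⟨rfl, rfl, rfl⟩ := ihp hp'
      obtain ⟨rfl, rfl, rfl⟩ := ihq hq'
      exact ⟨rfl, rfl, rfl⟩
  | ite_true hc hp ih =>
    cases h2 with
    | ite_true _ hp' =>
      obtain ⟨rfl, rfl, rfl⟩ := ih hp'
      exact ⟨rfl, rfl, rfl⟩
    | ite_false hc' _ => exact absurd hc' hc
  | ite_false hc hq ih =>
    cases h2 with
    | ite_true hc' _ => exact absurd hc hc'
    | ite_false _ hq' =>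
      obtain ⟨rfl, rfl, rfl⟩ := ih hq'
      exact ⟨rfl, rfl, rfl⟩
  | loop_done hc =>
    cases h2 with
    | loop_done _ => exact ⟨rfl, rfl, rfl⟩
    | loop_step hc' _ _ => exact absurd hc hc'
  | loop_step hc hp hl ihp ihl =>
    cases h2 with
    | loop_done hc' => exact absurd hc' hc
    | loop_step _ hp' hl' =>
      obtain ⟨rfl, rfl, rfl⟩ := ihp hp'
      obtain ⟨rfl, rfl, rfl⟩ := ihl hl'
      exact ⟨rfl, rfl, rfl⟩

/-- Every coin flip costs at least one unit, so the number of coin flips is at most the cost. -/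
theorem Exec.length_le {p : Prog} {M M' : Mem} {w w' : List Bool} {k : ℕ}
    (h : Exec p M w M' w' k) : w.length ≤ w'.length + k := by
  induction h with
  | store => omega
  | coin a M b w => simp only [List.length_cons]; omega
  | seq _ _ ihp ihq => omega
  | ite_true _ _ ih => omega
  | ite_false _ _ ih => omega
  | loop_done => omega
  | loop_step _ _ _ ihp ihl => omega

/-- The program `P` is an almost-uniform sampler: for all margins `(r, c)` and every real
accuracy `ε ∈ (0,1)` (given to the program as the least `t` with `2 ^ (-t) ≤ ε`), it uses a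
number `R` of fair coin flips that depends only on the input, it halts for every outcome `w` of
the coin flips, its cost is at most `(L + log₂ (1/ε)) ^ k` where `L` is the input length, it
outputs a table `out w ∈ Ω(r,c)`, and the law of `out w` is within `ε` of the uniform law on
`Ω(r,c)` in total variation. -/
def IsAlmostUniformSampler (P : Prog) (k : ℕ) : Prop :=
  ∀ (m n : ℕ) (r : Fin m → ℕ) (c : Fin n → ℕ) (ε : ℝ), 1 ≤ m → 1 ≤ n →
    ∑ i, r i = ∑ j, c j → 0 < ε → ε < 1 →
    ∃ (R : ℕ) (out : (Fin R → Bool) → Table r c),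
      (∀ w : Fin R → Bool, ∃ (M' : Mem) (K : ℕ),
        Exec P (inputMem r c ⌈Real.logb 2 (1 / ε)⌉₊) (List.ofFn w) M' [] K ∧
        (K : ℝ) ≤ (inputLength r c + Real.logb 2 (1 / ε)) ^ k ∧
        outputMem m n M' = (out w).1) ∧
      tvToUniform r c out ≤ ε

theorem IsSampler.almostUniform {P : Prog} {k : ℕ} (h : IsSampler P k) :
    IsAlmostUniformSampler P (2 * k) := by
  intro m n r c ε hm hn hrc h0 h1
  obtain ⟨R, out, hrun, htv⟩ := h m n r c ⌈Real.logb 2 (1 / ε)⌉₊ hm hn hrc
  have hlog : 0 < Real.logb 2 (1 / ε) := by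
    apply Real.logb_pos (by norm_num)
    rw [lt_div_iff₀ h0]
    linarith
  refine ⟨R, out, fun w => ?_, htv.trans ?_⟩
  · obtain ⟨M', K, hE, hK, hout⟩ := hrun w
    refine ⟨M', K, hE, ?_, hout⟩
    have hL : (2 : ℝ) ≤ inputLength r c := by
      have : 2 ≤ inputLength r c := by
        unfold inputLength
        omega
      exact_mod_cast this
    have hK' : (K : ℝ) ≤ (inputLength r c + (⌈Real.logb 2 (1 / ε)⌉₊ : ℝ)) ^ k := by
      exact_mod_cast hK
    refine hK'.trans ?_
    rw [pow_mul]
    apply pow_le_pow_left₀ (by positivity)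
    have := Nat.ceil_lt_add_one hlog.le
    nlinarith
  · have h2 : Real.logb 2 (1 / ε) ≤ (⌈Real.logb 2 (1 / ε)⌉₊ : ℝ) := Nat.le_ceil _
    have h3 : (1:ℝ) / ε ≤ 2 ^ ⌈Real.logb 2 (1 / ε)⌉₊ := by
      rw [← Real.rpow_natCast]
      rwa [← Real.logb_le_iff_le_rpow (by norm_num) (by positivity)]
    rw [one_div, inv_pow]
    have h4 : (0:ℝ) < 2 ^ ⌈Real.logb 2 (1 / ε)⌉₊ := by positivity
    rw [inv_le_comm₀ h4 h0, ← one_div]
    exact h3

/-- If the block dynamics has a polynomial spectral gap for all margins then there is a program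
which is an almost-uniform sampler, in polynomial time, for all margins. -/
theorem almostUniformSampler_of_gap (e : ℕ) (hgap : Gap e) :
    ∃ (P : Prog) (k : ℕ), IsAlmostUniformSampler P k := by
  obtain ⟨P, k, h⟩ := sampler_of_gap e hgap
  exact ⟨P, 2 * k, h.almostUniform⟩

end Vale.Agent.P328
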