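import Vale.Agent.P328.Mix

/-!
# P328 [CONN]: the 2x2 moves connect the contingency tables
-/

namespace Vale.Agent.P328

open Finset

/-- the distance of two matrices -/
def dist1 {m n : ℕ} (X Y : Fin m → Fin n → ℕ) : ℤ := ∑ i, ∑ j, |(X i j : ℤ) - Y i j|

theorem exists_lt_of_sum_eq {ι : Type*} [Fintype ι] {f g : ι → ℕ} (h : ∑ i, f i = ∑ i, g i)
    {i : ι} (hi : g i < f i) : ∃ j, f j < g j := by
  by_contra hc
  push Not at hc
  have : ∑ i, g i < ∑ i, f i := Finset.sum_lt_sum (fun j _ => hc j) ⟨i, mem_univ i, hi⟩
  omega

theorem dist1_blockUpd_lt {m n : ℕ} {X Y : Fin m → Fin n → ℕ} {u v : Fin m} {a b : Fin n}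
    (huv : u ≠ v) (hab : a ≠ b) (h1 : Y u a < X u a) (h2 : X v a < Y v a) (h3 : Y v b < X v b) :
    dist1 (blockUpd X u v a b (min (X u a) (X v b) - 1)) Y < dist1 X Y := by
  have hp : 1 ≤ min (X u a) (X v b) := by omega
  set p := min (X u a) (X v b) with hpdef
  have hk : (p - 1) % (p + min (X u b) (X v a) + 1) = p - 1 := Nat.mod_eq_of_lt (by omega)
  have hval : ∀ i j, (blockUpd X u v a b (p - 1) i j : ℤ) = X i j -
      (((if i = u then 1 else 0) - (if i = v then 1 else 0)) *
          ((if j = a then 1 else 0) - (if j = b then 1 else 0))) := by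
    intro i j
    rw [blockUpd_cast X huv hab, ← hpdef, hk]
    have : ((p - 1 : ℕ) : ℤ) = p - 1 := by omega
    rw [this]
    ring
  have hle : ∀ i j, |(blockUpd X u v a b (p - 1) i j : ℤ) - Y i j| ≤ |(X i j : ℤ) - Y i j| +
      ((if i = u then 1 else 0) * (if j = b then 1 else 0) -
        (if i = u then 1 else 0) * (if j = a then 1 else 0) -
        (if i = v then 1 else 0) * (if j = a then 1 else 0) -
        (if i = v then 1 else 0) * (if j = b then 1 else 0)) := by
    intro i j
    rw [hval]
    by_cases hi : i = u
    · subst hi
      by_cases hj : j = a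
      · subst hj
        simp only [if_true, huv, hab, if_false]
        rw [abs_of_nonneg (by omega), abs_of_nonneg (by omega)]
        omega
      · by_cases hj' : j = b
        · subst hj'
          simp only [if_true, huv, hj, if_false]
          have := abs_add_le ((X i j : ℤ) - Y i j) 1
          rw [abs_one] at this
          have e : (X i j : ℤ) - (1 - 0) * (0 - 1) - Y i j = (X i j : ℤ) - Y i j + 1 := by ring
          rw [e]
          omega
        · simp only [hj, hj', if_false, mul_zero, sub_zero, add_zero]
          exact le_rfl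
    · by_cases hi' : i = v
      · subst hi'
        by_cases hj : j = a
        · subst hj
          simp only [if_true, hi, hab, if_false]
          rw [abs_of_nonpos (by omega), abs_of_nonpos (by omega)]
          omega
        · by_cases hj' : j = b
          · subst hj'
            simp only [if_true, hi, hj, if_false]
            rw [abs_of_nonneg (by omega), abs_of_nonneg (by omega)]
            omega
          · simp only [hj, hj', if_false, mul_zero, sub_zero, add_zero]
            exact le_rfl
      · simp only [hi, hi', if_false, zero_mul, sub_zero, add_zero]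
        exact le_rfl
  have hsum : ∑ i : Fin m, ∑ j : Fin n, (((if i = u then 1 else 0) * (if j = b then 1 else 0) -
        (if i = u then 1 else 0) * (if j = a then 1 else 0) -
        (if i = v then 1 else 0) * (if j = a then 1 else 0) -
        (if i = v then 1 else 0) * (if j = b then 1 else 0)) : ℤ) = -2 := by
    simp only [Finset.sum_sub_distrib, ← Finset.mul_sum, ← Finset.sum_mul, Finset.sum_ite_eq',
      Finset.mem_univ, if_true]
    norm_num
  have htot : dist1 (blockUpd X u v a b (p - 1)) Y ≤ dist1 X Y + -2 := by
    rw [← hsum]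
    unfold dist1
    rw [← Finset.sum_add_distrib]
    refine Finset.sum_le_sum fun i _ => ?_
    rw [← Finset.sum_add_distrib]
    exact Finset.sum_le_sum fun j _ => hle i j
  omega

theorem dist1_nonneg {m n : ℕ} (X Y : Fin m → Fin n → ℕ) : 0 ≤ dist1 X Y :=
  Finset.sum_nonneg fun _ _ => Finset.sum_nonneg fun _ _ => abs_nonneg _

/-- A function that is invariant under all the block averages is constant on the set of
contingency tables. -/
theorem const_of_blockAvg {m n : ℕ} {r : Fin m → ℕ} {c : Fin n → ℕ}
    (f : (Fin m → Fin n → ℕ) → ℝ)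
    (hf : ∀ u v a b, u ≠ v → a ≠ b → ∀ X ∈ tables r c, blockAvg f u v a b X = f X) :
    ∀ X ∈ tables r c, ∀ Y ∈ tables r c, f X = f Y := by
  have key : ∀ (d : ℕ) (X Y : Fin m → Fin n → ℕ), X ∈ tables r c → Y ∈ tables r c →
      dist1 X Y ≤ d → f X = f Y := by
    intro d
    induction d with
    | zero =>
      intro X Y _ _ hd
      have h0 : dist1 X Y = 0 := le_antisymm (by exact_mod_cast hd) (dist1_nonneg X Y)
      have : X = Y := by
        funext i j
        unfold dist1 at h0
        have h1 := (Finset.sum_eq_zero_iff_of_nonneg
          (fun i _ => Finset.sum_nonneg fun _ _ => abs_nonneg _)).1 h0 i (mem_univ i)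
        have h2 := (Finset.sum_eq_zero_iff_of_nonneg (fun _ _ => abs_nonneg _)).1 h1 j
          (mem_univ j)
        have h3 := abs_eq_zero.1 h2
        omega
      rw [this]
    | succ d ih =>
      intro X Y hX hY hd
      by_cases hXY : X = Y
      · rw [hXY]
      -- find an entry that is too large
      have hX' := mem_tables.1 hX
      have hY' := mem_tables.1 hY
      have h1 : ∃ u a, Y u a < X u a := by
        by_contra hc
        push Not at hc
        apply hXY
        funext i j
        by_contra hne
        have hlt : X i j < Y i j := lt_of_le_of_ne (hc i j) hne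
        obtain ⟨j', hj'⟩ := exists_lt_of_sum_eq ((hY'.1 i).trans (hX'.1 i).symm) hlt
        exact absurd (hc i j') (by omega)
      obtain ⟨u, a, hua⟩ := h1
      obtain ⟨v, hva⟩ := exists_lt_of_sum_eq (f := fun i => X i a) (g := fun i => Y i a)
        ((hX'.2 a).trans (hY'.2 a).symm) hua
      obtain ⟨b, hvb⟩ := exists_lt_of_sum_eq (f := fun j => Y v j) (g := fun j => X v j)
        ((hY'.1 v).trans (hX'.1 v).symm) hva
      have huv : u ≠ v := by
        rintro rfl
        have : X u a < Y u a := hva
        omega
      have hab : a ≠ b := by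
        rintro rfl
        have h1 : X v a < Y v a := hva
        have h2 : Y v a < X v a := hvb
        omega
      have hlt := dist1_blockUpd_lt huv hab hua hva hvb
      have hk : min (X u a) (X v b) - 1 < min (X u a) (X v b) + min (X u b) (X v a) + 1 := by
        omega
      have hX2 : blockUpd X u v a b (min (X u a) (X v b) - 1) ∈ tables r c :=
        mem_tables.2 (blockUpd_isTable hX' huv hab _)
      rw [← ih _ Y hX2 hY (by push_cast at hd; omega), ← hf u v a b huv hab X hX,
        ← hf u v a b huv hab _ hX2, blockAvg_upd X huv hab f hk]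
  intro X hX Y hY
  obtain ⟨d, hd⟩ := Int.eq_ofNat_of_zero_le (dist1_nonneg X Y)
  exact key d X Y hX hY hd.le

end Vale.Agent.P328
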