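import Mathlib

/-!
# P328 [MI2GAP]: from the mixed inequality to the spectral gap
-/

namespace Vale.Agent.P328

open scoped InnerProductSpace

/-- If `⟪L f, L' f⟫ ≥ θ (⟪f, L f⟫ + ⟪f, L' f⟫)` for positive `L`, `L'` and no nonzero `f` is in
both kernels, then `L ≥ θ`. -/
theorem mi_gap {W : Type*} [NormedAddCommGroup W] [InnerProductSpace ℝ W]
    [FiniteDimensional ℝ W] (L L' : W →ₗ[ℝ] W) (hL : L.IsSymmetric)
    (hLpos : ∀ f, 0 ≤ ⟪f, L f⟫_ℝ) (hLpos' : ∀ f, 0 ≤ ⟪f, L' f⟫_ℝ) {θ : ℝ} (hθ : 0 < θ)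
    (hMI : ∀ f, θ * (⟪f, L f⟫_ℝ + ⟪f, L' f⟫_ℝ) ≤ ⟪L f, L' f⟫_ℝ)
    (hnd : ∀ f, ⟪f, L f⟫_ℝ = 0 → ⟪f, L' f⟫_ℝ = 0 → f = 0) (f : W) :
    θ * ‖f‖ ^ 2 ≤ ⟪f, L f⟫_ℝ := by
  classical
  set b := hL.eigenvectorBasis rfl with hb
  set lam := hL.eigenvalues rfl with hlam
  have heig : ∀ i, L (b i) = (lam i) • b i := by
    intro i
    exact hL.apply_eigenvectorBasis rfl i
  have hnorm : ∀ i, ⟪b i, b i⟫_ℝ = 1 := by
    intro i
    rw [real_inner_self_eq_norm_sq, b.orthonormal.1 i]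
    norm_num
  have hge : ∀ i, θ ≤ lam i := by
    intro i
    by_contra hlt
    push Not at hlt
    have h1 : ⟪b i, L (b i)⟫_ℝ = lam i := by
      rw [heig, real_inner_smul_right, hnorm, mul_one]
    have h0 : 0 ≤ lam i := by
      rw [← h1]; exact hLpos _
    have h2 := hMI (b i)
    have h3 : ⟪L (b i), L' (b i)⟫_ℝ = lam i * ⟪b i, L' (b i)⟫_ℝ := by
      rw [heig, real_inner_smul_left]
    rw [h1, h3] at h2
    have h4 := hLpos' (b i)
    have h5 : lam i = 0 := by nlinarith [mul_nonneg (sub_nonneg.2 hlt.le) h4]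
    have h6 : ⟪b i, L' (b i)⟫_ℝ = 0 := by
      rw [h5] at h2
      nlinarith
    have h7 := hnd (b i) (by rw [h1, h5]) h6
    have h8 := hnorm i
    rw [h7, inner_zero_left] at h8
    norm_num at h8
  have h1 : ⟪f, L f⟫_ℝ = ∑ i, lam i * ⟪b i, f⟫_ℝ ^ 2 := by
    rw [← b.sum_inner_mul_inner f (L f)]
    refine Finset.sum_congr rfl fun i _ => ?_
    have : ⟪b i, L f⟫_ℝ = lam i * ⟪b i, f⟫_ℝ := by
      rw [← hL (b i) f, heig, real_inner_smul_left]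
    rw [this, real_inner_comm]
    ring
  have h2 : ‖f‖ ^ 2 = ∑ i, ⟪b i, f⟫_ℝ ^ 2 := by
    rw [← real_inner_self_eq_norm_sq, ← b.sum_inner_mul_inner f f]
    refine Finset.sum_congr rfl fun i _ => ?_
    rw [real_inner_comm]
    ring
  rw [h1, h2, Finset.mul_sum]
  exact Finset.sum_le_sum fun i _ => mul_le_mul_of_nonneg_right (hge i) (sq_nonneg _)

end Vale.Agent.P328
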