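import Vale.Agent.P328.StepSpec

/-!
# P328: averages over coin flips
-/

namespace Vale.Agent.P328

open Finset

/-- average over `R` coin flips -/
noncomputable def cavg (R : ℕ) (f : List Bool → ℝ) : ℝ :=
  (∑ w : Fin R → Bool, f (List.ofFn w)) / 2 ^ R

/-- average over the numbers below `q` -/
noncomputable def mavg (q : ℕ) (g : ℕ → ℝ) : ℝ := (∑ k ∈ range q, g k) / q

theorem cavg_congr {R : ℕ} {f g : List Bool → ℝ} (h : ∀ l, l.length = R → f l = g l) :
    cavg R f = cavg R g := by
  unfold cavg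
  congr 1
  exact Finset.sum_congr rfl fun w _ => h _ (by simp)

theorem cavg_zero (f : List Bool → ℝ) : cavg 0 f = f [] := by
  simp [cavg]

theorem cavg_add (a b : ℕ) (f : List Bool → ℝ) :
    cavg (a + b) f = cavg a (fun u => cavg b (fun v => f (u ++ v))) := by
  unfold cavg
  rw [← Finset.sum_div, div_div, pow_add, mul_comm ((2:ℝ) ^ b)]
  congr 1
  rw [← Fintype.sum_prod_type']
  refine (Fintype.sum_equiv (Fin.appendEquiv a b) _ _ ?_).symm
  rintro ⟨u, v⟩
  simp only [Fin.appendEquiv, Equiv.coe_fn_mk]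
  rw [List.ofFn_fin_append]

theorem cavg_one (f : List Bool → ℝ) : cavg 1 f = (f [false] + f [true]) / 2 := by
  unfold cavg
  rw [pow_one]
  congr 1
  rw [← (Equiv.funUnique (Fin 1) Bool).symm.sum_comp]
  rw [Fintype.sum_bool]
  simp [add_comm]

theorem sum_range_two_mul (K : ℕ) (g : ℕ → ℝ) :
    ∑ k ∈ range (2 * K), g k = ∑ k ∈ range K, (g (2 * k) + g (2 * k + 1)) := by
  induction K with
  | zero => simp
  | succ K ih =>
    rw [show 2 * (K + 1) = 2 * K + 1 + 1 by ring, Finset.sum_range_succ, Finset.sum_range_succ,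
      ih, Finset.sum_range_succ]
    ring

theorem cavg_val (B : ℕ) (g : ℕ → ℝ) : cavg B (fun w => g (val w)) = mavg (2 ^ B) g := by
  induction B generalizing g with
  | zero => simp [cavg_zero, mavg]
  | succ B ih =>
    rw [cavg_add]
    have h : ∀ u : List Bool, cavg 1 (fun v => g (val (u ++ v))) =
        (fun k => (g (2 * k) + g (2 * k + 1)) / 2) (val u) := by
      intro u
      rw [cavg_one, val_append_singleton, val_append_singleton]
      simp
    simp only [h]
    rw [ih (fun k => (g (2 * k) + g (2 * k + 1)) / 2)]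
    unfold mavg
    rw [pow_succ, mul_comm (2 ^ B) 2, sum_range_two_mul, ← Finset.sum_div, div_div]
    push_cast
    ring_nf

theorem cavg_const (R : ℕ) (c : ℝ) : cavg R (fun _ => c) = c := by
  unfold cavg
  rw [Finset.sum_const, Finset.card_univ]
  simp

theorem cavg_sub (R : ℕ) (f g : List Bool → ℝ) :
    cavg R (fun w => f w - g w) = cavg R f - cavg R g := by
  unfold cavg
  rw [Finset.sum_sub_distrib, sub_div]

theorem abs_cavg_sub_le {R : ℕ} {f g : List Bool → ℝ} {ε : ℝ}
    (h : ∀ l, l.length = R → |f l - g l| ≤ ε) : |cavg R f - cavg R g| ≤ ε := by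
  rw [← cavg_sub]
  unfold cavg
  rw [abs_div, abs_of_pos (show (0:ℝ) < 2 ^ R by positivity), div_le_iff₀ (by positivity)]
  calc |∑ w : Fin R → Bool, (f (List.ofFn w) - g (List.ofFn w))|
      ≤ ∑ w : Fin R → Bool, |f (List.ofFn w) - g (List.ofFn w)| := Finset.abs_sum_le_sum_abs _ _
    _ ≤ ∑ _w : Fin R → Bool, ε := Finset.sum_le_sum fun w _ => h _ (by simp)
    _ = ε * 2 ^ R := by
        rw [Finset.sum_const, Finset.card_univ]
        simp [mul_comm]

theorem abs_mavg_sub_le {q : ℕ} (hq : 0 < q) {f g : ℕ → ℝ} {ε : ℝ}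
    (h : ∀ k < q, |f k - g k| ≤ ε) : |mavg q f - mavg q g| ≤ ε := by
  unfold mavg
  have hq' : (0:ℝ) < q := by exact_mod_cast hq
  rw [← sub_div, ← Finset.sum_sub_distrib, abs_div, abs_of_pos hq', div_le_iff₀ hq']
  calc |∑ k ∈ range q, (f k - g k)| ≤ ∑ k ∈ range q, |f k - g k| :=
        Finset.abs_sum_le_sum_abs _ _
    _ ≤ ∑ _k ∈ range q, ε := Finset.sum_le_sum fun k hk => h k (Finset.mem_range.1 hk)
    _ = ε * q := by
        rw [Finset.sum_const, Finset.card_range]
        simp [mul_comm]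

theorem mavg_const {q : ℕ} (hq : 0 < q) (c : ℝ) : mavg q (fun _ => c) = c := by
  unfold mavg
  rw [Finset.sum_const, Finset.card_range]
  have : (q:ℝ) ≠ 0 := by exact_mod_cast hq.ne'
  rw [nsmul_eq_mul]
  field_simp

theorem abs_mavg_le {q : ℕ} (hq : 0 < q) {f : ℕ → ℝ} {C : ℝ}
    (h : ∀ k < q, |f k| ≤ C) : |mavg q f| ≤ C := by
  have := abs_mavg_sub_le hq (f := f) (g := fun _ => 0) (ε := C) (by simpa using h)
  rw [mavg_const hq] at this
  simpa using this

theorem sum_mod (q d : ℕ) (g : ℕ → ℝ) :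
    ∑ k ∈ range (q * d), g (k % q) = d * ∑ k ∈ range q, g k := by
  induction d with
  | zero => simp
  | succ d ih =>
    rw [Nat.mul_succ, Finset.sum_range_add, ih]
    have : ∑ x ∈ range q, g ((q * d + x) % q) = ∑ k ∈ range q, g k := by
      refine Finset.sum_congr rfl fun x hx => ?_
      rw [Nat.mul_add_mod, Nat.mod_eq_of_lt (Finset.mem_range.1 hx)]
    rw [this]
    push_cast
    ring

/-- The average of `g (k % q)` over `k < K` is close to the average of `g` over `k < q`. -/
theorem mavg_mod_sub {K q : ℕ} (hK : 0 < K) (hq : 0 < q) {g : ℕ → ℝ} {C : ℝ}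
    (h : ∀ k < q, |g k| ≤ C) : |mavg K (fun k => g (k % q)) - mavg q g| ≤ 2 * q * C / K := by
  have hK' : (0:ℝ) < K := by exact_mod_cast hK
  have hq' : (0:ℝ) < q := by exact_mod_cast hq
  have hC : 0 ≤ C := (abs_nonneg _).trans (h 0 hq)
  set d := K / q with hd
  set s := K % q with hs
  have hKds : K = q * d + s := (Nat.div_add_mod K q).symm
  have hsq : s < q := Nat.mod_lt _ hq
  have h1 : ∑ k ∈ range K, g (k % q) = d * ∑ k ∈ range q, g k + ∑ k ∈ range s, g k := by
    rw [hKds, Finset.sum_range_add, sum_mod]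
    congr 1
    refine Finset.sum_congr rfl fun x hx => ?_
    rw [Nat.mul_add_mod, Nat.mod_eq_of_lt ((Finset.mem_range.1 hx).trans hsq)]
  have h2 : mavg K (fun k => g (k % q)) - mavg q g =
      (∑ k ∈ range s, g k - s * mavg q g) / K := by
    unfold mavg
    rw [h1]
    have e : (K:ℝ) = q * d + s := by exact_mod_cast hKds
    field_simp
    rw [e]
    ring
  rw [h2, abs_div, abs_of_pos hK']
  apply div_le_div_of_nonneg_right _ hK'.le
  have h3 : |∑ k ∈ range s, g k| ≤ q * C := by
    calc |∑ k ∈ range s, g k| ≤ ∑ k ∈ range s, |g k| := Finset.abs_sum_le_sum_abs _ _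
      _ ≤ ∑ _k ∈ range s, C :=
          Finset.sum_le_sum fun k hk => h k ((Finset.mem_range.1 hk).trans hsq)
      _ = s * C := by rw [Finset.sum_const, Finset.card_range, nsmul_eq_mul]
      _ ≤ q * C := by
          apply mul_le_mul_of_nonneg_right _ hC
          exact_mod_cast hsq.le
  have h4 : |(s:ℝ) * mavg q g| ≤ q * C := by
    rw [abs_mul, abs_of_nonneg (by positivity : (0:ℝ) ≤ s)]
    exact mul_le_mul (by exact_mod_cast hsq.le) (abs_mavg_le hq h) (abs_nonneg _) hq'.le
  calc |∑ k ∈ range s, g k - s * mavg q g| ≤ |∑ k ∈ range s, g k| + |(s:ℝ) * mavg q g| :=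
        abs_sub _ _
    _ ≤ 2 * q * C := by linarith

/-- Replacing a random `B`-bit number modulo `q` by a uniform number below `q`. -/
theorem cavg_mod_sub {B q : ℕ} (hq : 0 < q) {g g0 : ℕ → ℝ} {C ε : ℝ}
    (h : ∀ k < q, |g k - g0 k| ≤ ε) (h0 : ∀ k < q, |g0 k| ≤ C) :
    |cavg B (fun w => g (val w % q)) - mavg q g0| ≤ ε + 2 * q * C / 2 ^ B := by
  have h1 : |cavg B (fun w => g (val w % q)) - cavg B (fun w => g0 (val w % q))| ≤ ε :=
    abs_cavg_sub_le fun l _ => h _ (Nat.mod_lt _ hq)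
  have h2 := mavg_mod_sub (K := 2 ^ B) (by positivity) hq h0
  rw [← cavg_val B (fun k => g0 (k % q))] at h2
  push_cast at h2
  calc |cavg B (fun w => g (val w % q)) - mavg q g0|
      ≤ |cavg B (fun w => g (val w % q)) - cavg B (fun w => g0 (val w % q))| +
        |cavg B (fun w => g0 (val w % q)) - mavg q g0| := abs_sub_le _ _ _
    _ ≤ ε + 2 * q * C / 2 ^ B := add_le_add h1 h2

end Vale.Agent.P328
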