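import Mathlib

/-!
# P328: contingency tables, a randomized random-access machine with logarithmic cost,
and the almost-uniform sampling statement
-/

namespace Vale.Agent.P328

open Finset

/-! ## The machine -/

/-- The memory of the machine: infinitely many cells, each holding a natural number. -/
abbrev Mem := ℕ → ℕ

/-- Arithmetic expressions.  `mem e` is the content of the memory cell whose address is the value
of `e`; `sub` is truncated subtraction, `size` the number of binary digits, `lt` is `1` if the
first argument is smaller and `0` otherwise. -/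
inductive Expr : Type
  | lit (k : ℕ)
  | mem (e : Expr)
  | add (a b : Expr)
  | sub (a b : Expr)
  | mul (a b : Expr)
  | div (a b : Expr)
  | mod (a b : Expr)
  | lt (a b : Expr)
  | size (a : Expr)

/-- The value of an expression. -/
def Expr.eval (M : Mem) : Expr → ℕ
  | lit k => k
  | mem e => M (e.eval M)
  | add a b => a.eval M + b.eval M
  | sub a b => a.eval M - b.eval M
  | mul a b => a.eval M * b.eval M
  | div a b => a.eval M / b.eval M
  | mod a b => a.eval M % b.eval M
  | lt a b => if a.eval M < b.eval M then 1 else 0
  | size a => Nat.size (a.eval M)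

/-- The cost of evaluating an expression (logarithmic cost): every operation costs one plus the
numbers of binary digits of its arguments, an access to a memory cell costs one plus the numbers
of binary digits of the address and of the content, and multiplication and division cost the
product of (one plus) the numbers of binary digits of the arguments. -/
def Expr.cost (M : Mem) : Expr → ℕ
  | lit k => 1 + Nat.size k
  | mem e => e.cost M + (1 + Nat.size (e.eval M) + Nat.size (M (e.eval M)))
  | add a b => a.cost M + b.cost M + (1 + Nat.size (a.eval M) + Nat.size (b.eval M))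
  | sub a b => a.cost M + b.cost M + (1 + Nat.size (a.eval M) + Nat.size (b.eval M))
  | mul a b => a.cost M + b.cost M + (1 + Nat.size (a.eval M)) * (1 + Nat.size (b.eval M))
  | div a b => a.cost M + b.cost M + (1 + Nat.size (a.eval M)) * (1 + Nat.size (b.eval M))
  | mod a b => a.cost M + b.cost M + (1 + Nat.size (a.eval M)) * (1 + Nat.size (b.eval M))
  | lt a b => a.cost M + b.cost M + (1 + Nat.size (a.eval M) + Nat.size (b.eval M))
  | size a => a.cost M + (1 + Nat.size (a.eval M))

/-- Programs.  `store a e` writes the value of `e` into the cell whose address is the value of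
`a`; `coin a` writes the result (`0` or `1`) of a fair coin flip into the cell whose address is
the value of `a`; in `ite` and `loop` a condition is true when its value is nonzero. -/
inductive Prog : Type
  | store (a e : Expr)
  | coin (a : Expr)
  | seq (p q : Prog)
  | ite (c : Expr) (p q : Prog)
  | loop (c : Expr) (p : Prog)

/-- `Exec p M w M' w' k`: started with memory `M` and with the coin flips `w` still to come, the
program `p` halts with memory `M'`, the coin flips `w'` not yet used, and total cost `k`. -/
inductive Exec : Prog → Mem → List Bool → Mem → List Bool → ℕ → Prop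
  | store (a e : Expr) (M : Mem) (w : List Bool) :
      Exec (.store a e) M w (Function.update M (a.eval M) (e.eval M)) w
        (1 + a.cost M + e.cost M)
  | coin (a : Expr) (M : Mem) (b : Bool) (w : List Bool) :
      Exec (.coin a) M (b :: w) (Function.update M (a.eval M) (if b then 1 else 0)) w
        (1 + a.cost M)
  | seq {p q : Prog} {M M' M'' : Mem} {w w' w'' : List Bool} {k k' : ℕ}
      (hp : Exec p M w M' w' k) (hq : Exec q M' w' M'' w'' k') :
      Exec (.seq p q) M w M'' w'' (k + k')
  | ite_true {c : Expr} {p q : Prog} {M M' : Mem} {w w' : List Bool} {k : ℕ}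
      (hc : c.eval M ≠ 0) (hp : Exec p M w M' w' k) :
      Exec (.ite c p q) M w M' w' (1 + c.cost M + k)
  | ite_false {c : Expr} {p q : Prog} {M M' : Mem} {w w' : List Bool} {k : ℕ}
      (hc : c.eval M = 0) (hq : Exec q M w M' w' k) :
      Exec (.ite c p q) M w M' w' (1 + c.cost M + k)
  | loop_done {c : Expr} {p : Prog} {M : Mem} {w : List Bool} (hc : c.eval M = 0) :
      Exec (.loop c p) M w M w (1 + c.cost M)
  | loop_step {c : Expr} {p : Prog} {M M' M'' : Mem} {w w' w'' : List Bool} {k k' : ℕ}
      (hc : c.eval M ≠ 0) (hp : Exec p M w M' w' k) (hl : Exec (.loop c p) M' w' M'' w'' k') :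
      Exec (.loop c p) M w M'' w'' (1 + c.cost M + k + k')

/-! ## Contingency tables -/

/-- `IsTable r c X`: the matrix `X` of natural numbers has row sums `r` and column sums `c`. -/
def IsTable {m n : ℕ} (r : Fin m → ℕ) (c : Fin n → ℕ) (X : Fin m → Fin n → ℕ) : Prop :=
  (∀ i, ∑ j, X i j = r i) ∧ (∀ j, ∑ i, X i j = c j)

/-- The set `Ω(r,c)` of contingency tables, as a type. -/
def Table {m n : ℕ} (r : Fin m → ℕ) (c : Fin n → ℕ) : Type :=
  {X : Fin m → Fin n → ℕ // IsTable r c X}

/-- The input length. -/
def inputLength {m n : ℕ} (r : Fin m → ℕ) (c : Fin n → ℕ) : ℕ :=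
  m + n + ∑ i, Nat.size (r i) + ∑ j, Nat.size (c j)

/-- The initial memory for the input `(r, c, t)` (the accuracy is `ε = 2 ^ (-t)`): cell `0`
contains `m`, cell `1` contains `n`, cell `2` contains `t`, the cells `17, …, 16 + m` contain
`r`, the cells `18 + m, …, 17 + m + n` contain `c`, all other cells are `0`. -/
def inputMem {m n : ℕ} (r : Fin m → ℕ) (c : Fin n → ℕ) (t : ℕ) : Mem := fun a =>
  if a = 0 then m else if a = 1 then n else if a = 2 then t
  else if h : 17 ≤ a ∧ a - 17 < m then r ⟨a - 17, h.2⟩
  else if h : 18 + m ≤ a ∧ a - (18 + m) < n then c ⟨a - (18 + m), h.2⟩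
  else 0

/-- The output read from the memory: the entry `(i, j)` is in the cell `18 + m + n + n * i + j`. -/
def outputMem (m n : ℕ) (M : Mem) : Fin m → Fin n → ℕ := fun i j =>
  M (18 + m + n + (n * (i : ℕ) + (j : ℕ)))

end Vale.Agent.P328
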