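import Vale.Agent.P328.StepSpec

/-!
# P328: the initial table and the parameters
-/

namespace Vale.Agent.P328

open Finset

/-! ## The north-west corner table -/

/-- a vector, extended by zero -/
def ext {m : ℕ} (r : Fin m → ℕ) (i : ℕ) : ℕ := if h : i < m then r ⟨i, h⟩ else 0

/-- partial sums -/
def psum {m : ℕ} (r : Fin m → ℕ) (k : ℕ) : ℕ := ∑ i ∈ range k, ext r i

theorem psum_zero {m : ℕ} (r : Fin m → ℕ) : psum r 0 = 0 := by simp [psum]

theorem psum_succ {m : ℕ} (r : Fin m → ℕ) (k : ℕ) : psum r (k + 1) = psum r k + ext r k := by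
  simp [psum, Finset.sum_range_succ]

theorem psum_full {m : ℕ} (r : Fin m → ℕ) : psum r m = ∑ i, r i := by
  unfold psum
  rw [Finset.sum_range]
  exact Finset.sum_congr rfl fun i _ => by simp [ext]

theorem psum_mono {m : ℕ} (r : Fin m → ℕ) : Monotone (psum r) := by
  apply monotone_nat_of_le_succ
  intro k
  rw [psum_succ]
  exact Nat.le_add_right _ _

theorem psum_le {m : ℕ} (r : Fin m → ℕ) {k : ℕ} (hk : k ≤ m) : psum r k ≤ ∑ i, r i := by
  rw [← psum_full]
  exact psum_mono r hk

/-- the entries of the initial table -/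
def nw {m n : ℕ} (r : Fin m → ℕ) (c : Fin n → ℕ) (i j : ℕ) : ℕ :=
  (min (psum r (i + 1)) (psum c (j + 1)) + min (psum r i) (psum c j)) -
    (min (psum r i) (psum c (j + 1)) + min (psum r (i + 1)) (psum c j))

/-- minimum, as an integer -/
def mz (x y : ℕ) : ℤ := ((min x y : ℕ) : ℤ)

theorem nw_cast {m n : ℕ} (r : Fin m → ℕ) (c : Fin n → ℕ) (i j : ℕ) :
    (nw r c i j : ℤ) = (mz (psum r (i + 1)) (psum c (j + 1)) - mz (psum r i) (psum c (j + 1))) -
      (mz (psum r (i + 1)) (psum c j) - mz (psum r i) (psum c j)) := by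
  have h1 : psum r i ≤ psum r (i + 1) := psum_mono r (Nat.le_succ i)
  have h2 : psum c j ≤ psum c (j + 1) := psum_mono c (Nat.le_succ j)
  unfold nw mz
  omega

theorem nw_isTable {m n : ℕ} (r : Fin m → ℕ) (c : Fin n → ℕ) (h : ∑ i, r i = ∑ j, c j) :
    IsTable r c (fun i j => nw r c i j) := by
  constructor
  · intro i
    have hi : psum r ((i : ℕ) + 1) = psum r i + r i := by
      rw [psum_succ]; simp [ext]
    have h1 : psum r ((i : ℕ) + 1) ≤ psum c n := by
      rw [psum_full c, ← h]; exact psum_le r i.2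
    have e : (∑ j : Fin n, (nw r c i j : ℤ)) = r i := by
      calc (∑ j : Fin n, (nw r c i j : ℤ)) = ∑ j ∈ range n, (nw r c i j : ℤ) :=
            (Finset.sum_range (f := fun j => (nw r c i j : ℤ))).symm
        _ = ∑ j ∈ range n, ((fun j => mz (psum r ((i : ℕ) + 1)) (psum c j) -
              mz (psum r i) (psum c j)) (j + 1) - (fun j => mz (psum r ((i : ℕ) + 1)) (psum c j) -
              mz (psum r i) (psum c j)) j) :=
            Finset.sum_congr rfl fun j _ => nw_cast r c i j
        _ = (mz (psum r ((i : ℕ) + 1)) (psum c n) - mz (psum r i) (psum c n)) -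
              (mz (psum r ((i : ℕ) + 1)) (psum c 0) - mz (psum r i) (psum c 0)) :=
            Finset.sum_range_sub (fun j => mz (psum r ((i : ℕ) + 1)) (psum c j) -
              mz (psum r i) (psum c j)) n
        _ = r i := by
            rw [psum_zero]
            unfold mz
            omega
    exact_mod_cast e
  · intro j
    have hj : psum c ((j : ℕ) + 1) = psum c j + c j := by
      rw [psum_succ]; simp [ext]
    have h1 : psum c ((j : ℕ) + 1) ≤ psum r m := by
      rw [psum_full r, h]; exact psum_le c j.2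
    have e : (∑ i : Fin m, (nw r c i j : ℤ)) = c j := by
      calc (∑ i : Fin m, (nw r c i j : ℤ)) = ∑ i ∈ range m, (nw r c i j : ℤ) :=
            (Finset.sum_range (f := fun i => (nw r c i j : ℤ))).symm
        _ = ∑ i ∈ range m, ((fun i => mz (psum r i) (psum c ((j : ℕ) + 1)) -
              mz (psum r i) (psum c j)) (i + 1) - (fun i => mz (psum r i) (psum c ((j : ℕ) + 1)) -
              mz (psum r i) (psum c j)) i) :=
            Finset.sum_congr rfl fun i _ => by rw [nw_cast r c i j]; ring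
        _ = (mz (psum r m) (psum c ((j : ℕ) + 1)) - mz (psum r m) (psum c j)) -
              (mz (psum r 0) (psum c ((j : ℕ) + 1)) - mz (psum r 0) (psum c j)) :=
            Finset.sum_range_sub (fun i => mz (psum r i) (psum c ((j : ℕ) + 1)) -
              mz (psum r i) (psum c j)) m
        _ = c j := by
            rw [psum_zero]
            unfold mz
            omega
    exact_mod_cast e

/-! ## A loop that fills an array -/

/-- `for (cell 5) < bound: store a v` -/
def forProg (bound a v : Expr) : Prog :=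
  .seq (set 5 (.lit 0)) (.loop (.lt (reg 5) bound)
    (.seq (.store a v) (set 5 (.add (reg 5) (.lit 1)))))

theorem for_spec (bound a v : Expr) : ∃ D : ℕ, ∀ (N S : ℕ) (Inv : ℕ → Mem → Prop)
    (_ : ∀ i M, Inv i M → Bdd S M ∧ M 5 = i ∧ bound.eval M = N) (_ : N < 2 ^ S)
    (_ : ∀ i < N, ∀ M, Inv i M → v.eval M < 2 ^ S ∧ a.eval M ≠ 5 ∧
      Inv (i + 1) (Function.update (Function.update M (a.eval M) (v.eval M)) 5 (i + 1)))
    (M : Mem) (_ : Bdd S M) (_ : Inv 0 (Function.update M 5 0)),
    ∃ M', Runs (forProg bound a v) M [] M' (D * (N + 1) * (S + 1) ^ 2) ∧ Inv N M' := by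
  obtain ⟨D1, h1⟩ := set_bound 5 (.lit 0)
  obtain ⟨D2, h2⟩ := cost_le (.lt (reg 5) bound)
  obtain ⟨D3, h3⟩ := store_bound a v
  obtain ⟨D4, h4⟩ := set_bound 5 (.add (reg 5) (.lit 1))
  refine ⟨D1 + (1 + D2 + D3 + D4) + (1 + D2), ?_⟩
  intro N S Inv hInv hNS hstep M hM hI0
  have h0 : 0 < 2 ^ S := by positivity
  have e2 : 1 ≤ (S + 1) ^ 2 := Nat.one_le_pow _ _ (by omega)
  obtain ⟨M', hI, hr⟩ := runs_loop (c := .lt (reg 5) bound)
    (p := .seq (.store a v) (set 5 (.add (reg 5) (.lit 1)))) (K := (D3 + D4) * (S + 1) ^ 2)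
    (C := D2 * (S + 1) ^ 2) N Inv (fun _ => [])
    (by
      intro i hi M1 hI
      obtain ⟨-, h5, hb⟩ := hInv i M1 hI
      simp [h5, hb, hi])
    (by
      intro M1 hI
      obtain ⟨-, h5, hb⟩ := hInv N M1 hI
      simp [h5, hb])
    (by
      intro i hi M1 hI
      exact h2 M1 S (hInv i M1 hI).1.size)
    (by
      intro i hi M1 hI
      obtain ⟨hb, h5, -⟩ := hInv i M1 hI
      obtain ⟨hv, ha, hI'⟩ := hstep i hi M1 hI
      refine ⟨_, hI', ?_⟩
      have r1 := h3 M1 S hb
      have hb1 := hb.update (a := a.eval M1) hv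
      have r2 := h4 _ S hb1
      have e3 : (Expr.add (reg 5) (Expr.lit 1)).eval
          (Function.update M1 (a.eval M1) (v.eval M1)) = i + 1 := by
        simp [Function.update_of_ne (Ne.symm ha), h5]
      rw [e3] at r2
      have := r1.seq r2
      rw [List.append_nil] at this
      refine this.mono (le_of_eq (by ring)))
    (Function.update M 5 0) hI0
  refine ⟨M', ?_, hI⟩
  have r1 := h1 M S hM
  rw [eval_lit] at r1
  have := r1.seq hr
  have ew : ([] : List Bool) ++ (List.range N).flatMap (fun _ => []) = [] := by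
    simp
  rw [ew] at this
  refine this.mono ?_
  have z3 : N * (1 + D2 * (S + 1) ^ 2 + (D3 + D4) * (S + 1) ^ 2) ≤
      N * ((1 + D2 + D3 + D4) * (S + 1) ^ 2) := by
    apply Nat.mul_le_mul_left
    have : (1 + D2 + D3 + D4) * (S + 1) ^ 2 = (S + 1) ^ 2 + D2 * (S + 1) ^ 2 +
      (D3 + D4) * (S + 1) ^ 2 := by ring
    omega
  have z4 : (D1 + (1 + D2 + D3 + D4) + (1 + D2)) * (N + 1) * (S + 1) ^ 2 =
      D1 * (S + 1) ^ 2 + N * (D1 * (S + 1) ^ 2) + N * ((1 + D2 + D3 + D4) * (S + 1) ^ 2) +
      (1 + D2 + D3 + D4) * (S + 1) ^ 2 + N * ((1 + D2) * (S + 1) ^ 2) +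
      ((S + 1) ^ 2 + D2 * (S + 1) ^ 2) := by ring
  omega

/-! ## The three loops -/

/-- first loop: partial sums of `r` -/
def loop1 : Prog := forProg (reg 0) (.add (.lit 17) (reg 5))
  (.add (.mem (.add (.lit 17) (reg 5))) (.mem (.add (.lit 16) (reg 5))))

/-- second loop: partial sums of `c` -/
def loop2 : Prog := forProg (reg 1) (.add (.add (.lit 18) (reg 0)) (reg 5))
  (.add (.mem (.add (.add (.lit 18) (reg 0)) (reg 5)))
    (.mem (.add (.add (.lit 17) (reg 0)) (reg 5))))

/-- row partial sum, column partial sum -/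
def rE (k : ℕ) : Expr := .mem (.add (.lit k) (.div (reg 5) (reg 1)))
/-- column partial sum -/
def cE (k : ℕ) : Expr := .mem (.add (.add (.lit k) (reg 0)) (.mod (reg 5) (reg 1)))

/-- third loop: the initial table -/
def loop3 : Prog := forProg (.mul (reg 0) (reg 1))
  (.add (.add (.lit 18) (.add (reg 0) (reg 1))) (reg 5))
  (.sub (.add (minE (rE 17) (cE 18)) (minE (rE 16) (cE 17)))
    (.add (minE (rE 16) (cE 18)) (minE (rE 17) (cE 17))))

theorem loop1_spec : ∃ D : ℕ, ∀ {m n : ℕ} (r : Fin m → ℕ) (c : Fin n → ℕ) (t S : ℕ) (M : Mem)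
    (_ : Bdd S M) (_ : M 0 = m ∧ M 1 = n ∧ M 2 = t) (_ : ∑ i, r i < 2 ^ S) (_ : m < 2 ^ S)
    (_ : M 16 = 0) (_ : ∀ k < m, M (17 + k) = ext r k) (_ : M (17 + m) = 0)
    (_ : ∀ k < n, M (18 + m + k) = ext c k),
    ∃ M', Runs loop1 M [] M' (D * (m + 1) * (S + 1) ^ 2) ∧ Bdd S M' ∧
      (M' 0 = m ∧ M' 1 = n ∧ M' 2 = t) ∧ (∀ k ≤ m, M' (16 + k) = psum r k) ∧ M' (17 + m) = 0 ∧
      (∀ k < n, M' (18 + m + k) = ext c k) := by
  obtain ⟨D, hD⟩ := for_spec (reg 0) (.add (.lit 17) (reg 5))
    (.add (.mem (.add (.lit 17) (reg 5))) (.mem (.add (.lit 16) (reg 5))))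
  refine ⟨D, ?_⟩
  intro m n r c t S M hM hreg hN hmS h16 hr h17 hc
  have h0 : 0 < 2 ^ S := by positivity
  obtain ⟨M', hrun, hI⟩ := hD m S (fun i M1 => (Bdd S M1 ∧ M1 5 = i) ∧
      (M1 0 = m ∧ M1 1 = n ∧ M1 2 = t) ∧ (∀ k ≤ i, M1 (16 + k) = psum r k) ∧
      (∀ k, i ≤ k → k < m → M1 (17 + k) = ext r k) ∧ M1 (17 + m) = 0 ∧
      (∀ k < n, M1 (18 + m + k) = ext c k))
    (by
      rintro i M1 ⟨⟨hb, h5⟩, ⟨h0', -, -⟩, -⟩
      exact ⟨hb, h5, by simp [h0']⟩) hmS
    (by
      rintro i hi M1 ⟨⟨hb, h5⟩, ⟨h0', h1', h2'⟩, hp, hx, h17', hc'⟩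
      have ea : (Expr.add (.lit 17) (reg 5)).eval M1 = 17 + i := by simp [h5]
      have ev : (Expr.add (.mem (.add (.lit 17) (reg 5))) (.mem (.add (.lit 16) (reg 5)))).eval M1 =
          psum r (i + 1) := by
        simp only [eval_add, eval_mem, eval_lit, eval_reg, h5]
        rw [hx i le_rfl hi, hp i le_rfl, psum_succ, add_comm]
      have hlt : psum r (i + 1) < 2 ^ S := (psum_le r hi).trans_lt hN
      rw [ea, ev]
      refine ⟨hlt, by omega, ⟨(hb.update hlt).update (by omega), by simp⟩, ?_, ?_, ?_, ?_, ?_⟩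
      · refine ⟨?_, ?_, ?_⟩ <;>
          rw [Function.update_of_ne (by norm_num), Function.update_of_ne (by omega)] <;> assumption
      · intro k hk
        rw [Function.update_of_ne (by omega)]
        by_cases hk' : k = i + 1
        · subst hk'
          have : 16 + (i + 1) = 17 + i := by omega
          rw [this, Function.update_self]
        · rw [Function.update_of_ne (by omega)]
          exact hp k (by omega)
      · intro k hk hk'
        rw [Function.update_of_ne (by omega), Function.update_of_ne (by omega)]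
        exact hx k (by omega) hk'
      · rw [Function.update_of_ne (by omega), Function.update_of_ne (by omega)]
        exact h17'
      · intro k hk
        rw [Function.update_of_ne (by omega), Function.update_of_ne (by omega)]
        exact hc' k hk) M hM
    (by
      refine ⟨⟨hM.update h0, by simp⟩, ?_, ?_, ?_, ?_, ?_⟩
      · obtain ⟨a1, a2, a3⟩ := hreg
        refine ⟨?_, ?_, ?_⟩ <;> rw [Function.update_of_ne (by norm_num)] <;> assumption
      · intro k hk
        have : k = 0 := by omega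
        subst this
        rw [Function.update_of_ne (by norm_num), psum_zero]
        exact h16
      · intro k _ hk
        rw [Function.update_of_ne (by omega)]
        exact hr k hk
      · rw [Function.update_of_ne (by omega)]
        exact h17
      · intro k hk
        rw [Function.update_of_ne (by omega)]
        exact hc k hk)
  exact ⟨M', hrun, hI.1.1, hI.2.1, hI.2.2.1, hI.2.2.2.2.1, hI.2.2.2.2.2⟩

theorem loop2_spec : ∃ D : ℕ, ∀ {m n : ℕ} (r : Fin m → ℕ) (c : Fin n → ℕ) (t S : ℕ) (M : Mem)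
    (_ : Bdd S M) (_ : M 0 = m ∧ M 1 = n ∧ M 2 = t) (_ : ∑ i, c i < 2 ^ S) (_ : n < 2 ^ S)
    (_ : ∀ k ≤ m, M (16 + k) = psum r k) (_ : M (17 + m) = 0)
    (_ : ∀ k < n, M (18 + m + k) = ext c k),
    ∃ M', Runs loop2 M [] M' (D * (n + 1) * (S + 1) ^ 2) ∧ Bdd S M' ∧
      (M' 0 = m ∧ M' 1 = n ∧ M' 2 = t) ∧ (∀ k ≤ m, M' (16 + k) = psum r k) ∧
      (∀ k ≤ n, M' (17 + m + k) = psum c k) := by
  obtain ⟨D, hD⟩ := for_spec (reg 1) (.add (.add (.lit 18) (reg 0)) (reg 5))
    (.add (.mem (.add (.add (.lit 18) (reg 0)) (reg 5)))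
      (.mem (.add (.add (.lit 17) (reg 0)) (reg 5))))
  refine ⟨D, ?_⟩
  intro m n r c t S M hM hreg hN hmS hr h17 hc
  have h0 : 0 < 2 ^ S := by positivity
  obtain ⟨M', hrun, hI⟩ := hD n S (fun i M1 => (Bdd S M1 ∧ M1 5 = i) ∧
      (M1 0 = m ∧ M1 1 = n ∧ M1 2 = t) ∧ (∀ k ≤ m, M1 (16 + k) = psum r k) ∧
      (∀ k ≤ i, M1 (17 + m + k) = psum c k) ∧
      (∀ k, i ≤ k → k < n → M1 (18 + m + k) = ext c k))
    (by
      rintro i M1 ⟨⟨hb, h5⟩, ⟨-, h1', -⟩, -⟩
      exact ⟨hb, h5, by simp [h1']⟩) hmS
    (by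
      rintro i hi M1 ⟨⟨hb, h5⟩, ⟨h0', h1', h2'⟩, hr', hp, hx⟩
      have ea : (Expr.add (.add (.lit 18) (reg 0)) (reg 5)).eval M1 = 18 + m + i := by
        simp [h5, h0']
      have ev : (Expr.add (.mem (.add (.add (.lit 18) (reg 0)) (reg 5)))
          (.mem (.add (.add (.lit 17) (reg 0)) (reg 5)))).eval M1 = psum c (i + 1) := by
        simp only [eval_add, eval_mem, eval_lit, eval_reg, h5, h0']
        rw [hx i le_rfl hi, hp i le_rfl, psum_succ, add_comm]
      have hlt : psum c (i + 1) < 2 ^ S := (psum_le c hi).trans_lt hN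
      rw [ea, ev]
      refine ⟨hlt, by omega, ⟨(hb.update hlt).update (by omega), by simp⟩, ?_, ?_, ?_, ?_⟩
      · refine ⟨?_, ?_, ?_⟩ <;>
          rw [Function.update_of_ne (by norm_num), Function.update_of_ne (by omega)] <;> assumption
      · intro k hk
        rw [Function.update_of_ne (by omega), Function.update_of_ne (by omega)]
        exact hr' k hk
      · intro k hk
        rw [Function.update_of_ne (by omega)]
        by_cases hk' : k = i + 1
        · subst hk'
          have : 17 + m + (i + 1) = 18 + m + i := by omega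
          rw [this, Function.update_self]
        · rw [Function.update_of_ne (by omega)]
          exact hp k (by omega)
      · intro k hk hk'
        rw [Function.update_of_ne (by omega), Function.update_of_ne (by omega)]
        exact hx k (by omega) hk') M hM
    (by
      refine ⟨⟨hM.update h0, by simp⟩, ?_, ?_, ?_, ?_⟩
      · obtain ⟨a1, a2, a3⟩ := hreg
        refine ⟨?_, ?_, ?_⟩ <;> rw [Function.update_of_ne (by norm_num)] <;> assumption
      · intro k hk
        rw [Function.update_of_ne (by omega)]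
        exact hr k hk
      · intro k hk
        have : k = 0 := by omega
        subst this
        rw [Function.update_of_ne (by omega), psum_zero]
        exact h17
      · intro k _ hk
        rw [Function.update_of_ne (by omega)]
        exact hc k hk)
  exact ⟨M', hrun, hI.1.1, hI.2.1, hI.2.2.1, hI.2.2.2.1⟩

theorem loop3_spec : ∃ D : ℕ, ∀ {m n : ℕ} (_ : 0 < n) (r : Fin m → ℕ) (c : Fin n → ℕ) (t S : ℕ)
    (M : Mem)
    (_ : Bdd S M) (_ : M 0 = m ∧ M 1 = n ∧ M 2 = t) (_ : 2 * ∑ i, r i < 2 ^ S)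
    (_ : m * n < 2 ^ S)
    (_ : ∀ k ≤ m, M (16 + k) = psum r k) (_ : ∀ k ≤ n, M (17 + m + k) = psum c k),
    ∃ M', Runs loop3 M [] M' (D * (m * n + 1) * (S + 1) ^ 2) ∧ Bdd S M' ∧
      (M' 0 = m ∧ M' 1 = n ∧ M' 2 = t) ∧ M' (16 + m) = ∑ i, r i ∧
      (∀ q < m * n, M' (18 + (m + n) + q) = nw r c (q / n) (q % n)) := by
  obtain ⟨D, hD⟩ := for_spec (.mul (reg 0) (reg 1))
    (.add (.add (.lit 18) (.add (reg 0) (reg 1))) (reg 5))
    (.sub (.add (minE (rE 17) (cE 18)) (minE (rE 16) (cE 17)))
      (.add (minE (rE 16) (cE 18)) (minE (rE 17) (cE 17))))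
  refine ⟨D, ?_⟩
  intro m n hn r c t S M hM hreg hN hmS hr hc
  have h0 : 0 < 2 ^ S := by positivity
  obtain ⟨M', hrun, hI⟩ := hD (m * n) S (fun i M1 => (Bdd S M1 ∧ M1 5 = i) ∧
      (M1 0 = m ∧ M1 1 = n ∧ M1 2 = t) ∧ (∀ k ≤ m, M1 (16 + k) = psum r k) ∧
      (∀ k ≤ n, M1 (17 + m + k) = psum c k) ∧
      (∀ q < i, M1 (18 + (m + n) + q) = nw r c (q / n) (q % n)))
    (by
      rintro i M1 ⟨⟨hb, h5⟩, ⟨h0', h1', -⟩, -⟩
      exact ⟨hb, h5, by simp [h0', h1']⟩) hmS
    (by
      rintro i hi M1 ⟨⟨hb, h5⟩, ⟨h0', h1', h2'⟩, hr', hc', hx⟩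
      have hdiv : i / n < m := Nat.div_lt_of_lt_mul (by rwa [mul_comm] at hi)
      have hmod : i % n < n := Nat.mod_lt _ hn
      have ea : (Expr.add (.add (.lit 18) (.add (reg 0) (reg 1))) (reg 5)).eval M1 =
          18 + (m + n) + i := by
        simp [h5, h0', h1']
      have er : ∀ s, s = 16 ∨ s = 17 → (rE s).eval M1 = psum r (i / n + (s - 16)) := by
        intro s hs
        simp only [rE, eval_mem, eval_add, eval_lit, eval_div, eval_reg, h5, h1']
        rcases hs with rfl | rfl
        · rw [hr' _ (by omega)]; simp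
        · have : 17 + i / n = 16 + (i / n + 1) := by omega
          rw [this, hr' _ (by omega)]
      have ec : ∀ s, s = 17 ∨ s = 18 → (cE s).eval M1 = psum c (i % n + (s - 17)) := by
        intro s hs
        simp only [cE, eval_mem, eval_add, eval_lit, eval_mod, eval_reg, h5, h1', h0']
        rcases hs with rfl | rfl
        · rw [hc' _ (by omega)]; simp
        · have : 18 + m + i % n = 17 + m + (i % n + 1) := by omega
          rw [this, hc' _ (by omega)]
      have ev : (Expr.sub (.add (minE (rE 17) (cE 18)) (minE (rE 16) (cE 17)))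
          (.add (minE (rE 16) (cE 18)) (minE (rE 17) (cE 17)))).eval M1 =
          nw r c (i / n) (i % n) := by
        simp only [eval_sub, eval_add, eval_minE]
        rw [er 17 (Or.inr rfl), er 16 (Or.inl rfl), ec 17 (Or.inl rfl), ec 18 (Or.inr rfl)]
        rfl
      have hlt : nw r c (i / n) (i % n) < 2 ^ S := by
        have b1 : psum r (i / n + 1) ≤ ∑ i, r i := psum_le r (by omega)
        have b2 : psum r (i / n) ≤ ∑ i, r i := psum_le r (by omega)
        have : nw r c (i / n) (i % n) ≤ psum r (i / n + 1) + psum r (i / n) := by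
          unfold nw
          refine (Nat.sub_le _ _).trans (add_le_add (min_le_left _ _) (min_le_left _ _))
        omega
      rw [ea, ev]
      refine ⟨hlt, by omega, ⟨(hb.update hlt).update (by omega), by simp⟩, ?_, ?_, ?_, ?_⟩
      · refine ⟨?_, ?_, ?_⟩ <;>
          rw [Function.update_of_ne (by norm_num), Function.update_of_ne (by omega)] <;> assumption
      · intro k hk
        rw [Function.update_of_ne (by omega), Function.update_of_ne (by omega)]
        exact hr' k hk
      · intro k hk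
        rw [Function.update_of_ne (by omega), Function.update_of_ne (by omega)]
        exact hc' k hk
      · intro k hk
        rw [Function.update_of_ne (by omega)]
        by_cases hk' : k = i
        · subst hk'
          rw [Function.update_self]
        · rw [Function.update_of_ne (by omega)]
          exact hx k (by omega)) M hM
    (by
      refine ⟨⟨hM.update h0, by simp⟩, ?_, ?_, ?_, ?_⟩
      · obtain ⟨a1, a2, a3⟩ := hreg
        refine ⟨?_, ?_, ?_⟩ <;> rw [Function.update_of_ne (by norm_num)] <;> assumption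
      · intro k hk
        rw [Function.update_of_ne (by omega)]
        exact hr k hk
      · intro k hk
        rw [Function.update_of_ne (by omega)]
        exact hc k hk
      · intro k hk
        omega)
  refine ⟨M', hrun, hI.1.1, hI.2.1, ?_, hI.2.2.2.2⟩
  rw [hI.2.2.1 m le_rfl, psum_full]

/-! ## The parameters -/

/-- The number of steps. -/
def Tn (e m n N t : ℕ) : ℕ := (m * n) ^ e * (2 * (Nat.size N * (m * n) + t + 4))

/-- The number of random bits for one random number. -/
def Bn (e m n N t : ℕ) : ℕ :=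
  Nat.size m + Nat.size n + Nat.size N + Nat.size (Tn e m n N t) + t + 6

/-- powers of expressions -/
def powE (x : Expr) : ℕ → Expr
  | 0 => .lit 1
  | e + 1 => .mul (powE x e) x

theorem eval_powE (M : Mem) (x : Expr) (e : ℕ) : (powE x e).eval M = (x.eval M) ^ e := by
  induction e with
  | zero => simp [powE]
  | succ e ih => simp [powE, ih, pow_succ]

/-- the instruction that computes the number of steps -/
def tE (e : ℕ) : Expr := .mul (powE (.mul (reg 0) (reg 1)) e)
  (.mul (.lit 2) (.add (.add (.mul (reg 12) (.mul (reg 0) (reg 1))) (reg 2)) (.lit 4)))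

/-- the instruction that computes the number of random bits -/
def bE : Expr := .add (.add (.add (.add (.add (.size (reg 0)) (.size (reg 1))) (reg 12))
  (.size (reg 4))) (reg 2)) (.lit 6)

/-- The initialisation. -/
def initProg (e : ℕ) : Prog :=
  .seq loop1 (.seq loop2 (.seq loop3 (.seq (set 12 (.size (.mem (.add (.lit 16) (reg 0)))))
    (.seq (set 4 (tE e)) (set 3 bE)))))

theorem two_pow_gt_of_size {x k B : ℕ} (h : Nat.size x + k ≤ B) : 2 ^ k * x < 2 ^ B := by
  have h1 := Nat.lt_size_self x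
  calc 2 ^ k * x < 2 ^ k * 2 ^ Nat.size x := by
        exact Nat.mul_lt_mul_of_pos_left h1 (by positivity)
    _ = 2 ^ (Nat.size x + k) := by rw [pow_add, mul_comm]
    _ ≤ 2 ^ B := Nat.pow_le_pow_right (by norm_num) h

theorem ext_le {m : ℕ} (r : Fin m → ℕ) (k : ℕ) : ext r k ≤ ∑ i, r i := by
  unfold ext
  split_ifs with h
  · exact Finset.single_le_sum (fun _ _ => Nat.zero_le _) (Finset.mem_univ (⟨k, h⟩ : Fin m))
  · exact Nat.zero_le _

theorem inputMem_bdd {m n : ℕ} (r : Fin m → ℕ) (c : Fin n → ℕ) (t : ℕ) {S : ℕ}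
    (h1 : m < 2 ^ S) (h2 : n < 2 ^ S) (h3 : t < 2 ^ S) (h4 : ∑ i, r i < 2 ^ S)
    (h5 : ∑ j, c j < 2 ^ S) : Bdd S (inputMem r c t) := by
  intro a
  unfold inputMem
  split_ifs with a1 a2 a3 a4 a5
  · exact h1
  · exact h2
  · exact h3
  · refine lt_of_le_of_lt ?_ h4
    exact Finset.single_le_sum (f := r) (fun _ _ => Nat.zero_le _) (Finset.mem_univ _)
  · refine lt_of_le_of_lt ?_ h5
    exact Finset.single_le_sum (f := c) (fun _ _ => Nat.zero_le _) (Finset.mem_univ _)
  · positivity

theorem init_spec (e : ℕ) : ∃ D : ℕ, ∀ {m n : ℕ} (_ : 0 < m) (_ : 0 < n) (r : Fin m → ℕ)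
    (c : Fin n → ℕ) (_ : ∑ i, r i = ∑ j, c j) (t : ℕ),
    ∃ M', Runs (initProg e) (inputMem r c t) [] M'
        (D * (m + n + m * n + 1) * (Bn e m n (∑ i, r i) t + 1) ^ 2) ∧
      Holds (m := m) (n := n) (Bn e m n (∑ i, r i) t) (Tn e m n (∑ i, r i) t)
        (fun i j => nw r c i j) M' := by
  obtain ⟨D1, h1⟩ := loop1_spec
  obtain ⟨D2, h2⟩ := loop2_spec
  obtain ⟨D3, h3⟩ := loop3_spec
  obtain ⟨D4, h4⟩ := set_bound 12 (.size (.mem (.add (.lit 16) (reg 0))))
  obtain ⟨D5, h5⟩ := set_bound 4 (tE e)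
  obtain ⟨D6, h6⟩ := set_bound 3 bE
  refine ⟨D1 + D2 + D3 + D4 + D5 + D6, ?_⟩
  intro m n hm hn r c hrc t
  set N := ∑ i, r i with hN
  set B := Bn e m n N t with hB
  set T := Tn e m n N t with hT
  have hBdef : B = Nat.size m + Nat.size n + Nat.size N + Nat.size T + t + 6 := rfl
  have bm : m < 2 ^ B := by
    simpa using two_pow_gt_of_size (x := m) (k := 0) (B := B) (by omega)
  have bn : n < 2 ^ B := by
    simpa using two_pow_gt_of_size (x := n) (k := 0) (B := B) (by omega)
  have bT : T < 2 ^ B := by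
    simpa using two_pow_gt_of_size (x := T) (k := 0) (B := B) (by omega)
  have bN : 8 * N < 2 ^ B := by
    simpa using two_pow_gt_of_size (x := N) (k := 3) (B := B) (by omega)
  have bt : t < 2 ^ B := lt_of_lt_of_le Nat.lt_two_pow_self
    (Nat.pow_le_pow_right (by norm_num) (by omega))
  have bB : B < 2 ^ B := Nat.lt_two_pow_self
  have bmn : m * n < 2 ^ B := by
    have := two_pow_gt_of_size (x := m * n) (k := 0) (B := B)
      (by have := size_mul_le m n; omega)
    simpa using this
  -- the input memory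
  have hM0 : Bdd B (inputMem r c t) := inputMem_bdd r c t bm bn bt (by omega) (by omega)
  have i0 : inputMem r c t 0 = m := by simp [inputMem]
  have i1 : inputMem r c t 1 = n := by simp [inputMem]
  have i2 : inputMem r c t 2 = t := by simp [inputMem]
  have i16 : inputMem r c t 16 = 0 := by
    have : ¬ (18 + m ≤ 16 ∧ 16 - (18 + m) < n) := by omega
    simp [inputMem, this]
  have ir : ∀ k < m, inputMem r c t (17 + k) = ext r k := by
    intro k hk
    unfold inputMem ext
    rw [if_neg (by omega), if_neg (by omega), if_neg (by omega), dif_pos (by omega),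
      dif_pos hk]
    congr 1
    ext
    simp
  have i17 : inputMem r c t (17 + m) = 0 := by
    unfold inputMem
    rw [if_neg (by omega), if_neg (by omega), if_neg (by omega), dif_neg (by omega),
      dif_neg (by omega)]
  have ic : ∀ k < n, inputMem r c t (18 + m + k) = ext c k := by
    intro k hk
    unfold inputMem ext
    rw [if_neg (by omega), if_neg (by omega), if_neg (by omega), dif_neg (by omega),
      dif_pos (by omega), dif_pos hk]
    congr 1
    ext
    simp
  -- the three loops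
  obtain ⟨M1, r1, b1, g1, p1, q1, s1⟩ := h1 r c t B _ hM0 ⟨i0, i1, i2⟩ (by omega) bm i16 ir i17 ic
  obtain ⟨M2, r2, b2, g2, p2, q2⟩ := h2 r c t B M1 b1 g1 (by omega) bn p1 q1 s1
  obtain ⟨M3, r3, b3, g3, p3, q3⟩ := h3 hn r c t B M2 b2 g2 (by omega) bmn p2 q2
  obtain ⟨g30, g31, g32⟩ := g3
  -- register 12
  have r4 := h4 M3 B b3
  have e4 : (Expr.size (.mem (.add (.lit 16) (reg 0)))).eval M3 = Nat.size N := by
    simp only [eval_size, eval_mem, eval_add, eval_lit, eval_reg, g30, p3]
    rfl
  rw [e4] at r4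
  have b4 : Bdd B (Function.update M3 12 (Nat.size N)) := b3.update (by
    have : Nat.size N ≤ B := by omega
    omega)
  -- register 4
  have r5 := h5 _ B b4
  have e5 : (tE e).eval (Function.update M3 12 (Nat.size N)) = T := by
    simp only [tE, eval_mul, eval_powE, eval_add, eval_lit, eval_reg]
    have a0 : (Function.update M3 12 (Nat.size N)) 0 = m := by simp [Function.update, g30]
    have a1 : (Function.update M3 12 (Nat.size N)) 1 = n := by simp [Function.update, g31]
    have a2 : (Function.update M3 12 (Nat.size N)) 2 = t := by simp [Function.update, g32]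
    have a12 : (Function.update M3 12 (Nat.size N)) 12 = Nat.size N := by simp
    rw [a0, a1, a2, a12]
    rfl
  rw [e5] at r5
  have b5 := b4.update (a := 4) bT
  -- register 3
  have r6 := h6 _ B b5
  have e6 : bE.eval (Function.update (Function.update M3 12 (Nat.size N)) 4 T) = B := by
    simp only [bE, eval_size, eval_add, eval_lit, eval_reg]
    have a0 : (Function.update (Function.update M3 12 (Nat.size N)) 4 T) 0 = m := by
      simp [Function.update, g30]
    have a1 : (Function.update (Function.update M3 12 (Nat.size N)) 4 T) 1 = n := by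
      simp [Function.update, g31]
    have a2 : (Function.update (Function.update M3 12 (Nat.size N)) 4 T) 2 = t := by
      simp [Function.update, g32]
    have a12 : (Function.update (Function.update M3 12 (Nat.size N)) 4 T) 12 = Nat.size N := by
      simp [Function.update]
    have a4 : (Function.update (Function.update M3 12 (Nat.size N)) 4 T) 4 = T := by simp
    rw [a0, a1, a2, a12, a4]
    exact hBdef.symm
  rw [e6] at r6
  refine ⟨_, ((r1.seq (r2.seq (r3.seq (r4.seq (r5.seq r6)))))).mono ?_, ?_⟩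
  · have z : (D1 + D2 + D3 + D4 + D5 + D6) * (m + n + m * n + 1) * (B + 1) ^ 2 =
      D1 * (m + 1) * (B + 1) ^ 2 + (D2 * (n + 1) * (B + 1) ^ 2 +
      (D3 * (m * n + 1) * (B + 1) ^ 2 + (D4 * (B + 1) ^ 2 + (D5 * (B + 1) ^ 2 +
      D6 * (B + 1) ^ 2)))) + (D1 * (n + m * n) * (B + 1) ^ 2 + D2 * (m + m * n) * (B + 1) ^ 2 +
      D3 * (m + n) * (B + 1) ^ 2 + (D4 + D5 + D6) * (m + n + m * n) * (B + 1) ^ 2) := by ring
    rw [z]
    exact Nat.le_add_right _ _
  · refine ⟨?_, ?_, ?_, ?_, ?_, b5.update bB⟩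
    · simp [Function.update, g30]
    · simp [Function.update, g31]
    · simp
    · simp [Function.update]
    · intro i j
      rw [Function.update_of_ne (by omega), Function.update_of_ne (by omega),
        Function.update_of_ne (by omega)]
      have hq : n * (i : ℕ) + (j : ℕ) < m * n := by
        have := i.2
        have := j.2
        calc n * (i : ℕ) + (j : ℕ) < n * (i : ℕ) + n := by omega
          _ = n * ((i : ℕ) + 1) := by ring
          _ ≤ n * m := Nat.mul_le_mul_left _ (by omega)
          _ = m * n := mul_comm _ _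
      have := q3 _ hq
      rw [Nat.mul_add_div hn, Nat.div_eq_of_lt j.2, Nat.mul_add_mod, Nat.mod_eq_of_lt j.2,
        add_zero] at this
      rw [← this]
      congr 1
      ring

/-- The whole program. -/
def sampler (e : ℕ) : Prog := .seq (initProg e) mainLoop

end Vale.Agent.P328
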