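import Vale.Agent.P328.Mix
import Vale.Agent.P328.Init

/-!
# P328: the law of the output of the program
-/

namespace Vale.Agent.P328

open Finset

/-- One step of the real chain (with random bits). -/
noncomputable def pt {m n : ℕ} (hm : 0 < m) (hn : 0 < n) (B : ℕ)
    (f : (Fin m → Fin n → ℕ) → ℝ) (X : Fin m → Fin n → ℕ) : ℝ :=
  cavg (5 * B) (fun w => f (stepL hm hn B X w))

theorem stepL_append {m n : ℕ} (hm : 0 < m) (hn : 0 < n) (B : ℕ) (X : Fin m → Fin n → ℕ)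
    {u : List Bool} (hu : u.length = 5 * B) (v : List Bool) :
    stepL hm hn B X (u ++ v) = stepL hm hn B X u := by
  rw [← stepL_take, ← hu, List.take_left']
  rfl

theorem cavg_run {m n : ℕ} (hm : 0 < m) (hn : 0 < n) (B : ℕ) (T : ℕ)
    (f : (Fin m → Fin n → ℕ) → ℝ) (X : Fin m → Fin n → ℕ) :
    cavg (T * (5 * B)) (fun w => f (runX hm hn B T X w)) = ((pt hm hn B)^[T] f) X := by
  induction T generalizing X with
  | zero => simp [cavg_zero, runX]
  | succ T ih =>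
    have e : (T + 1) * (5 * B) = 5 * B + T * (5 * B) := by ring
    rw [e, cavg_add, Function.iterate_succ_apply']
    unfold pt
    apply cavg_congr
    intro u hu
    have h1 : ∀ v, runX hm hn B (T + 1) X (u ++ v) = runX hm hn B T (stepL hm hn B X u) v := by
      intro v
      rw [runX, stepL_append hm hn B X hu, ← hu, List.drop_left']
      rfl
    simp only [h1]
    exact ih _

theorem stepL_append5 {m n : ℕ} (hm : 0 < m) (hn : 0 < n) (B : ℕ) (X : Fin m → Fin n → ℕ)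
    {w1 w2 w3 w4 w5 : List Bool} (h1 : w1.length = B) (h2 : w2.length = B) (h3 : w3.length = B)
    (h4 : w4.length = B) (h5 : w5.length = B) :
    stepL hm hn B X (w1 ++ (w2 ++ (w3 ++ (w4 ++ w5)))) =
      stepX hm hn X (val w1) (val w2) (val w3) (val w4) (val w5) := by
  have d1 : (w1 ++ (w2 ++ (w3 ++ (w4 ++ w5)))).drop B = w2 ++ (w3 ++ (w4 ++ w5)) :=
    List.drop_left' h1
  have d2 : (w1 ++ (w2 ++ (w3 ++ (w4 ++ w5)))).drop (2 * B) = w3 ++ (w4 ++ w5) := by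
    rw [two_mul, ← List.drop_drop, d1, List.drop_left' h2]
  have d3 : (w1 ++ (w2 ++ (w3 ++ (w4 ++ w5)))).drop (3 * B) = w4 ++ w5 := by
    rw [show 3 * B = 2 * B + B by ring, ← List.drop_drop, d2, List.drop_left' h3]
  have d4 : (w1 ++ (w2 ++ (w3 ++ (w4 ++ w5)))).drop (4 * B) = w5 := by
    rw [show 4 * B = 3 * B + B by ring, ← List.drop_drop, d3, List.drop_left' h4]
  unfold stepL
  rw [d1, d2, d3, d4, List.take_left' h1, List.take_left' h2, List.take_left' h3,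
    List.take_left' h4, List.take_of_length_le h5.le]

/-- the update with given random number, rows and columns given by natural numbers -/
noncomputable def blkR {m n : ℕ} (f : (Fin m → Fin n → ℕ) → ℝ) (X : Fin m → Fin n → ℕ)
    (u v a b R : ℕ) : ℝ :=
  if h : (u < m ∧ v < m) ∧ (a < n ∧ b < n) ∧ u ≠ v ∧ a ≠ b then
    f (blockUpd X ⟨u, h.1.1⟩ ⟨v, h.1.2⟩ ⟨a, h.2.1.1⟩ ⟨b, h.2.1.2⟩ R)
  else f X

theorem f_stepX {m n : ℕ} (hm : 0 < m) (hn : 0 < n) (f : (Fin m → Fin n → ℕ) → ℝ)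
    (X : Fin m → Fin n → ℕ) (R1 R2 R3 R4 R5 : ℕ) :
    f (stepX hm hn X R1 R2 R3 R4 R5) = blkR f X (R1 % m) (R2 % m) (R3 % n) (R4 % n) R5 := by
  unfold stepX blkR
  by_cases h : R1 % m ≠ R2 % m ∧ R3 % n ≠ R4 % n
  · rw [if_pos h, dif_pos ⟨⟨Nat.mod_lt _ hm, Nat.mod_lt _ hm⟩, ⟨Nat.mod_lt _ hn, Nat.mod_lt _ hn⟩,
      h.1, h.2⟩]
  · rw [if_neg h, dif_neg]
    rintro ⟨-, -, h1, h2⟩
    exact h ⟨h1, h2⟩

theorem pt_eq {m n : ℕ} (hm : 0 < m) (hn : 0 < n) (B : ℕ) (f : (Fin m → Fin n → ℕ) → ℝ)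
    (X : Fin m → Fin n → ℕ) :
    pt hm hn B f X = cavg B fun w1 => cavg B fun w2 => cavg B fun w3 => cavg B fun w4 =>
      cavg B fun w5 => blkR f X (val w1 % m) (val w2 % m) (val w3 % n) (val w4 % n) (val w5) := by
  unfold pt
  rw [show 5 * B = B + (B + (B + (B + B))) by ring, cavg_add]
  refine cavg_congr fun w1 h1 => ?_
  rw [cavg_add]
  refine cavg_congr fun w2 h2 => ?_
  rw [cavg_add]
  refine cavg_congr fun w3 h3 => ?_
  rw [cavg_add]
  refine cavg_congr fun w4 h4 => cavg_congr fun w5 h5 => ?_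
  rw [stepL_append5 hm hn B X h1 h2 h3 h4 h5]
  exact f_stepX hm hn f X _ _ _ _ _

theorem abs_blk_le {m n : ℕ} {f : (Fin m → Fin n → ℕ) → ℝ} {C : ℝ} (hf : ∀ X, |f X| ≤ C)
    (X : Fin m → Fin n → ℕ) (u v a b : ℕ) : |blk f X u v a b| ≤ C := by
  unfold blk
  split_ifs with h
  · exact abs_mavg_le (Nat.succ_pos _) fun k _ => hf _
  · exact hf X

theorem abs_chain_le {m n : ℕ} (hm : 0 < m) (hn : 0 < n) {f : (Fin m → Fin n → ℕ) → ℝ} {C : ℝ}
    (hf : ∀ X, |f X| ≤ C) (X : Fin m → Fin n → ℕ) : |chain f X| ≤ C :=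
  abs_mavg_le hm fun _ _ => abs_mavg_le hm fun _ _ => abs_mavg_le hn fun _ _ =>
    abs_mavg_le hn fun _ _ => abs_blk_le hf X _ _ _ _

theorem blkR_close {m n : ℕ} {r : Fin m → ℕ} {c : Fin n → ℕ} {X : Fin m → Fin n → ℕ}
    (hX : IsTable r c X) (B : ℕ) {f : (Fin m → Fin n → ℕ) → ℝ} {C : ℝ} (hf : ∀ X, |f X| ≤ C)
    (u v a b : ℕ) :
    |cavg B (fun w => blkR f X u v a b (val w)) - blk f X u v a b| ≤
      2 * (2 * (∑ i, r i : ℕ) + 1) * C / 2 ^ B := by
  have hC : 0 ≤ C := (abs_nonneg _).trans (hf X)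
  unfold blkR blk
  split_ifs with h
  · set p := min (X ⟨u, h.1.1⟩ ⟨a, h.2.1.1⟩) (X ⟨v, h.1.2⟩ ⟨b, h.2.1.2⟩) +
      min (X ⟨u, h.1.1⟩ ⟨b, h.2.1.2⟩) (X ⟨v, h.1.2⟩ ⟨a, h.2.1.1⟩) + 1 with hp
    have h1 := cavg_mod_sub (B := B) (q := p) (Nat.succ_pos _)
      (g := fun k => f (blockUpd X ⟨u, h.1.1⟩ ⟨v, h.1.2⟩ ⟨a, h.2.1.1⟩ ⟨b, h.2.1.2⟩ k))
      (g0 := fun k => f (blockUpd X ⟨u, h.1.1⟩ ⟨v, h.1.2⟩ ⟨a, h.2.1.1⟩ ⟨b, h.2.1.2⟩ k))
      (C := C) (ε := 0) (by simp) (fun k _ => hf _)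
    have h2 : ∀ w : List Bool, f (blockUpd X ⟨u, h.1.1⟩ ⟨v, h.1.2⟩ ⟨a, h.2.1.1⟩ ⟨b, h.2.1.2⟩
        (val w % p)) = f (blockUpd X ⟨u, h.1.1⟩ ⟨v, h.1.2⟩ ⟨a, h.2.1.1⟩ ⟨b, h.2.1.2⟩
        (val w)) := by
      intro w
      congr 1
      unfold blockUpd
      rw [← hp, Nat.mod_mod]
    simp only [h2] at h1
    refine h1.trans ?_
    rw [zero_add]
    apply div_le_div_of_nonneg_right _ (by positivity)
    apply mul_le_mul_of_nonneg_right _ hC
    have e1 := hX.entry_le ⟨u, h.1.1⟩ ⟨a, h.2.1.1⟩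
    have e2 := hX.entry_le ⟨u, h.1.1⟩ ⟨b, h.2.1.2⟩
    have e3 : p ≤ 2 * ∑ i, r i + 1 := by omega
    have e4 : (p : ℝ) ≤ 2 * (∑ i, r i : ℕ) + 1 := by exact_mod_cast e3
    linarith
  · rw [cavg_const, sub_self, abs_zero]
    positivity

/-- The real chain is close to the ideal chain. -/
theorem pt_close {m n : ℕ} (hm : 0 < m) (hn : 0 < n) {r : Fin m → ℕ} {c : Fin n → ℕ}
    {X : Fin m → Fin n → ℕ} (hX : IsTable r c X) (B : ℕ) {f : (Fin m → Fin n → ℕ) → ℝ} {C : ℝ}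
    (hf : ∀ X, |f X| ≤ C) :
    |pt hm hn B f X - chain f X| ≤
      2 * (2 * m + 2 * n + 2 * (∑ i, r i : ℕ) + 1) * C / 2 ^ B := by
  rw [pt_eq]
  unfold chain
  have h5 := fun u v a b => blkR_close hX B hf u v a b
  have h4 : ∀ u v a, |cavg B (fun w4 => cavg B fun w5 => blkR f X u v a (val w4 % n) (val w5)) -
      mavg n (fun b => blk f X u v a b)| ≤
      2 * (2 * (∑ i, r i : ℕ) + 1) * C / 2 ^ B + 2 * n * C / 2 ^ B := fun u v a =>
    cavg_mod_sub (g := fun b => cavg B fun w5 => blkR f X u v a b (val w5)) hn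
      (fun b _ => h5 u v a b) (fun b _ => abs_blk_le hf X _ _ _ _)
  have h3 : ∀ u v, |cavg B (fun w3 => cavg B (fun w4 => cavg B fun w5 =>
      blkR f X u v (val w3 % n) (val w4 % n) (val w5))) -
      mavg n (fun a => mavg n (fun b => blk f X u v a b))| ≤
      2 * (2 * (∑ i, r i : ℕ) + 1) * C / 2 ^ B + 2 * n * C / 2 ^ B + 2 * n * C / 2 ^ B :=
    fun u v =>
    cavg_mod_sub (g := fun a => cavg B (fun w4 => cavg B fun w5 =>
      blkR f X u v a (val w4 % n) (val w5))) hn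
      (fun a _ => h4 u v a) (fun a _ => abs_mavg_le hn fun _ _ => abs_blk_le hf X _ _ _ _)
  have h2 : ∀ u, |cavg B (fun w2 => cavg B (fun w3 => cavg B (fun w4 => cavg B fun w5 =>
      blkR f X u (val w2 % m) (val w3 % n) (val w4 % n) (val w5)))) -
      mavg m (fun v => mavg n (fun a => mavg n (fun b => blk f X u v a b)))| ≤
      2 * (2 * (∑ i, r i : ℕ) + 1) * C / 2 ^ B + 2 * n * C / 2 ^ B + 2 * n * C / 2 ^ B +
        2 * m * C / 2 ^ B :=
    fun u =>
    cavg_mod_sub (g := fun v => cavg B (fun w3 => cavg B (fun w4 => cavg B fun w5 =>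
      blkR f X u v (val w3 % n) (val w4 % n) (val w5)))) hm
      (fun v _ => h3 u v) (fun v _ => abs_mavg_le hn fun _ _ => abs_mavg_le hn fun _ _ =>
        abs_blk_le hf X _ _ _ _)
  have h1 := cavg_mod_sub (B := B) (g := fun u => cavg B (fun w2 => cavg B (fun w3 =>
      cavg B (fun w4 => cavg B fun w5 =>
      blkR f X u (val w2 % m) (val w3 % n) (val w4 % n) (val w5))))) hm
      (fun u _ => h2 u) (fun u _ => abs_mavg_le hm fun _ _ => abs_mavg_le hn fun _ _ =>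
        abs_mavg_le hn fun _ _ => abs_blk_le hf X _ _ _ _)
  refine h1.trans (le_of_eq ?_)
  ring

/-- Many steps. -/
theorem iterate_close {m n : ℕ} (hm : 0 < m) (hn : 0 < n) {r : Fin m → ℕ} {c : Fin n → ℕ}
    (B : ℕ) {f : (Fin m → Fin n → ℕ) → ℝ} {C : ℝ} (hf : ∀ X, |f X| ≤ C) (T : ℕ) :
    (∀ X, |(chain^[T] f) X| ≤ C) ∧ ∀ X, IsTable r c X →
    |((pt hm hn B)^[T] f) X - (chain^[T] f) X| ≤
      T * (2 * (2 * m + 2 * n + 2 * (∑ i, r i : ℕ) + 1) * C / 2 ^ B) := by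
  induction T with
  | zero => exact ⟨hf, fun X _ => by simp⟩
  | succ T ih =>
    obtain ⟨ih1, ih2⟩ := ih
    rw [Function.iterate_succ_apply', Function.iterate_succ_apply']
    refine ⟨fun X => abs_chain_le hm hn ih1 X, fun X hX => ?_⟩
    have h1 : |pt hm hn B ((pt hm hn B)^[T] f) X - pt hm hn B (chain^[T] f) X| ≤
        T * (2 * (2 * m + 2 * n + 2 * (∑ i, r i : ℕ) + 1) * C / 2 ^ B) := by
      unfold pt
      exact abs_cavg_sub_le fun w _ => ih2 _ (stepX_isTable hm hn hX _ _ _ _ _)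
    have h2 := pt_close hm hn hX B ih1
    calc |pt hm hn B ((pt hm hn B)^[T] f) X - chain (chain^[T] f) X|
        ≤ |pt hm hn B ((pt hm hn B)^[T] f) X - pt hm hn B (chain^[T] f) X| +
          |pt hm hn B (chain^[T] f) X - chain (chain^[T] f) X| := abs_sub_le _ _ _
      _ ≤ _ := by
          push_cast
          push_cast at h1 h2
          linarith

theorem mavg_add {q : ℕ} (f g : ℕ → ℝ) : mavg q (fun k => f k + g k) = mavg q f + mavg q g := by
  unfold mavg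
  rw [Finset.sum_add_distrib, add_div]

theorem chain_add_const {m n : ℕ} (hm : 0 < m) (hn : 0 < n) (f : (Fin m → Fin n → ℕ) → ℝ)
    (d : ℝ) : chain (fun X => f X + d) = fun X => chain f X + d := by
  funext X
  have h1 : ∀ u v a b, blk (fun X => f X + d) X u v a b = blk f X u v a b + d := by
    intro u v a b
    unfold blk
    split_ifs with h
    · unfold blockAvg
      rw [mavg_add, mavg_const (Nat.succ_pos _)]
    · rfl
  unfold chain
  simp only [h1, mavg_add, mavg_const hn, mavg_const hm]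

theorem iterate_chain_add_const {m n : ℕ} (hm : 0 < m) (hn : 0 < n)
    (f : (Fin m → Fin n → ℕ) → ℝ) (d : ℝ) (T : ℕ) :
    chain^[T] (fun X => f X + d) = fun X => (chain^[T] f) X + d := by
  induction T with
  | zero => rfl
  | succ T ih =>
    rw [Function.iterate_succ_apply', ih, chain_add_const hm hn, Function.iterate_succ_apply']

theorem card_tables_le {m n : ℕ} (r : Fin m → ℕ) (c : Fin n → ℕ) :
    (tables r c).card ≤ 2 ^ (Nat.size (∑ i, r i) * (m * n)) := by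
  classical
  unfold tables
  refine (Finset.card_filter_le _ _).trans ?_
  rw [Fintype.card_piFinset_const, Fintype.card_piFinset_const, Finset.card_range, pow_mul,
    mul_comm m n, pow_mul]
  exact Nat.pow_le_pow_left (Nat.pow_le_pow_left (Nat.lt_size_self _) _) _

theorem rounding_bound {m n N T t B : ℕ} (hm : 0 < m) (hn : 0 < n)
    (hB : B = Nat.size m + Nat.size n + Nat.size N + Nat.size T + t + 6) :
    (T : ℝ) * (2 * (2 * m + 2 * n + 2 * N + 1) / 2 ^ B) ≤ (1 / 2) ^ t := by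
  have b1 : (m : ℝ) ≤ 2 ^ Nat.size m := by exact_mod_cast (Nat.lt_size_self m).le
  have b2 : (n : ℝ) ≤ 2 ^ Nat.size n := by exact_mod_cast (Nat.lt_size_self n).le
  have b3 : (N : ℝ) + 1 ≤ 2 ^ Nat.size N := by exact_mod_cast (Nat.lt_size_self N)
  have b4 : (T : ℝ) ≤ 2 ^ Nat.size T := by exact_mod_cast (Nat.lt_size_self T).le
  have c1 : (1:ℝ) ≤ m := by exact_mod_cast hm
  have c2 : (1:ℝ) ≤ n := by exact_mod_cast hn
  have c3 : (0:ℝ) ≤ N := Nat.cast_nonneg _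
  have c4 : (0:ℝ) ≤ T := Nat.cast_nonneg _
  have hBe : (2:ℝ) ^ B = 2 ^ Nat.size m * 2 ^ Nat.size n * 2 ^ Nat.size N * 2 ^ Nat.size T *
      2 ^ t * 64 := by
    rw [hB]
    simp only [pow_add]
    norm_num
  rw [mul_div_assoc', div_le_iff₀ (by positivity), hBe]
  have e0 : ((1:ℝ) / 2) ^ t * 2 ^ t = 1 := by rw [← mul_pow]; norm_num
  generalize (2:ℝ) ^ Nat.size m = a1 at *
  generalize (2:ℝ) ^ Nat.size n = a2 at *
  generalize (2:ℝ) ^ Nat.size N = a3 at *
  generalize (2:ℝ) ^ Nat.size T = a4 at *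
  generalize (2:ℝ) ^ t = a5 at *
  generalize ((1:ℝ) / 2) ^ t = a6 at *
  generalize (m : ℝ) = x1 at *
  generalize (n : ℝ) = x2 at *
  generalize (N : ℝ) = x3 at *
  generalize (T : ℝ) = x4 at *
  have d1 : x1 * x2 * (x3 + 1) * x4 ≤ a1 * a2 * a3 * a4 := by
    have q1 : 0 ≤ a1 := by linarith
    have q2 : 0 ≤ a2 := by linarith
    have q3 : 0 ≤ a3 := by linarith
    have y1 := mul_le_mul b1 b2 (by linarith) q1
    have y2 := mul_le_mul y1 b3 (by linarith) (mul_nonneg q1 q2)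
    exact mul_le_mul y2 b4 c4 (mul_nonneg (mul_nonneg q1 q2) q3)
  have x12 : 1 ≤ x1 * x2 := by nlinarith
  have d2 : 2 * (2 * x1 + 2 * x2 + 2 * x3 + 1) ≤ 14 * (x1 * x2 * (x3 + 1)) := by
    have z1 : x1 * 1 ≤ x1 * x2 := mul_le_mul_of_nonneg_left c2 (by linarith)
    have z2 : 1 * x2 ≤ x1 * x2 := mul_le_mul_of_nonneg_right c1 (by linarith)
    have z3 : 1 * (x3 + 1) ≤ x1 * x2 * (x3 + 1) := mul_le_mul_of_nonneg_right x12 (by linarith)
    have z4 : x1 * x2 * 1 ≤ x1 * x2 * (x3 + 1) :=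
      mul_le_mul_of_nonneg_left (by linarith) (by linarith)
    linarith
  have e1 : a6 * (a1 * a2 * a3 * a4 * a5 * 64) = a1 * a2 * a3 * a4 * 64 := by
    calc a6 * (a1 * a2 * a3 * a4 * a5 * 64) = a1 * a2 * a3 * a4 * 64 * (a6 * a5) := by ring
      _ = _ := by rw [e0, mul_one]
  rw [e1]
  have p0 : 0 ≤ x1 * x2 * (x3 + 1) * x4 :=
    mul_nonneg (mul_nonneg (by linarith) (by linarith)) c4
  calc x4 * (2 * (2 * x1 + 2 * x2 + 2 * x3 + 1)) ≤ x4 * (14 * (x1 * x2 * (x3 + 1))) :=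
        mul_le_mul_of_nonneg_left d2 c4
    _ = (x1 * x2 * (x3 + 1) * x4) * 14 := by ring
    _ ≤ (x1 * x2 * (x3 + 1) * x4) * 64 := mul_le_mul_of_nonneg_left (by norm_num) p0
    _ ≤ _ := mul_le_mul_of_nonneg_right d1 (by norm_num)

/-- The expectation of a bounded function at the end of the program. -/
theorem cavg_run_close {e m n : ℕ} (hgap : Gap e) (hm : 0 < m) (hn : 0 < n) {r : Fin m → ℕ}
    {c : Fin n → ℕ} (hrc : ∑ i, r i = ∑ j, c j) (t : ℕ) {X0 : Fin m → Fin n → ℕ}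
    (hX0 : IsTable r c X0) (g : (Fin m → Fin n → ℕ) → ℝ) (hg : ∀ X, |g X| ≤ 1) :
    |cavg (Tn (e + 2) m n (∑ i, r i) t * (5 * Bn (e + 2) m n (∑ i, r i) t))
        (fun w => g (runX hm hn (Bn (e + 2) m n (∑ i, r i) t)
          (Tn (e + 2) m n (∑ i, r i) t) X0 w)) -
      (∑ X ∈ tables r c, g X) / (tables r c).card| ≤ 2 * (1 / 2) ^ t := by
  set N := ∑ i, r i with hN
  set B := Bn (e + 2) m n N t with hB
  set T := Tn (e + 2) m n N t with hT
  set S := ((tables r c).card : ℝ) with hS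
  have hS0 : 0 < S := by
    rw [hS, Nat.cast_pos, Finset.card_pos]
    exact ⟨X0, mem_tables.2 hX0⟩
  set d := (∑ X ∈ tables r c, g X) / S with hd
  have hd1 : |d| ≤ 1 := by
    rw [hd, abs_div, abs_of_pos hS0, div_le_one hS0]
    calc |∑ X ∈ tables r c, g X| ≤ ∑ X ∈ tables r c, |g X| := Finset.abs_sum_le_sum_abs _ _
      _ ≤ ∑ _X ∈ tables r c, (1:ℝ) := Finset.sum_le_sum fun X _ => hg X
      _ = S := by simp [hS]
  -- the centered function
  have hf0 : ∑ X ∈ tables r c, (g X - d) = 0 := by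
    rw [Finset.sum_sub_distrib, Finset.sum_const, nsmul_eq_mul, ← hS, hd]
    field_simp
    ring
  have h1 := iterate_chain_sq_le hgap hm hn hrc T (fun X => g X - d) hf0
  have h2 : (chain^[T] g) X0 = (chain^[T] (fun X => g X - d)) X0 + d := by
    have := iterate_chain_add_const hm hn (fun X => g X - d) d T
    simp only [sub_add_cancel] at this
    exact congrFun this X0
  have h3 : (chain^[T] (fun X => g X - d)) X0 ^ 2 ≤
      ∑ X ∈ tables r c, (chain^[T] (fun X => g X - d)) X ^ 2 :=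
    Finset.single_le_sum (f := fun X => (chain^[T] (fun X => g X - d)) X ^ 2)
      (fun X _ => sq_nonneg _) (mem_tables.2 hX0)
  have h4 : ∑ X ∈ tables r c, (g X - d) ^ 2 ≤ 4 * S := by
    calc ∑ X ∈ tables r c, (g X - d) ^ 2 ≤ ∑ _X ∈ tables r c, (4:ℝ) := by
          refine Finset.sum_le_sum fun X _ => ?_
          have a1 := abs_le.1 (hg X)
          have a2 := abs_le.1 hd1
          nlinarith
      _ = 4 * S := by rw [Finset.sum_const, nsmul_eq_mul, ← hS, mul_comm]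
  have hmn : (1:ℝ) ≤ (m : ℝ) * n := by
    have h1 : (1:ℝ) ≤ m := by exact_mod_cast hm
    have h2 : (1:ℝ) ≤ n := by exact_mod_cast hn
    nlinarith
  set D := ((m : ℝ) * n) ^ (e + 2) with hD
  have hD1 : 1 ≤ D := one_le_pow₀ hmn
  have hD0 : 0 < D := by linarith
  set K := Nat.size N * (m * n) + t + 4 with hK
  have hTD : (T : ℝ) = D * (2 * K) := by
    rw [hT, hD, hK]
    unfold Tn
    push_cast
    ring
  have h5 : (1 - 1 / D) ^ T ≤ (1 / 2) ^ (2 * K) := by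
    have a1 : 1 - 1 / D ≤ Real.exp (-(1 / D)) := Real.one_sub_le_exp_neg _
    have a0 : 0 ≤ 1 - 1 / D := by
      have : 1 / D ≤ 1 := by rw [div_le_one hD0]; exact hD1
      linarith
    calc (1 - 1 / D) ^ T ≤ (Real.exp (-(1 / D))) ^ T := pow_le_pow_left₀ a0 a1 T
      _ = Real.exp (-((2 * K : ℕ) : ℝ)) := by
          rw [← Real.exp_nat_mul, hTD]
          congr 1
          push_cast
          field_simp
      _ = (Real.exp (-1)) ^ (2 * K) := by
          rw [← Real.exp_nat_mul]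
          congr 1
          ring
      _ ≤ (1 / 2) ^ (2 * K) := by
          apply pow_le_pow_left₀ (Real.exp_pos _).le
          rw [Real.exp_neg, one_div]
          apply inv_anti₀ (by norm_num)
          have := Real.exp_one_gt_d9
          linarith
  have h6 : S ≤ 2 ^ (Nat.size N * (m * n)) := by
    rw [hS]
    exact_mod_cast card_tables_le r c
  have h7 : (chain^[T] (fun X => g X - d)) X0 ^ 2 ≤ ((1 / 2) ^ t) ^ 2 := by
    have a1 : (1 - 1 / D) ^ T * ∑ X ∈ tables r c, (g X - d) ^ 2 ≤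
        (1 / 2) ^ (2 * K) * (4 * 2 ^ (Nat.size N * (m * n))) := by
      apply mul_le_mul h5 (h4.trans (by linarith)) (Finset.sum_nonneg fun _ _ => sq_nonneg _)
        (by positivity)
    refine (h3.trans (h1.trans a1)).trans ?_
    have a2 : (2 * K) = (Nat.size N * (m * n)) + ((Nat.size N * (m * n)) + 8 + t * 2) := by
      rw [hK]; ring
    rw [a2, pow_add, ← pow_mul]
    have a3 : ((1:ℝ) / 2) ^ (Nat.size N * (m * n)) * 2 ^ (Nat.size N * (m * n)) = 1 := by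
      rw [← mul_pow]; norm_num
    have a4 : ((1:ℝ) / 2) ^ ((Nat.size N * (m * n)) + 8 + t * 2) ≤
        (1 / 4) * (1 / 2) ^ (t * 2) := by
      rw [pow_add]
      apply mul_le_mul_of_nonneg_right _ (by positivity)
      calc ((1:ℝ) / 2) ^ (Nat.size N * (m * n) + 8) ≤ (1 / 2) ^ 2 :=
            pow_le_pow_of_le_one (by norm_num) (by norm_num) (by omega)
        _ = 1 / 4 := by norm_num
    calc (1 / 2 : ℝ) ^ (Nat.size N * (m * n)) *
          (1 / 2) ^ ((Nat.size N * (m * n)) + 8 + t * 2) * (4 * 2 ^ (Nat.size N * (m * n)))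
        = ((1:ℝ) / 2) ^ (Nat.size N * (m * n)) * 2 ^ (Nat.size N * (m * n)) *
          (4 * (1 / 2) ^ ((Nat.size N * (m * n)) + 8 + t * 2)) := by ring
      _ = 4 * (1 / 2) ^ ((Nat.size N * (m * n)) + 8 + t * 2) := by rw [a3, one_mul]
      _ ≤ 4 * ((1 / 4) * (1 / 2) ^ (t * 2)) := by linarith
      _ = (1 / 2) ^ (t * 2) := by ring
  have h8 : |(chain^[T] (fun X => g X - d)) X0| ≤ (1 / 2) ^ t :=
    abs_le_of_sq_le_sq h7 (by positivity)
  -- the rounding error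
  have h9 := (iterate_close (r := r) (c := c) hm hn B (C := 1) hg T).2 X0 hX0
  have h10 : (T : ℝ) * (2 * (2 * m + 2 * n + 2 * (N : ℕ) + 1) * 1 / 2 ^ B) ≤ (1 / 2) ^ t := by
    rw [mul_one]
    exact rounding_bound hm hn rfl
  rw [cavg_run]
  have h11 : |((pt hm hn B)^[T] g) X0 - d| ≤ |((pt hm hn B)^[T] g) X0 - (chain^[T] g) X0| +
      |(chain^[T] g) X0 - d| := abs_sub_le _ _ _
  have h12 : |(chain^[T] g) X0 - d| ≤ (1 / 2) ^ t := by
    rw [h2, add_sub_cancel_right]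
    exact h8
  linarith

end Vale.Agent.P328
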