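import Vale.Agent.P328.Defs

/-!
# P328: program logic for the machine
-/

namespace Vale.Agent.P328

open Finset

/-- `p`, started in `M`, uses exactly the coins `w`, ends in `M'`, and costs at most `K`. -/
def Runs (p : Prog) (M : Mem) (w : List Bool) (M' : Mem) (K : ℕ) : Prop :=
  ∃ k ≤ K, ∀ rest, Exec p M (w ++ rest) M' rest k

theorem Runs.mono {p : Prog} {M M' : Mem} {w : List Bool} {K K' : ℕ} (h : Runs p M w M' K)
    (hK : K ≤ K') : Runs p M w M' K' := by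
  obtain ⟨k, hk, h⟩ := h
  exact ⟨k, hk.trans hK, h⟩

theorem Runs.seq {p q : Prog} {M M1 M2 : Mem} {w1 w2 : List Bool} {K1 K2 : ℕ}
    (h1 : Runs p M w1 M1 K1) (h2 : Runs q M1 w2 M2 K2) :
    Runs (.seq p q) M (w1 ++ w2) M2 (K1 + K2) := by
  obtain ⟨k1, hk1, h1⟩ := h1
  obtain ⟨k2, hk2, h2⟩ := h2
  refine ⟨k1 + k2, by omega, fun rest => ?_⟩
  rw [List.append_assoc]
  exact Exec.seq (h1 _) (h2 _)

theorem runs_store (a e : Expr) (M : Mem) :
    Runs (.store a e) M [] (Function.update M (a.eval M) (e.eval M))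
      (1 + a.cost M + e.cost M) :=
  ⟨_, le_rfl, fun rest => Exec.store a e M rest⟩

theorem runs_coin (a : Expr) (M : Mem) (b : Bool) :
    Runs (.coin a) M [b] (Function.update M (a.eval M) (if b then 1 else 0))
      (1 + a.cost M) :=
  ⟨_, le_rfl, fun rest => Exec.coin a M b rest⟩

theorem Runs.ite_true {c : Expr} {p q : Prog} {M M' : Mem} {w : List Bool} {K : ℕ}
    (hc : c.eval M ≠ 0) (h : Runs p M w M' K) : Runs (.ite c p q) M w M' (1 + c.cost M + K) := by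
  obtain ⟨k, hk, h⟩ := h
  exact ⟨1 + c.cost M + k, by omega, fun rest => Exec.ite_true hc (h rest)⟩

theorem Runs.ite_false {c : Expr} {p q : Prog} {M M' : Mem} {w : List Bool} {K : ℕ}
    (hc : c.eval M = 0) (h : Runs q M w M' K) : Runs (.ite c p q) M w M' (1 + c.cost M + K) := by
  obtain ⟨k, hk, h⟩ := h
  exact ⟨1 + c.cost M + k, by omega, fun rest => Exec.ite_false hc (h rest)⟩

/-- The loop rule: `N` more iterations, with an invariant. -/
theorem runs_loop {c : Expr} {p : Prog} {K C : ℕ} :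
    ∀ (N : ℕ) (Inv : ℕ → Mem → Prop) (ws : ℕ → List Bool)
    (_ : ∀ i < N, ∀ M, Inv i M → c.eval M ≠ 0) (_ : ∀ M, Inv N M → c.eval M = 0)
    (_ : ∀ i ≤ N, ∀ M, Inv i M → c.cost M ≤ C)
    (_ : ∀ i < N, ∀ M, Inv i M → ∃ M', Inv (i + 1) M' ∧ Runs p M (ws i) M' K)
    (M : Mem) (_ : Inv 0 M),
    ∃ M', Inv N M' ∧
      Runs (.loop c p) M ((List.range N).flatMap ws) M' (N * (1 + C + K) + (1 + C)) := by
  intro N
  induction N with
  | zero =>
    intro Inv ws _ h2 h3 _ M hM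
    refine ⟨M, hM, 1 + c.cost M, ?_, fun rest => ?_⟩
    · have := h3 0 le_rfl M hM
      omega
    · simpa using Exec.loop_done (h2 M hM)
  | succ N ih =>
    intro Inv ws h1 h2 h3 h4 M hM
    obtain ⟨M1, hM1, hr1⟩ := h4 0 (Nat.succ_pos N) M hM
    obtain ⟨M2, hM2, hr2⟩ := ih (fun i => Inv (i + 1)) (fun i => ws (i + 1))
      (fun i hi M hM => h1 (i + 1) (by omega) M hM) (fun M hM => h2 M hM)
      (fun i hi M hM => h3 (i + 1) (by omega) M hM)
      (fun i hi M hM => h4 (i + 1) (by omega) M hM) M1 hM1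
    refine ⟨M2, hM2, ?_⟩
    obtain ⟨k1, hk1, he1⟩ := hr1
    obtain ⟨k2, hk2, he2⟩ := hr2
    refine ⟨1 + c.cost M + k1 + k2, ?_, fun rest => ?_⟩
    · have := h3 0 (Nat.zero_le _) M hM
      have e : (N + 1) * (1 + C + K) = N * (1 + C + K) + (1 + C + K) := by ring
      rw [e]
      omega
    · have e : (List.range (N + 1)).flatMap ws ++ rest =
          ws 0 ++ ((List.range N).flatMap (fun i => ws (i + 1)) ++ rest) := by
        rw [List.range_succ_eq_map, List.flatMap_cons, List.flatMap_map, List.append_assoc]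
      rw [e]
      exact Exec.loop_step (h1 0 (Nat.succ_pos N) M hM) (he1 _) (he2 rest)

/-! ## Cost bounds -/

theorem size_add_le (a b : ℕ) : Nat.size (a + b) ≤ Nat.size a + Nat.size b := by
  rcases Nat.eq_zero_or_pos a with ha | ha
  · simp [ha]
  rcases Nat.eq_zero_or_pos b with hb | hb
  · simp [hb]
  have h1 := Nat.lt_size_self a
  have h2 := Nat.lt_size_self b
  have h3 : 1 ≤ Nat.size a := Nat.size_pos.2 ha
  have h4 : 1 ≤ Nat.size b := Nat.size_pos.2 hb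
  rw [Nat.size_le]
  rw [pow_add]
  have h5 : 2 ≤ 2 ^ Nat.size a := by
    calc 2 = 2 ^ 1 := by norm_num
      _ ≤ 2 ^ Nat.size a := Nat.pow_le_pow_right (by norm_num) h3
  have h6 : 2 ≤ 2 ^ Nat.size b := by
    calc 2 = 2 ^ 1 := by norm_num
      _ ≤ 2 ^ Nat.size b := Nat.pow_le_pow_right (by norm_num) h4
  nlinarith

theorem size_mul_le (a b : ℕ) : Nat.size (a * b) ≤ Nat.size a + Nat.size b := by
  have h1 := Nat.lt_size_self a
  have h2 := Nat.lt_size_self b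
  rw [Nat.size_le, pow_add]
  exact Nat.mul_lt_mul'' h1 h2

theorem size_size_le (a : ℕ) : Nat.size (Nat.size a) ≤ Nat.size a := by
  rw [Nat.size_le]
  exact Nat.lt_two_pow_self

theorem size_eval_le (e : Expr) :
    ∃ D : ℕ, ∀ (M : Mem) (S : ℕ), (∀ a, Nat.size (M a) ≤ S) →
      Nat.size (e.eval M) ≤ D * (S + 1) := by
  induction e with
  | lit k => exact ⟨Nat.size k, fun M S _ => by simp only [Expr.eval]; nlinarith⟩
  | mem e _ => exact ⟨1, fun M S h => by simpa [Expr.eval] using (h _).trans (by omega)⟩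
  | add a b iha ihb =>
    obtain ⟨D1, h1⟩ := iha
    obtain ⟨D2, h2⟩ := ihb
    refine ⟨D1 + D2, fun M S h => ?_⟩
    have := size_add_le (a.eval M) (b.eval M)
    have := h1 M S h
    have := h2 M S h
    simp only [Expr.eval]
    nlinarith
  | sub a b iha ihb =>
    obtain ⟨D1, h1⟩ := iha
    refine ⟨D1, fun M S h => ?_⟩
    simp only [Expr.eval]
    exact (Nat.size_le_size (Nat.sub_le _ _)).trans (h1 M S h)
  | mul a b iha ihb =>
    obtain ⟨D1, h1⟩ := iha
    obtain ⟨D2, h2⟩ := ihb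
    refine ⟨D1 + D2, fun M S h => ?_⟩
    have := size_mul_le (a.eval M) (b.eval M)
    have := h1 M S h
    have := h2 M S h
    simp only [Expr.eval]
    nlinarith
  | div a b iha ihb =>
    obtain ⟨D1, h1⟩ := iha
    refine ⟨D1, fun M S h => ?_⟩
    simp only [Expr.eval]
    exact (Nat.size_le_size (Nat.div_le_self _ _)).trans (h1 M S h)
  | mod a b iha ihb =>
    obtain ⟨D1, h1⟩ := iha
    refine ⟨D1, fun M S h => ?_⟩
    simp only [Expr.eval]
    exact (Nat.size_le_size (Nat.mod_le _ _)).trans (h1 M S h)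
  | lt a b _ _ =>
    refine ⟨1, fun M S h => ?_⟩
    simp only [Expr.eval]
    split_ifs <;> simp
  | size a iha =>
    obtain ⟨D1, h1⟩ := iha
    refine ⟨D1, fun M S h => ?_⟩
    simp only [Expr.eval]
    exact (size_size_le _).trans (h1 M S h)

/-- The cost of a fixed expression is `O((S+1)^2)` when all cells have at most `S` digits. -/
theorem cost_le (e : Expr) :
    ∃ D : ℕ, ∀ (M : Mem) (S : ℕ), (∀ a, Nat.size (M a) ≤ S) →
      e.cost M ≤ D * (S + 1) ^ 2 := by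
  induction e with
  | lit k =>
    refine ⟨1 + Nat.size k, fun M S _ => ?_⟩
    simp only [Expr.cost]
    exact Nat.le_mul_of_pos_right _ (by positivity)
  | mem e ih =>
    obtain ⟨D, hD⟩ := ih
    obtain ⟨D', hD'⟩ := size_eval_le e
    refine ⟨D + D' + 2, fun M S h => ?_⟩
    have h1 := hD M S h
    have h2 := hD' M S h
    have h3 := h (e.eval M)
    simp only [Expr.cost]
    have h4 : (S + 1) ≤ (S + 1) ^ 2 := by nlinarith
    have h5 : D' * (S + 1) ≤ D' * (S + 1) ^ 2 := Nat.mul_le_mul_left _ h4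
    have h6 : (D + D' + 2) * (S + 1) ^ 2 = D * (S + 1) ^ 2 + D' * (S + 1) ^ 2 + (S + 1) ^ 2 + (S + 1) ^ 2 := by ring
    omega
  | add a b iha ihb =>
    obtain ⟨D1, h1⟩ := iha
    obtain ⟨D2, h2⟩ := ihb
    obtain ⟨D3, h3⟩ := size_eval_le a
    obtain ⟨D4, h4⟩ := size_eval_le b
    refine ⟨D1 + D2 + D3 + D4 + 1, fun M S h => ?_⟩
    have h1 := h1 M S h
    have h2 := h2 M S h
    have h3 := h3 M S h
    have h4 := h4 M S h
    simp only [Expr.cost]
    have h5 : (S + 1) ≤ (S + 1) ^ 2 := by nlinarith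
    have h6 : D3 * (S + 1) ≤ D3 * (S + 1) ^ 2 := Nat.mul_le_mul_left _ h5
    have h7 : D4 * (S + 1) ≤ D4 * (S + 1) ^ 2 := Nat.mul_le_mul_left _ h5
    have h8 : (D1 + D2 + D3 + D4 + 1) * (S + 1) ^ 2 = D1 * (S + 1) ^ 2 + D2 * (S + 1) ^ 2 +
      D3 * (S + 1) ^ 2 + D4 * (S + 1) ^ 2 + (S + 1) ^ 2 := by ring
    omega
  | sub a b iha ihb =>
    obtain ⟨D1, h1⟩ := iha
    obtain ⟨D2, h2⟩ := ihb
    obtain ⟨D3, h3⟩ := size_eval_le a
    obtain ⟨D4, h4⟩ := size_eval_le b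
    refine ⟨D1 + D2 + D3 + D4 + 1, fun M S h => ?_⟩
    have h1 := h1 M S h
    have h2 := h2 M S h
    have h3 := h3 M S h
    have h4 := h4 M S h
    simp only [Expr.cost]
    have h5 : (S + 1) ≤ (S + 1) ^ 2 := by nlinarith
    have h6 : D3 * (S + 1) ≤ D3 * (S + 1) ^ 2 := Nat.mul_le_mul_left _ h5
    have h7 : D4 * (S + 1) ≤ D4 * (S + 1) ^ 2 := Nat.mul_le_mul_left _ h5
    have h8 : (D1 + D2 + D3 + D4 + 1) * (S + 1) ^ 2 = D1 * (S + 1) ^ 2 + D2 * (S + 1) ^ 2 +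
      D3 * (S + 1) ^ 2 + D4 * (S + 1) ^ 2 + (S + 1) ^ 2 := by ring
    omega
  | lt a b iha ihb =>
    obtain ⟨D1, h1⟩ := iha
    obtain ⟨D2, h2⟩ := ihb
    obtain ⟨D3, h3⟩ := size_eval_le a
    obtain ⟨D4, h4⟩ := size_eval_le b
    refine ⟨D1 + D2 + D3 + D4 + 1, fun M S h => ?_⟩
    have h1 := h1 M S h
    have h2 := h2 M S h
    have h3 := h3 M S h
    have h4 := h4 M S h
    simp only [Expr.cost]
    have h5 : (S + 1) ≤ (S + 1) ^ 2 := by nlinarith
    have h6 : D3 * (S + 1) ≤ D3 * (S + 1) ^ 2 := Nat.mul_le_mul_left _ h5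
    have h7 : D4 * (S + 1) ≤ D4 * (S + 1) ^ 2 := Nat.mul_le_mul_left _ h5
    have h8 : (D1 + D2 + D3 + D4 + 1) * (S + 1) ^ 2 = D1 * (S + 1) ^ 2 + D2 * (S + 1) ^ 2 +
      D3 * (S + 1) ^ 2 + D4 * (S + 1) ^ 2 + (S + 1) ^ 2 := by ring
    omega
  | mul a b iha ihb =>
    obtain ⟨D1, h1⟩ := iha
    obtain ⟨D2, h2⟩ := ihb
    obtain ⟨D3, h3⟩ := size_eval_le a
    obtain ⟨D4, h4⟩ := size_eval_le b
    refine ⟨D1 + D2 + (1 + D3) * (1 + D4), fun M S h => ?_⟩
    have h1 := h1 M S h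
    have h2 := h2 M S h
    have h3 := h3 M S h
    have h4 := h4 M S h
    simp only [Expr.cost]
    have h5 : 1 + Nat.size (a.eval M) ≤ (1 + D3) * (S + 1) := by nlinarith
    have h6 : 1 + Nat.size (b.eval M) ≤ (1 + D4) * (S + 1) := by nlinarith
    have h7 := Nat.mul_le_mul h5 h6
    nlinarith
  | div a b iha ihb =>
    obtain ⟨D1, h1⟩ := iha
    obtain ⟨D2, h2⟩ := ihb
    obtain ⟨D3, h3⟩ := size_eval_le a
    obtain ⟨D4, h4⟩ := size_eval_le b
    refine ⟨D1 + D2 + (1 + D3) * (1 + D4), fun M S h => ?_⟩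
    have h1 := h1 M S h
    have h2 := h2 M S h
    have h3 := h3 M S h
    have h4 := h4 M S h
    simp only [Expr.cost]
    have h5 : 1 + Nat.size (a.eval M) ≤ (1 + D3) * (S + 1) := by nlinarith
    have h6 : 1 + Nat.size (b.eval M) ≤ (1 + D4) * (S + 1) := by nlinarith
    have h7 := Nat.mul_le_mul h5 h6
    nlinarith
  | mod a b iha ihb =>
    obtain ⟨D1, h1⟩ := iha
    obtain ⟨D2, h2⟩ := ihb
    obtain ⟨D3, h3⟩ := size_eval_le a
    obtain ⟨D4, h4⟩ := size_eval_le b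
    refine ⟨D1 + D2 + (1 + D3) * (1 + D4), fun M S h => ?_⟩
    have h1 := h1 M S h
    have h2 := h2 M S h
    have h3 := h3 M S h
    have h4 := h4 M S h
    simp only [Expr.cost]
    have h5 : 1 + Nat.size (a.eval M) ≤ (1 + D3) * (S + 1) := by nlinarith
    have h6 : 1 + Nat.size (b.eval M) ≤ (1 + D4) * (S + 1) := by nlinarith
    have h7 := Nat.mul_le_mul h5 h6
    nlinarith
  | size a ih =>
    obtain ⟨D, hD⟩ := ih
    obtain ⟨D', hD'⟩ := size_eval_le a
    refine ⟨D + D' + 1, fun M S h => ?_⟩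
    have h1 := hD M S h
    have h2 := hD' M S h
    simp only [Expr.cost]
    have h4 : (S + 1) ≤ (S + 1) ^ 2 := by nlinarith
    have h5 : D' * (S + 1) ≤ D' * (S + 1) ^ 2 := Nat.mul_le_mul_left _ h4
    have h6 : (D + D' + 1) * (S + 1) ^ 2 = D * (S + 1) ^ 2 + D' * (S + 1) ^ 2 + (S + 1) ^ 2 := by ring
    omega

end Vale.Agent.P328
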