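import Vale.Agent.P328.Logic

/-!
# P328: random numbers from coin flips, and the elementary programs
-/

namespace Vale.Agent.P328

open Finset

/-- content of register `k` -/
def reg (k : ℕ) : Expr := .mem (.lit k)

/-- assignment to register `k` -/
def set (k : ℕ) (e : Expr) : Prog := .store (.lit k) e

/-- minimum of two expressions -/
def minE (a b : Expr) : Expr := .sub a (.sub a b)

@[simp] theorem eval_reg (M : Mem) (k : ℕ) : (reg k).eval M = M k := rfl
@[simp] theorem eval_lit (M : Mem) (k : ℕ) : (Expr.lit k).eval M = k := rfl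
@[simp] theorem eval_mem (M : Mem) (e : Expr) : (Expr.mem e).eval M = M (e.eval M) := rfl
@[simp] theorem eval_add (M : Mem) (a b : Expr) :
    (Expr.add a b).eval M = a.eval M + b.eval M := rfl
@[simp] theorem eval_sub (M : Mem) (a b : Expr) :
    (Expr.sub a b).eval M = a.eval M - b.eval M := rfl
@[simp] theorem eval_mul (M : Mem) (a b : Expr) :
    (Expr.mul a b).eval M = a.eval M * b.eval M := rfl
@[simp] theorem eval_div (M : Mem) (a b : Expr) :
    (Expr.div a b).eval M = a.eval M / b.eval M := rfl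
@[simp] theorem eval_mod (M : Mem) (a b : Expr) :
    (Expr.mod a b).eval M = a.eval M % b.eval M := rfl
@[simp] theorem eval_lt (M : Mem) (a b : Expr) :
    (Expr.lt a b).eval M = if a.eval M < b.eval M then 1 else 0 := rfl
@[simp] theorem eval_size (M : Mem) (a : Expr) :
    (Expr.size a).eval M = Nat.size (a.eval M) := rfl
@[simp] theorem eval_minE (M : Mem) (a b : Expr) :
    (minE a b).eval M = min (a.eval M) (b.eval M) := by
  simp only [minE, eval_sub]
  omega

/-- all cells have at most `S` binary digits -/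
def Bdd (S : ℕ) (M : Mem) : Prop := ∀ a, M a < 2 ^ S

theorem Bdd.size {S : ℕ} {M : Mem} (h : Bdd S M) (a : ℕ) : Nat.size (M a) ≤ S :=
  Nat.size_le.2 (h a)

theorem Bdd.update {S : ℕ} {M : Mem} (h : Bdd S M) {a v : ℕ} (hv : v < 2 ^ S) :
    Bdd S (Function.update M a v) := by
  intro x
  by_cases hx : x = a
  · subst hx; simpa using hv
  · rw [Function.update_of_ne hx]; exact h x

/-- A `store` is correct and costs `O((S+1)^2)`. -/
theorem store_bound (a e : Expr) : ∃ D : ℕ, ∀ (M : Mem) (S : ℕ), Bdd S M →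
    Runs (.store a e) M [] (Function.update M (a.eval M) (e.eval M)) (D * (S + 1) ^ 2) := by
  obtain ⟨D1, h1⟩ := cost_le a
  obtain ⟨D2, h2⟩ := cost_le e
  refine ⟨D1 + D2 + 1, fun M S hM => (runs_store a e M).mono ?_⟩
  have := h1 M S hM.size
  have := h2 M S hM.size
  have h4 : 1 ≤ (S + 1) ^ 2 := Nat.one_le_pow _ _ (by omega)
  nlinarith

theorem set_bound (k : ℕ) (e : Expr) : ∃ D : ℕ, ∀ (M : Mem) (S : ℕ), Bdd S M →
    Runs (set k e) M [] (Function.update M k (e.eval M)) (D * (S + 1) ^ 2) :=
  store_bound (.lit k) e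

theorem coin_bound (k : ℕ) : ∃ D : ℕ, ∀ (M : Mem) (S : ℕ) (b : Bool), Bdd S M →
    Runs (.coin (.lit k)) M [b] (Function.update M k (if b then 1 else 0)) (D * (S + 1) ^ 2) := by
  obtain ⟨D1, h1⟩ := cost_le (.lit k)
  refine ⟨D1 + 1, fun M S b hM => (runs_coin (.lit k) M b).mono ?_⟩
  have := h1 M S hM.size
  have h4 : 1 ≤ (S + 1) ^ 2 := Nat.one_le_pow _ _ (by omega)
  nlinarith

/-! ## Random numbers -/

/-- the number with the binary digits `w` (most significant first) -/
def val (w : List Bool) : ℕ := w.foldl (fun acc b => 2 * acc + if b then 1 else 0) 0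

@[simp] theorem val_nil : val [] = 0 := rfl

theorem val_append_singleton (w : List Bool) (b : Bool) :
    val (w ++ [b]) = 2 * val w + if b then 1 else 0 := by
  simp [val, List.foldl_append]

theorem val_lt (w : List Bool) : val w < 2 ^ w.length := by
  induction w using List.reverseRecOn with
  | nil => simp
  | append_singleton w b ih =>
    rw [val_append_singleton, List.length_append, List.length_singleton, pow_succ]
    split_ifs <;> omega

/-- The program that puts a random `B`-bit number (`B` the content of register `3`) into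
register `7`. -/
def rnd : Prog :=
  .seq (set 7 (.lit 0)) (.seq (set 5 (.lit 0))
    (.loop (.lt (reg 5) (reg 3))
      (.seq (.coin (.lit 12)) (.seq (set 7 (.add (.mul (.lit 2) (reg 7)) (reg 12)))
        (set 5 (.add (reg 5) (.lit 1)))))))

theorem flatMap_singleton_eq_map {α β : Type*} (f : α → β) (l : List α) :
    l.flatMap (fun i => [f i]) = l.map f := by
  induction l with
  | nil => rfl
  | cons a l ih => simp [ih]

theorem flatMap_singleton_get (w : List Bool) :
    (List.range w.length).flatMap (fun i => [w.getD i false]) = w := by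
  rw [flatMap_singleton_eq_map]
  apply List.ext_getElem
  · simp
  · intro i h1 h2
    simp [h2]

theorem rnd_spec : ∃ D : ℕ, ∀ (M : Mem) (B : ℕ) (w : List Bool), w.length = B → M 3 = B →
    1 ≤ B → Bdd B M → ∃ M', Runs rnd M w M' (D * (B + 1) ^ 3) ∧ M' 7 = val w ∧
      (∀ a, a ≠ 5 → a ≠ 7 → a ≠ 12 → M' a = M a) ∧ Bdd B M' := by
  obtain ⟨D1, h1⟩ := set_bound 7 (.lit 0)
  obtain ⟨D2, h2⟩ := set_bound 5 (.lit 0)
  obtain ⟨D3, h3⟩ := coin_bound 12
  obtain ⟨D4, h4⟩ := set_bound 7 (.add (.mul (.lit 2) (reg 7)) (reg 12))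
  obtain ⟨D5, h5⟩ := set_bound 5 (.add (reg 5) (.lit 1))
  obtain ⟨D6, h6⟩ := cost_le (.lt (reg 5) (reg 3))
  refine ⟨D1 + D2 + (1 + D6 + (D3 + D4 + D5)) + (1 + D6), ?_⟩
  intro M B w hw h3B hB hM
  have hB2 : B < 2 ^ B := Nat.lt_two_pow_self
  have h0B : 0 < 2 ^ B := by positivity
  -- the invariant
  let Inv : ℕ → Mem → Prop := fun i M1 => M1 7 = val (w.take i) ∧ M1 5 = i ∧ M1 3 = B ∧
    (∀ a, a ≠ 5 → a ≠ 7 → a ≠ 12 → M1 a = M a) ∧ Bdd B M1
  have hM1 : Bdd B (Function.update M 7 0) := hM.update h0B
  have hM2 : Bdd B (Function.update (Function.update M 7 0) 5 0) := hM1.update h0B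
  have hloop := runs_loop (c := .lt (reg 5) (reg 3))
    (p := .seq (.coin (.lit 12)) (.seq (set 7 (.add (.mul (.lit 2) (reg 7)) (reg 12)))
        (set 5 (.add (reg 5) (.lit 1))))) (K := (D3 + D4 + D5) * (B + 1) ^ 2)
    (C := D6 * (B + 1) ^ 2) B Inv (fun i => [w.getD i false]) ?_ ?_ ?_ ?_
    (Function.update (Function.update M 7 0) 5 0) ?_
  rotate_left
  · intro i hi M1 hI
    obtain ⟨-, h5, h3, -, -⟩ := hI
    simp [h5, h3, hi]
  · intro M1 hI
    obtain ⟨-, h5, h3, -, -⟩ := hI
    simp [h5, h3]
  · intro i hi M1 hI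
    exact h6 M1 B hI.2.2.2.2.size
  · intro i hi M1 hI
    obtain ⟨i7, i5, i3, ifr, ib⟩ := hI
    set b := w.getD i false with hb
    have htake : w.take (i + 1) = w.take i ++ [b] := by
      have hi' : i < w.length := by omega
      rw [List.take_succ_eq_append_getElem hi', hb, List.getD_eq_getElem _ _ hi']
    have hlt : val (w.take (i + 1)) < 2 ^ B := by
      refine (val_lt _).trans_le (Nat.pow_le_pow_right (by norm_num) ?_)
      rw [List.length_take]; omega
    have hbval : (if b then 1 else 0) < 2 ^ B := by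
      have : 2 ^ 1 ≤ 2 ^ B := Nat.pow_le_pow_right (by norm_num) hB
      split_ifs <;> omega
    have r1 := h3 M1 B b ib
    have ib1 : Bdd B (Function.update M1 12 (if b then 1 else 0)) := ib.update hbval
    have r2 := h4 _ B ib1
    have e2 : (Expr.add (Expr.mul (Expr.lit 2) (reg 7)) (reg 12)).eval
        (Function.update M1 12 (if b then 1 else 0)) = val (w.take (i + 1)) := by
      rw [htake, val_append_singleton]
      simp [Function.update, i7]
    rw [e2] at r2
    have ib2 := ib1.update (a := 7) hlt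
    have r3 := h5 _ B ib2
    have e3 : (Expr.add (reg 5) (Expr.lit 1)).eval
        (Function.update (Function.update M1 12 (if b then 1 else 0)) 7
          (val (w.take (i + 1)))) = i + 1 := by
      simp [Function.update, i5]
    rw [e3] at r3
    have hi1 : i + 1 < 2 ^ B := by omega
    refine ⟨_, ?_, ((r1.seq (r2.seq r3)).mono ?_)⟩
    · refine ⟨by simp [Function.update], by simp [Function.update],
        by simp [Function.update, i3], ?_, ib2.update hi1⟩
      intro a ha5 ha7 ha12
      rw [Function.update_of_ne ha5, Function.update_of_ne ha7, Function.update_of_ne ha12]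
      exact ifr a ha5 ha7 ha12
    · ring_nf
      exact le_rfl
  · refine ⟨by simp [Function.update], by simp [Function.update],
      by simp [Function.update, h3B], ?_, hM2⟩
    intro a ha5 ha7 _
    rw [Function.update_of_ne ha5, Function.update_of_ne ha7]
  · obtain ⟨M', hI, hr⟩ := hloop
    refine ⟨M', ?_, ?_, hI.2.2.2.1, hI.2.2.2.2⟩
    · have := (h1 M B hM).seq ((h2 _ B hM1).seq hr)
      have ew : ([] : List Bool) ++ ([] ++ (List.range B).flatMap fun i => [w.getD i false]) =
          w := by
        rw [List.nil_append, List.nil_append, ← hw]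
        exact flatMap_singleton_get w
      rw [ew] at this
      refine this.mono ?_
      have e1 : (B + 1) ^ 3 = B * (B + 1) ^ 2 + (B + 1) ^ 2 := by ring
      have e2 : 1 ≤ (B + 1) ^ 2 := Nat.one_le_pow _ _ (by omega)
      have e3 : B * 1 ≤ B * (B + 1) ^ 2 := Nat.mul_le_mul_left _ e2
      rw [e1]
      nlinarith [Nat.zero_le (D1 * (B * (B + 1) ^ 2)), Nat.zero_le (D2 * (B * (B + 1) ^ 2)),
        Nat.zero_le (D6 * (B * (B + 1) ^ 2)), Nat.zero_le (D3 * ((B + 1) ^ 2)),
        Nat.zero_le (D4 * ((B + 1) ^ 2)), Nat.zero_le (D5 * ((B + 1) ^ 2)),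
        Nat.zero_le (D6 * ((B + 1) ^ 2))]
    · rw [hI.1, ← hw, List.take_length]

end Vale.Agent.P328
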