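import Vale.Agent.P328.Law

/-!
# P328: the almost-uniform sampler, from the spectral gap
-/

namespace Vale.Agent.P328

open Finset

instance finite_table {m n : ℕ} (r : Fin m → ℕ) (c : Fin n → ℕ) : Finite (Table r c) := by
  classical
  have : Set.Finite {X : Fin m → Fin n → ℕ | IsTable r c X} := by
    refine Set.Finite.subset (tables r c).finite_toSet fun X hX => ?_
    exact_mod_cast mem_tables.2 hX
  exact this.to_subtype

/-- `Ω(r,c)` is a finite set. -/
noncomputable instance fintype_table {m n : ℕ} (r : Fin m → ℕ) (c : Fin n → ℕ) :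
    Fintype (Table r c) := Fintype.ofFinite _

/-- The total variation distance between the law of `out w`, for `R` independent fair coin flips
`w`, and the uniform law on `Ω(r,c)`. -/
noncomputable def tvToUniform {m n : ℕ} (r : Fin m → ℕ) (c : Fin n → ℕ) {R : ℕ}
    (out : (Fin R → Bool) → Table r c) : ℝ :=
  (1 / 2) * ∑ X : Table r c,
    |(Nat.card {w : Fin R → Bool // out w = X} : ℝ) / 2 ^ R - 1 / Fintype.card (Table r c)|

/-- The program `P` is an almost-uniform sampler with running time (logarithmic cost) at most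
`(L + t) ^ k` for inputs of length `L` and accuracy `2 ^ (-t)`: there is a number `R` of coin
flips such that for every sequence `w` of `R` coin flips the program, started on the input,
halts, uses exactly the coin flips `w`, has total cost at most `(L + t) ^ k`, and has written
the table `out w ∈ Ω(r,c)` into the memory; and the law of `out w` is within `2 ^ (-t)` of the
uniform law in total variation. -/
def IsSampler (P : Prog) (k : ℕ) : Prop :=
  ∀ (m n : ℕ) (r : Fin m → ℕ) (c : Fin n → ℕ) (t : ℕ), 1 ≤ m → 1 ≤ n → ∑ i, r i = ∑ j, c j →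
    ∃ (R : ℕ) (out : (Fin R → Bool) → Table r c),
      (∀ w : Fin R → Bool, ∃ (M' : Mem) (K : ℕ),
        Exec P (inputMem r c t) (List.ofFn w) M' [] K ∧ K ≤ (inputLength r c + t) ^ k ∧
        outputMem m n M' = (out w).1) ∧
      tvToUniform r c out ≤ (1 / 2) ^ t

/-! ## Polynomial bounds -/

theorem size_sum_le {ι : Type*} (s : Finset ι) (f : ι → ℕ) :
    Nat.size (∑ i ∈ s, f i) ≤ ∑ i ∈ s, Nat.size (f i) := by
  classical
  induction s using Finset.induction_on with
  | empty => simp
  | insert a s ha ih =>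
    rw [Finset.sum_insert ha, Finset.sum_insert ha]
    exact (size_add_le _ _).trans (by omega)

theorem size_pow_le (x k : ℕ) : Nat.size (x ^ k) ≤ k * Nat.size x + 1 := by
  induction k with
  | zero => simp
  | succ k ih =>
    rw [pow_succ]
    refine (size_mul_le _ _).trans ?_
    have : (k + 1) * Nat.size x = k * Nat.size x + Nat.size x := by ring
    omega

theorem size_le_self (x : ℕ) : Nat.size x ≤ x := by
  rw [Nat.size_le]
  exact Nat.lt_two_pow_self

/-- The total cost is polynomial. -/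
theorem cost_poly (e D1 D2 : ℕ) : ∃ k : ℕ, ∀ m n N t L : ℕ, 1 ≤ m → 1 ≤ n →
    m + n + Nat.size N ≤ L →
    D1 * (m + n + m * n + 1) * (Bn e m n N t + 1) ^ 2 +
      D2 * (Tn e m n N t + 1) * (Bn e m n N t + 1) ^ 3 ≤ (L + t) ^ k := by
  refine ⟨(2 * e + 6) + 3 + 3 * (2 * e + 20) + (D1 + D2) + 4, ?_⟩
  intro m n N t L hm hn hL
  set x := L + t with hx
  have hx2 : 2 ≤ x := by omega
  have hmx : m ≤ x := by omega
  have hnx : n ≤ x := by omega
  have hlx : Nat.size N ≤ x := by omega
  have htx : t ≤ x := by omega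
  have hmn : m * n ≤ x ^ 2 := by
    rw [sq]; exact Nat.mul_le_mul hmx hnx
  have hpow : ∀ a b : ℕ, a ≤ b → x ^ a ≤ x ^ b := fun a b h =>
    Nat.pow_le_pow_right (by omega) h
  have hx1 : ∀ a : ℕ, 1 ≤ x ^ a := fun a => Nat.one_le_pow _ _ (by omega)
  -- the number of steps
  have hT : Tn e m n N t ≤ x ^ (2 * e + 6) := by
    unfold Tn
    have h1 : (m * n) ^ e ≤ x ^ (2 * e) := by
      calc (m * n) ^ e ≤ (x ^ 2) ^ e := Nat.pow_le_pow_left hmn e
        _ = x ^ (2 * e) := by rw [← pow_mul]
    have h2 : 2 * (Nat.size N * (m * n) + t + 4) ≤ x ^ 6 := by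
      have h3 : Nat.size N * (m * n) ≤ x * x ^ 2 := Nat.mul_le_mul hlx hmn
      have h4 : x * x ^ 2 = x ^ 3 := by ring
      have h5 : 8 ≤ x ^ 3 := by
        calc 8 = 2 ^ 3 := by norm_num
          _ ≤ x ^ 3 := Nat.pow_le_pow_left hx2 3
      have h6 : x ≤ x ^ 3 := by
        calc x = x ^ 1 := (pow_one x).symm
          _ ≤ x ^ 3 := hpow 1 3 (by norm_num)
      have h7 : x ^ 6 = x ^ 3 * x ^ 3 := by ring
      have h8 : 8 * x ^ 3 ≤ x ^ 3 * x ^ 3 := Nat.mul_le_mul_right _ h5
      omega
    calc (m * n) ^ e * (2 * (Nat.size N * (m * n) + t + 4)) ≤ x ^ (2 * e) * x ^ 6 :=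
          Nat.mul_le_mul h1 h2
      _ = x ^ (2 * e + 6) := by rw [pow_add]
  -- the number of bits
  have hB : Bn e m n N t + 1 ≤ x ^ (2 * e + 20) := by
    unfold Bn
    have h1 : Nat.size (Tn e m n N t) ≤ (2 * e + 6) * x + 1 := by
      refine (Nat.size_le_size hT).trans ((size_pow_le x _).trans ?_)
      have := size_le_self x
      have := Nat.mul_le_mul_left (2 * e + 6) this
      omega
    have h2 : Nat.size m ≤ x := (size_le_self m).trans hmx
    have h3 : Nat.size n ≤ x := (size_le_self n).trans hnx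
    have h4 : Nat.size m + Nat.size n + Nat.size N + Nat.size (Tn e m n N t) + t + 6 + 1 ≤
        (2 * e + 14) * x := by
      have : (2 * e + 14) * x = (2 * e + 6) * x + 8 * x := by ring
      omega
    refine h4.trans ?_
    have h5 : 2 * e + 14 ≤ x ^ (2 * e + 14) := by
      calc 2 * e + 14 ≤ 2 ^ (2 * e + 14) := Nat.lt_two_pow_self.le
        _ ≤ x ^ (2 * e + 14) := Nat.pow_le_pow_left hx2 _
    calc (2 * e + 14) * x ≤ x ^ (2 * e + 14) * x := Nat.mul_le_mul_right _ h5
      _ = x ^ (2 * e + 15) := by rw [← pow_succ]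
      _ ≤ x ^ (2 * e + 20) := hpow _ _ (by omega)
  have hD1 : D1 + D2 ≤ x ^ (D1 + D2) :=
    calc D1 + D2 ≤ 2 ^ (D1 + D2) := Nat.lt_two_pow_self.le
      _ ≤ x ^ (D1 + D2) := Nat.pow_le_pow_left hx2 _
  have hS : m + n + m * n + 1 ≤ x ^ (2 * e + 6 + 3) := by
    have h1 : x ≤ x ^ 2 := by
      calc x = x ^ 1 := (pow_one x).symm
        _ ≤ x ^ 2 := hpow 1 2 (by norm_num)
    have h2 : 4 * x ^ 2 ≤ x ^ 2 * x ^ 2 := Nat.mul_le_mul_right _ (by
      calc 4 = 2 ^ 2 := by norm_num
        _ ≤ x ^ 2 := Nat.pow_le_pow_left hx2 2)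
    have h3 : x ^ 2 * x ^ 2 = x ^ 4 := by ring
    have h4 : x ^ 4 ≤ x ^ (2 * e + 6 + 3) := hpow _ _ (by omega)
    have h5 := hx1 2
    omega
  have hT1 : Tn e m n N t + 1 ≤ x ^ (2 * e + 6 + 3) := by
    have h1 : x ^ (2 * e + 6 + 3) = x ^ (2 * e + 6) * x ^ 3 := by rw [pow_add]
    have h2 : 8 ≤ x ^ 3 := by
      calc 8 = 2 ^ 3 := by norm_num
        _ ≤ x ^ 3 := Nat.pow_le_pow_left hx2 3
    have h3 : x ^ (2 * e + 6) * 8 ≤ x ^ (2 * e + 6) * x ^ 3 := Nat.mul_le_mul_left _ h2
    have h4 := hx1 (2 * e + 6)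
    omega
  have hB2 : (Bn e m n N t + 1) ^ 2 ≤ x ^ (3 * (2 * e + 20)) := by
    calc (Bn e m n N t + 1) ^ 2 ≤ (x ^ (2 * e + 20)) ^ 2 := Nat.pow_le_pow_left hB 2
      _ = x ^ ((2 * e + 20) * 2) := by rw [← pow_mul]
      _ ≤ x ^ (3 * (2 * e + 20)) := hpow _ _ (by omega)
  have hB3 : (Bn e m n N t + 1) ^ 3 ≤ x ^ (3 * (2 * e + 20)) := by
    calc (Bn e m n N t + 1) ^ 3 ≤ (x ^ (2 * e + 20)) ^ 3 := Nat.pow_le_pow_left hB 3
      _ = x ^ ((2 * e + 20) * 3) := by rw [← pow_mul]
      _ = x ^ (3 * (2 * e + 20)) := by rw [mul_comm]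
  calc D1 * (m + n + m * n + 1) * (Bn e m n N t + 1) ^ 2 +
      D2 * (Tn e m n N t + 1) * (Bn e m n N t + 1) ^ 3
      ≤ D1 * x ^ (2 * e + 6 + 3) * x ^ (3 * (2 * e + 20)) +
        D2 * x ^ (2 * e + 6 + 3) * x ^ (3 * (2 * e + 20)) :=
        add_le_add (Nat.mul_le_mul (Nat.mul_le_mul_left _ hS) hB2)
          (Nat.mul_le_mul (Nat.mul_le_mul_left _ hT1) hB3)
    _ = (D1 + D2) * (x ^ (2 * e + 6 + 3) * x ^ (3 * (2 * e + 20))) := by ring
    _ ≤ x ^ (D1 + D2) * (x ^ (2 * e + 6 + 3) * x ^ (3 * (2 * e + 20))) :=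
        Nat.mul_le_mul_right _ hD1
    _ = x ^ ((2 * e + 6) + 3 + 3 * (2 * e + 20) + (D1 + D2)) := by
        rw [← pow_add, ← pow_add]
        congr 1
        ring
    _ ≤ _ := hpow _ _ (by omega)

/-! ## The main theorem -/

/-- If the block dynamics has a polynomial spectral gap for all margins then there is an
almost-uniform sampler for all margins. -/
theorem sampler_of_gap (e : ℕ) (hgap : Gap e) : ∃ (P : Prog) (k : ℕ), IsSampler P k := by
  classical
  obtain ⟨D1, hinit⟩ := init_spec (e + 2)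
  obtain ⟨D2, hloop⟩ := mainLoop_spec
  obtain ⟨k, hk⟩ := cost_poly (e + 2) D1 D2
  refine ⟨sampler (e + 2), k, ?_⟩
  intro m n r c t hm hn hrc
  set N := ∑ i, r i with hN
  set B := Bn (e + 2) m n N t with hB
  set T := Tn (e + 2) m n N t with hT
  have hBdef : B = Nat.size m + Nat.size n + Nat.size N + Nat.size T + t + 6 := rfl
  set X0 : Fin m → Fin n → ℕ := fun i j => nw r c i j with hX0def
  have hX0 : IsTable r c X0 := nw_isTable r c hrc
  obtain ⟨M1, hr1, hH1⟩ := hinit hm hn r c hrc t
  have h5N : 5 * N < 2 ^ B := by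
    have := two_pow_gt_of_size (x := N) (k := 3) (B := B) (by omega)
    omega
  have hL : m + n + Nat.size N ≤ inputLength r c := by
    unfold inputLength
    have : Nat.size N ≤ ∑ i, Nat.size (r i) := size_sum_le univ r
    omega
  refine ⟨T * (5 * B), fun w => ⟨runX hm hn B T X0 (List.ofFn w),
    runX_isTable hm hn B T hX0 _⟩, ?_, ?_⟩
  · intro w
    obtain ⟨M2, hr2, hH2⟩ := hloop hm hn r c B T X0 M1 (List.ofFn w) (by simp) (by omega)
      hH1 hX0 h5N
    obtain ⟨K, hK, hE⟩ := hr1.seq hr2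
    refine ⟨M2, K, ?_, ?_, ?_⟩
    · have := hE []
      rw [List.nil_append, List.append_nil] at this
      exact this
    · exact hK.trans (hk m n N t _ hm hn hL)
    · funext i j
      exact hH2.tab i j
  · -- total variation
    unfold tvToUniform
    set out : (Fin (T * (5 * B)) → Bool) → Table r c := fun w =>
      ⟨runX hm hn B T X0 (List.ofFn w), runX_isTable hm hn B T hX0 _⟩ with hout
    -- sums over `Table` are sums over `tables`
    have hsum : ∀ F : (Fin m → Fin n → ℕ) → ℝ,
        ∑ X : Table r c, F X.1 = ∑ X ∈ tables r c, F X := by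
      intro F
      refine Finset.sum_bij (fun X _ => X.1) (fun X _ => mem_tables.2 X.2)
        (fun X _ Y _ h => Subtype.ext h) (fun X hX => ⟨⟨X, mem_tables.1 hX⟩, mem_univ _, rfl⟩)
        (fun X _ => rfl)
    have hcard : (Fintype.card (Table r c) : ℝ) = (tables r c).card := by
      have := hsum (fun _ => 1)
      simpa using this
    -- the law
    let law : (Fin m → Fin n → ℕ) → ℝ := fun X =>
      cavg (T * (5 * B)) (fun l => if runX hm hn B T X0 l = X then 1 else 0)
    have hlaw : ∀ X : Table r c, (Nat.card {w : Fin (T * (5 * B)) → Bool // out w = X} : ℝ) /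
        2 ^ (T * (5 * B)) = law X.1 := by
      intro X
      simp only [law, cavg]
      congr 1
      rw [Finset.sum_ite, Finset.sum_const_zero, add_zero, Finset.sum_const, nsmul_eq_mul,
        mul_one, Nat.card_eq_fintype_card, Fintype.card_subtype]
      congr 2
      ext w
      simp only [mem_filter, mem_univ, true_and, hout]
      exact Subtype.ext_iff
    set S := ((tables r c).card : ℝ) with hS
    let g : (Fin m → Fin n → ℕ) → ℝ := fun X => if 0 ≤ law X - 1 / S then 1 else -1
    have hg : ∀ X, |g X| ≤ 1 := by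
      intro X
      simp only [g]
      split_ifs <;> simp
    have habs : ∀ X, |law X - 1 / S| = g X * law X - g X / S := by
      intro X
      simp only [g]
      split_ifs with h
      · rw [abs_of_nonneg h]; ring
      · rw [abs_of_neg (not_le.1 h)]; ring
    have h1 : ∑ X : Table r c,
        |(Nat.card {w : Fin (T * (5 * B)) → Bool // out w = X} : ℝ) / 2 ^ (T * (5 * B)) -
          1 / Fintype.card (Table r c)| = ∑ X ∈ tables r c, (g X * law X - g X / S) := by
      rw [← hsum (fun X => g X * law X - g X / S)]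
      refine Finset.sum_congr rfl fun X _ => ?_
      rw [hlaw, hcard]
      exact habs X.1
    have h2 : ∑ X ∈ tables r c, g X * law X =
        cavg (T * (5 * B)) (fun l => g (runX hm hn B T X0 l)) := by
      simp only [law, cavg]
      rw [← Finset.sum_congr rfl fun X _ => (mul_div_assoc (g X) _ _), ← Finset.sum_div]
      congr 1
      simp only [Finset.mul_sum]
      rw [Finset.sum_comm]
      refine Finset.sum_congr rfl fun w _ => ?_
      have hmem : runX hm hn B T X0 (List.ofFn w) ∈ tables r c :=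
        mem_tables.2 (runX_isTable hm hn B T hX0 _)
      rw [Finset.sum_eq_single_of_mem _ hmem]
      · simp
      · intro X _ hne
        rw [if_neg (Ne.symm hne), mul_zero]
    have h3 := cavg_run_close hgap hm hn hrc t hX0 g hg
    rw [h1, Finset.sum_sub_distrib, h2, ← Finset.sum_div]
    have h4 := (abs_le.1 h3).2
    linarith

end Vale.Agent.P328
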