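import Vale.Agent.P328.Rnd

/-!
# P328: one step of the chain, as a function and as a program
-/

namespace Vale.Agent.P328

open Finset

/-- Replace the block in the rows `u, v` and the columns `a, b` of `X` by the block that has the
same margins and whose position among all the blocks with these margins is
`R` modulo their number. -/
def blockUpd {m n : ℕ} (X : Fin m → Fin n → ℕ) (u v : Fin m) (a b : Fin n) (R : ℕ) :
    Fin m → Fin n → ℕ := fun i j =>
  if i = u ∧ j = a then X u a - min (X u a) (X v b) +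
      R % (min (X u a) (X v b) + min (X u b) (X v a) + 1)
  else if i = v ∧ j = b then X v b - min (X u a) (X v b) +
      R % (min (X u a) (X v b) + min (X u b) (X v a) + 1)
  else if i = u ∧ j = b then X u b + min (X u a) (X v b) -
      R % (min (X u a) (X v b) + min (X u b) (X v a) + 1)
  else if i = v ∧ j = a then X v a + min (X u a) (X v b) -
      R % (min (X u a) (X v b) + min (X u b) (X v a) + 1)
  else X i j

/-- One step of the chain, with the random numbers `R1, …, R5`. -/
def stepX {m n : ℕ} (hm : 0 < m) (hn : 0 < n) (X : Fin m → Fin n → ℕ) (R1 R2 R3 R4 R5 : ℕ) :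
    Fin m → Fin n → ℕ :=
  if R1 % m ≠ R2 % m ∧ R3 % n ≠ R4 % n then
    blockUpd X ⟨R1 % m, Nat.mod_lt _ hm⟩ ⟨R2 % m, Nat.mod_lt _ hm⟩
      ⟨R3 % n, Nat.mod_lt _ hn⟩ ⟨R4 % n, Nat.mod_lt _ hn⟩ R5
  else X

/-! ## Addresses -/

/-- the address of the entry in the row given by register `x` and the column given by
register `y` -/
def adr (x y : ℕ) : Expr :=
  .add (.add (.lit 18) (.add (reg 0) (reg 1))) (.add (.mul (reg 1) (reg x)) (reg y))

/-- The memory `M` holds the parameters and the table `X`. -/
structure Holds {m n : ℕ} (B T : ℕ) (X : Fin m → Fin n → ℕ) (M : Mem) : Prop where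
  h0 : M 0 = m
  h1 : M 1 = n
  h3 : M 3 = B
  h4 : M 4 = T
  tab : ∀ (i : Fin m) (j : Fin n), M (18 + m + n + (n * (i : ℕ) + (j : ℕ))) = X i j
  bdd : Bdd B M

theorem addr_inj {n : ℕ} {i i' : ℕ} {j j' : ℕ} (hj : j < n) (hj' : j' < n)
    (h : n * i + j = n * i' + j') : i = i' ∧ j = j' := by
  have hn : 0 < n := by omega
  have h1 : (n * i + j) / n = i := by
    rw [Nat.mul_add_div hn, Nat.div_eq_of_lt hj, add_zero]
  have h2 : (n * i' + j') / n = i' := by
    rw [Nat.mul_add_div hn, Nat.div_eq_of_lt hj', add_zero]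
  have h3 : i = i' := by rw [← h1, h, h2]
  subst h3
  exact ⟨rfl, by omega⟩

theorem Holds.update_reg {m n B T : ℕ} {X : Fin m → Fin n → ℕ} {M : Mem}
    (h : Holds B T X M) {a v : ℕ} (ha : 5 ≤ a) (ha' : a < 18) (hv : v < 2 ^ B) :
    Holds B T X (Function.update M a v) := by
  refine ⟨?_, ?_, ?_, ?_, ?_, h.bdd.update hv⟩
  · rw [Function.update_of_ne (by omega), h.h0]
  · rw [Function.update_of_ne (by omega), h.h1]
  · rw [Function.update_of_ne (by omega), h.h3]
  · rw [Function.update_of_ne (by omega), h.h4]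
  · intro i j
    rw [Function.update_of_ne (by omega), h.tab]

theorem Holds.frame {m n B T : ℕ} {X : Fin m → Fin n → ℕ} {M M' : Mem}
    (h : Holds B T X M) (hf : ∀ a, a ≠ 5 → a ≠ 7 → a ≠ 12 → M' a = M a) (hb : Bdd B M') :
    Holds B T X M' := by
  refine ⟨?_, ?_, ?_, ?_, ?_, hb⟩
  · rw [hf _ (by omega) (by omega) (by omega), h.h0]
  · rw [hf _ (by omega) (by omega) (by omega), h.h1]
  · rw [hf _ (by omega) (by omega) (by omega), h.h3]
  · rw [hf _ (by omega) (by omega) (by omega), h.h4]
  · intro i j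
    rw [hf _ (by omega) (by omega) (by omega), h.tab]

/-- Updating the entry `(i0, j0)`. -/
def setEntry {m n : ℕ} (X : Fin m → Fin n → ℕ) (i0 : Fin m) (j0 : Fin n) (v : ℕ) :
    Fin m → Fin n → ℕ := fun i j => if i = i0 ∧ j = j0 then v else X i j

theorem Holds.update_tab {m n B T : ℕ} {X : Fin m → Fin n → ℕ} {M : Mem}
    (h : Holds B T X M) (i0 : Fin m) (j0 : Fin n) {v : ℕ} (hv : v < 2 ^ B) :
    Holds B T (setEntry X i0 j0 v)
      (Function.update M (18 + m + n + (n * (i0 : ℕ) + (j0 : ℕ))) v) := by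
  refine ⟨?_, ?_, ?_, ?_, ?_, h.bdd.update hv⟩
  · rw [Function.update_of_ne (by omega), h.h0]
  · rw [Function.update_of_ne (by omega), h.h1]
  · rw [Function.update_of_ne (by omega), h.h3]
  · rw [Function.update_of_ne (by omega), h.h4]
  · intro i j
    by_cases hij : i = i0 ∧ j = j0
    · obtain ⟨rfl, rfl⟩ := hij
      simp [setEntry]
    · rw [Function.update_of_ne, h.tab]
      · simp [setEntry, hij]
      · intro heq
        have h1 : n * (i : ℕ) + (j : ℕ) = n * (i0 : ℕ) + (j0 : ℕ) := by omega
        have h2 := addr_inj j.2 j0.2 h1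
        exact hij ⟨Fin.ext h2.1, Fin.ext h2.2⟩

theorem eval_adr {m n B T : ℕ} {X : Fin m → Fin n → ℕ} {M : Mem}
    (h : Holds B T X M) {x y : ℕ} {i : Fin m} {j : Fin n} (hx : M x = i) (hy : M y = j) :
    (adr x y).eval M = 18 + m + n + (n * (i : ℕ) + (j : ℕ)) := by
  simp only [adr, eval_add, eval_lit, eval_reg, eval_mul, h.h0, h.h1, hx, hy]
  ring

theorem eval_cell {m n B T : ℕ} {X : Fin m → Fin n → ℕ} {M : Mem}
    (h : Holds B T X M) {x y : ℕ} {i : Fin m} {j : Fin n} (hx : M x = i) (hy : M y = j) :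
    M ((adr x y).eval M) = X i j := by
  rw [eval_adr h hx hy, h.tab]

/-! ## The update program -/

/-- The block update: registers `8, 9` contain the rows, `10, 11` the columns, `7` the random
number. -/
def updProg : Prog :=
  .seq (set 12 (minE (.mem (adr 8 10)) (.mem (adr 9 11))))
  (.seq (set 13 (.mod (reg 7) (.add (.add (reg 12)
    (minE (.mem (adr 8 11)) (.mem (adr 9 10)))) (.lit 1))))
  (.seq (.store (adr 8 10) (.add (.sub (.mem (adr 8 10)) (reg 12)) (reg 13)))
  (.seq (.store (adr 9 11) (.add (.sub (.mem (adr 9 11)) (reg 12)) (reg 13)))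
  (.seq (.store (adr 8 11) (.sub (.add (.mem (adr 8 11)) (reg 12)) (reg 13)))
    (.store (adr 9 10) (.sub (.add (.mem (adr 9 10)) (reg 12)) (reg 13)))))))

theorem updProg_spec : ∃ D : ℕ, ∀ {m n : ℕ} (B T : ℕ) (X : Fin m → Fin n → ℕ) (M : Mem)
    (u v : Fin m) (a b : Fin n) (_ : u ≠ v) (_ : a ≠ b) (_ : Holds B T X M)
    (_ : M 8 = u) (_ : M 9 = v) (_ : M 10 = a) (_ : M 11 = b)
    (_ : ∀ i j, X i j + X u a + X v b + X u b + X v a < 2 ^ B),
    ∃ M', Runs updProg M [] M' (D * (B + 1) ^ 2) ∧ Holds B T (blockUpd X u v a b (M 7)) M' ∧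
      M' 6 = M 6 := by
  obtain ⟨D1, h1⟩ := set_bound 12 (minE (.mem (adr 8 10)) (.mem (adr 9 11)))
  obtain ⟨D2, h2⟩ := set_bound 13 (.mod (reg 7) (.add (.add (reg 12)
    (minE (.mem (adr 8 11)) (.mem (adr 9 10)))) (.lit 1)))
  obtain ⟨D3, h3⟩ := store_bound (adr 8 10) (.add (.sub (.mem (adr 8 10)) (reg 12)) (reg 13))
  obtain ⟨D4, h4⟩ := store_bound (adr 9 11) (.add (.sub (.mem (adr 9 11)) (reg 12)) (reg 13))
  obtain ⟨D5, h5⟩ := store_bound (adr 8 11) (.sub (.add (.mem (adr 8 11)) (reg 12)) (reg 13))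
  obtain ⟨D6, h6⟩ := store_bound (adr 9 10) (.sub (.add (.mem (adr 9 10)) (reg 12)) (reg 13))
  refine ⟨D1 + (D2 + (D3 + (D4 + (D5 + D6)))), ?_⟩
  intro m n B T X M u v a b huv hab hH m8 m9 m10 m11 hsm
  set p := min (X u a) (X v b) with hp
  set q := min (X u b) (X v a) with hq
  set K := M 7 % (p + q + 1) with hK
  have hKle : K ≤ p + q := by
    have := Nat.mod_lt (M 7) (show 0 < p + q + 1 by omega)
    omega
  have hsm0 := hsm u a
  have hpu : p ≤ X u a := min_le_left _ _
  have hpv : p ≤ X v b := min_le_right _ _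
  have hqu : q ≤ X u b := min_le_left _ _
  have hqv : q ≤ X v a := min_le_right _ _
  -- register 12
  have r1 := h1 M B hH.bdd
  have e1 : (minE (.mem (adr 8 10)) (.mem (adr 9 11))).eval M = p := by
    rw [eval_minE, eval_mem, eval_mem, eval_cell hH m8 m10, eval_cell hH m9 m11]
  rw [e1] at r1
  have hH1 : Holds B T X (Function.update M 12 p) :=
    hH.update_reg (by norm_num) (by norm_num) (by omega)
  -- register 13
  have r2 := h2 _ B hH1.bdd
  have e2 : (Expr.mod (reg 7) (.add (.add (reg 12)
      (minE (.mem (adr 8 11)) (.mem (adr 9 10)))) (.lit 1))).eval (Function.update M 12 p) = K := by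
    have m8' : (Function.update M 12 p) 8 = u := by simp [Function.update, m8]
    have m9' : (Function.update M 12 p) 9 = v := by simp [Function.update, m9]
    have m10' : (Function.update M 12 p) 10 = a := by simp [Function.update, m10]
    have m11' : (Function.update M 12 p) 11 = b := by simp [Function.update, m11]
    rw [eval_mod, eval_add, eval_add, eval_minE, eval_mem, eval_mem, eval_cell hH1 m8' m11',
      eval_cell hH1 m9' m10', eval_lit, eval_reg, eval_reg]
    have e7 : (Function.update M 12 p) 7 = M 7 := by simp [Function.update]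
    have e12 : (Function.update M 12 p) 12 = p := by simp [Function.update]
    rw [e7, e12]
  rw [e2] at r2
  have hH2 : Holds B T X (Function.update (Function.update M 12 p) 13 K) :=
    hH1.update_reg (by norm_num) (by norm_num) (by omega)
  set M2 := Function.update (Function.update M 12 p) 13 K with hM2
  have m2 : ∀ x, x ≠ 12 → x ≠ 13 → M2 x = M x := by
    intro x hx hx'
    rw [hM2, Function.update_of_ne hx', Function.update_of_ne hx]
  have m2_12 : M2 12 = p := by simp [hM2, Function.update]
  have m2_13 : M2 13 = K := by simp [hM2, Function.update]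
  -- entry (u,a)
  have r3 := h3 M2 B hH2.bdd
  have k8 : M2 8 = u := by rw [m2 8 (by norm_num) (by norm_num), m8]
  have k9 : M2 9 = v := by rw [m2 9 (by norm_num) (by norm_num), m9]
  have k10 : M2 10 = a := by rw [m2 10 (by norm_num) (by norm_num), m10]
  have k11 : M2 11 = b := by rw [m2 11 (by norm_num) (by norm_num), m11]
  rw [eval_add, eval_sub, eval_mem, eval_cell hH2 k8 k10, eval_reg, eval_reg, m2_12, m2_13,
    eval_adr hH2 k8 k10] at r3
  have hH3 := hH2.update_tab u a (v := X u a - p + K) (by omega)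
  set M3 := Function.update M2 (18 + m + n + (n * (u : ℕ) + (a : ℕ))) (X u a - p + K) with hM3
  have m3 : ∀ x < 18, M3 x = M2 x := by
    intro x hx
    rw [hM3, Function.update_of_ne (by omega)]
  -- entry (v,b)
  have r4 := h4 M3 B hH3.bdd
  have l8 : M3 8 = u := by rw [m3 8 (by norm_num), k8]
  have l9 : M3 9 = v := by rw [m3 9 (by norm_num), k9]
  have l10 : M3 10 = a := by rw [m3 10 (by norm_num), k10]
  have l11 : M3 11 = b := by rw [m3 11 (by norm_num), k11]
  have l12 : M3 12 = p := by rw [m3 12 (by norm_num), m2_12]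
  have l13 : M3 13 = K := by rw [m3 13 (by norm_num), m2_13]
  have s4 : setEntry X u a (X u a - p + K) v b = X v b := by
    simp [setEntry, huv.symm]
  rw [eval_add, eval_sub, eval_mem, eval_cell hH3 l9 l11, eval_reg, eval_reg, l12, l13,
    eval_adr hH3 l9 l11, s4] at r4
  have hH4 := hH3.update_tab v b (v := X v b - p + K) (by omega)
  set M4 := Function.update M3 (18 + m + n + (n * (v : ℕ) + (b : ℕ))) (X v b - p + K) with hM4
  have m4 : ∀ x < 18, M4 x = M3 x := by
    intro x hx
    rw [hM4, Function.update_of_ne (by omega)]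
  -- entry (u,b)
  have r5 := h5 M4 B hH4.bdd
  have o8 : M4 8 = u := by rw [m4 8 (by norm_num), l8]
  have o9 : M4 9 = v := by rw [m4 9 (by norm_num), l9]
  have o10 : M4 10 = a := by rw [m4 10 (by norm_num), l10]
  have o11 : M4 11 = b := by rw [m4 11 (by norm_num), l11]
  have o12 : M4 12 = p := by rw [m4 12 (by norm_num), l12]
  have o13 : M4 13 = K := by rw [m4 13 (by norm_num), l13]
  have s5 : setEntry (setEntry X u a (X u a - p + K)) v b (X v b - p + K) u b = X u b := by
    simp [setEntry, huv, hab.symm]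
  rw [eval_sub, eval_add, eval_mem, eval_cell hH4 o8 o11, eval_reg, eval_reg, o12, o13,
    eval_adr hH4 o8 o11, s5] at r5
  have hH5 := hH4.update_tab u b (v := X u b + p - K) (by omega)
  set M5 := Function.update M4 (18 + m + n + (n * (u : ℕ) + (b : ℕ))) (X u b + p - K) with hM5
  have m5 : ∀ x < 18, M5 x = M4 x := by
    intro x hx
    rw [hM5, Function.update_of_ne (by omega)]
  -- entry (v,a)
  have r6 := h6 M5 B hH5.bdd
  have t8 : M5 8 = u := by rw [m5 8 (by norm_num), o8]
  have t9 : M5 9 = v := by rw [m5 9 (by norm_num), o9]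
  have t10 : M5 10 = a := by rw [m5 10 (by norm_num), o10]
  have t11 : M5 11 = b := by rw [m5 11 (by norm_num), o11]
  have t12 : M5 12 = p := by rw [m5 12 (by norm_num), o12]
  have t13 : M5 13 = K := by rw [m5 13 (by norm_num), o13]
  have s6 : setEntry (setEntry (setEntry X u a (X u a - p + K)) v b (X v b - p + K)) u b
      (X u b + p - K) v a = X v a := by
    simp [setEntry, huv.symm, hab]
  rw [eval_sub, eval_add, eval_mem, eval_cell hH5 t9 t10, eval_reg, eval_reg, t12, t13,
    eval_adr hH5 t9 t10, s6] at r6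
  have hH6 := hH5.update_tab v a (v := X v a + p - K) (by omega)
  refine ⟨_, (r1.seq (r2.seq (r3.seq (r4.seq (r5.seq r6))))).mono (le_of_eq (by ring)), ?_, ?_⟩
  · convert hH6 using 1
    funext i j
    simp only [blockUpd, setEntry]
    by_cases hi : i = u
    · subst hi
      by_cases hj : j = a
      · subst hj
        simp [huv, hab]
        rfl
      · by_cases hj' : j = b
        · subst hj'
          simp [huv, hj]
          rfl
        · simp [hj, hj']
    · by_cases hi' : i = v
      · subst hi'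
        by_cases hj : j = a
        · subst hj
          simp [hi, hab]
          rfl
        · by_cases hj' : j = b
          · subst hj'
            simp [hi, hj]
            rfl
          · simp [hj, hj']
      · simp [hi, hi']
  · rw [Function.update_of_ne (by omega), m5 6 (by norm_num), m4 6 (by norm_num),
      m3 6 (by norm_num), m2 6 (by norm_num) (by norm_num)]

/-! ## One step -/

/-- One step of the chain. -/
def stepProg : Prog :=
  .seq rnd (.seq (set 8 (.mod (reg 7) (reg 0)))
  (.seq rnd (.seq (set 9 (.mod (reg 7) (reg 0)))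
  (.seq rnd (.seq (set 10 (.mod (reg 7) (reg 1)))
  (.seq rnd (.seq (set 11 (.mod (reg 7) (reg 1)))
  (.seq rnd
    (.ite (.mul (.add (.lt (reg 8) (reg 9)) (.lt (reg 9) (reg 8)))
        (.add (.lt (reg 10) (reg 11)) (.lt (reg 11) (reg 10))))
      updProg (set 12 (.lit 0)))))))))))

end Vale.Agent.P328
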