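import Vale.Agent.P328.Step

/-!
# P328: specification of one step and of the main loop
-/

namespace Vale.Agent.P328

open Finset

theorem stepProg_spec : ∃ D : ℕ, ∀ {m n : ℕ} (hm : 0 < m) (hn : 0 < n) (B T : ℕ)
    (X : Fin m → Fin n → ℕ) (M : Mem) (w1 w2 w3 w4 w5 : List Bool)
    (_ : w1.length = B) (_ : w2.length = B) (_ : w3.length = B) (_ : w4.length = B)
    (_ : w5.length = B) (_ : 1 ≤ B) (_ : Holds B T X M) (_ : ∀ i j, 5 * X i j < 2 ^ B),
    ∃ M', Runs stepProg M (w1 ++ (w2 ++ (w3 ++ (w4 ++ w5)))) M' (D * (B + 1) ^ 3) ∧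
      Holds B T (stepX hm hn X (val w1) (val w2) (val w3) (val w4) (val w5)) M' ∧
      M' 6 = M 6 := by
  obtain ⟨D0, h0⟩ := rnd_spec
  obtain ⟨D1, h1⟩ := set_bound 8 (.mod (reg 7) (reg 0))
  obtain ⟨D2, h2⟩ := set_bound 9 (.mod (reg 7) (reg 0))
  obtain ⟨D3, h3⟩ := set_bound 10 (.mod (reg 7) (reg 1))
  obtain ⟨D4, h4⟩ := set_bound 11 (.mod (reg 7) (reg 1))
  obtain ⟨D5, h5⟩ := cost_le (.mul (.add (.lt (reg 8) (reg 9)) (.lt (reg 9) (reg 8)))
        (.add (.lt (reg 10) (reg 11)) (.lt (reg 11) (reg 10))))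
  obtain ⟨D6, h6⟩ := updProg_spec
  obtain ⟨D7, h7⟩ := set_bound 12 (.lit 0)
  refine ⟨5 * D0 + D1 + D2 + D3 + D4 + (1 + D5 + D6 + D7), ?_⟩
  intro m n hm hn B T X M w1 w2 w3 w4 w5 l1 l2 l3 l4 l5 hB hH hsm
  have modlt : ∀ (R q : ℕ), 0 < q → q < 2 ^ B → R % q < 2 ^ B := fun R q hq hq' =>
    (Nat.mod_lt R hq).trans hq'
  have hmB : m < 2 ^ B := by simpa [hH.h0] using hH.bdd 0
  have hnB : n < 2 ^ B := by simpa [hH.h1] using hH.bdd 1
  have h0B : 0 < 2 ^ B := by positivity
  -- first number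
  obtain ⟨M1, r1, v1, f1, b1⟩ := h0 M B w1 l1 hH.h3 hB hH.bdd
  have H1 := hH.frame f1 b1
  have s1 := h1 M1 B H1.bdd
  rw [eval_mod, eval_reg, eval_reg, v1, H1.h0] at s1
  have H1' := H1.update_reg (a := 8) (v := val w1 % m) (by norm_num) (by norm_num)
    (modlt _ _ hm hmB)
  set M1' := Function.update M1 8 (val w1 % m) with hM1'
  -- second number
  obtain ⟨M2, r2, v2, f2, b2⟩ := h0 M1' B w2 l2 H1'.h3 hB H1'.bdd
  have H2 := H1'.frame f2 b2
  have s2 := h2 M2 B H2.bdd
  rw [eval_mod, eval_reg, eval_reg, v2, H2.h0] at s2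
  have H2' := H2.update_reg (a := 9) (v := val w2 % m) (by norm_num) (by norm_num)
    (modlt _ _ hm hmB)
  set M2' := Function.update M2 9 (val w2 % m) with hM2'
  -- third number
  obtain ⟨M3, r3, v3, f3, b3⟩ := h0 M2' B w3 l3 H2'.h3 hB H2'.bdd
  have H3 := H2'.frame f3 b3
  have s3 := h3 M3 B H3.bdd
  rw [eval_mod, eval_reg, eval_reg, v3, H3.h1] at s3
  have H3' := H3.update_reg (a := 10) (v := val w3 % n) (by norm_num) (by norm_num)
    (modlt _ _ hn hnB)
  set M3' := Function.update M3 10 (val w3 % n) with hM3'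
  -- fourth number
  obtain ⟨M4, r4, v4, f4, b4⟩ := h0 M3' B w4 l4 H3'.h3 hB H3'.bdd
  have H4 := H3'.frame f4 b4
  have s4 := h4 M4 B H4.bdd
  rw [eval_mod, eval_reg, eval_reg, v4, H4.h1] at s4
  have H4' := H4.update_reg (a := 11) (v := val w4 % n) (by norm_num) (by norm_num)
    (modlt _ _ hn hnB)
  set M4' := Function.update M4 11 (val w4 % n) with hM4'
  -- fifth number
  obtain ⟨M5, r5, v5, f5, b5⟩ := h0 M4' B w5 l5 H4'.h3 hB H4'.bdd
  have H5 := H4'.frame f5 b5
  -- the registers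
  have g8 : M5 8 = val w1 % m := by
    rw [f5 8 (by norm_num) (by norm_num) (by norm_num), hM4',
      Function.update_of_ne (by norm_num), f4 8 (by norm_num) (by norm_num) (by norm_num), hM3',
      Function.update_of_ne (by norm_num), f3 8 (by norm_num) (by norm_num) (by norm_num), hM2',
      Function.update_of_ne (by norm_num), f2 8 (by norm_num) (by norm_num) (by norm_num), hM1',
      Function.update_self]
  have g9 : M5 9 = val w2 % m := by
    rw [f5 9 (by norm_num) (by norm_num) (by norm_num), hM4',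
      Function.update_of_ne (by norm_num), f4 9 (by norm_num) (by norm_num) (by norm_num), hM3',
      Function.update_of_ne (by norm_num), f3 9 (by norm_num) (by norm_num) (by norm_num), hM2',
      Function.update_self]
  have g10 : M5 10 = val w3 % n := by
    rw [f5 10 (by norm_num) (by norm_num) (by norm_num), hM4',
      Function.update_of_ne (by norm_num), f4 10 (by norm_num) (by norm_num) (by norm_num), hM3',
      Function.update_self]
  have g11 : M5 11 = val w4 % n := by
    rw [f5 11 (by norm_num) (by norm_num) (by norm_num), hM4', Function.update_self]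
  have g6 : M5 6 = M 6 := by
    rw [f5 6 (by norm_num) (by norm_num) (by norm_num), hM4',
      Function.update_of_ne (by norm_num), f4 6 (by norm_num) (by norm_num) (by norm_num), hM3',
      Function.update_of_ne (by norm_num), f3 6 (by norm_num) (by norm_num) (by norm_num), hM2',
      Function.update_of_ne (by norm_num), f2 6 (by norm_num) (by norm_num) (by norm_num), hM1',
      Function.update_of_ne (by norm_num), f1 6 (by norm_num) (by norm_num) (by norm_num)]
  have hcost := h5 M5 B H5.bdd.size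
  have e1 : (B + 1) ^ 2 ≤ (B + 1) ^ 3 := Nat.pow_le_pow_right (by omega) (by norm_num)
  have e2 : 1 ≤ (B + 1) ^ 3 := Nat.one_le_pow _ _ (by omega)
  -- the last instruction
  have hlast : ∃ M', Runs (.ite (.mul (.add (.lt (reg 8) (reg 9)) (.lt (reg 9) (reg 8)))
        (.add (.lt (reg 10) (reg 11)) (.lt (reg 11) (reg 10))))
      updProg (set 12 (.lit 0))) M5 [] M' ((1 + D5 + D6 + D7) * (B + 1) ^ 3) ∧
      Holds B T (stepX hm hn X (val w1) (val w2) (val w3) (val w4) (val w5)) M' ∧
      M' 6 = M5 6 := by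
    have hev : (Expr.mul (.add (.lt (reg 8) (reg 9)) (.lt (reg 9) (reg 8)))
        (.add (.lt (reg 10) (reg 11)) (.lt (reg 11) (reg 10)))).eval M5 =
        ((if val w1 % m < val w2 % m then 1 else 0) + (if val w2 % m < val w1 % m then 1 else 0))
        * ((if val w3 % n < val w4 % n then 1 else 0) +
          (if val w4 % n < val w3 % n then 1 else 0)) := by
      simp only [eval_mul, eval_add, eval_lt, eval_reg, g8, g9, g10, g11]
    by_cases hcond : val w1 % m ≠ val w2 % m ∧ val w3 % n ≠ val w4 % n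
    · have hne : (Expr.mul (.add (.lt (reg 8) (reg 9)) (.lt (reg 9) (reg 8)))
          (.add (.lt (reg 10) (reg 11)) (.lt (reg 11) (reg 10)))).eval M5 ≠ 0 := by
        rw [hev]
        apply mul_ne_zero
        · rcases lt_or_gt_of_ne hcond.1 with h | h <;> simp [h]
        · rcases lt_or_gt_of_ne hcond.2 with h | h <;> simp [h]
      obtain ⟨M', r6, H6, e6⟩ := h6 B T X M5 ⟨val w1 % m, Nat.mod_lt _ hm⟩
        ⟨val w2 % m, Nat.mod_lt _ hm⟩ ⟨val w3 % n, Nat.mod_lt _ hn⟩
        ⟨val w4 % n, Nat.mod_lt _ hn⟩ (fun h => hcond.1 (Fin.ext_iff.1 h))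
        (fun h => hcond.2 (Fin.ext_iff.1 h)) H5 g8 g9 g10 g11 (by
          intro i j
          have a1 := hsm i j
          have a2 := hsm ⟨val w1 % m, Nat.mod_lt _ hm⟩ ⟨val w3 % n, Nat.mod_lt _ hn⟩
          have a3 := hsm ⟨val w2 % m, Nat.mod_lt _ hm⟩ ⟨val w4 % n, Nat.mod_lt _ hn⟩
          have a4 := hsm ⟨val w1 % m, Nat.mod_lt _ hm⟩ ⟨val w4 % n, Nat.mod_lt _ hn⟩
          have a5 := hsm ⟨val w2 % m, Nat.mod_lt _ hm⟩ ⟨val w3 % n, Nat.mod_lt _ hn⟩
          omega)
      refine ⟨M', (r6.ite_true hne).mono ?_, ?_, e6⟩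
      · have z1 : D6 * (B + 1) ^ 2 ≤ D6 * (B + 1) ^ 3 := Nat.mul_le_mul_left _ e1
        have z2 : D5 * (B + 1) ^ 2 ≤ D5 * (B + 1) ^ 3 := Nat.mul_le_mul_left _ e1
        have z3 : (1 + D5 + D6 + D7) * (B + 1) ^ 3 = (B + 1) ^ 3 + D5 * (B + 1) ^ 3 +
          D6 * (B + 1) ^ 3 + D7 * (B + 1) ^ 3 := by ring
        omega
      · rw [v5] at H6
        unfold stepX
        rw [if_pos hcond]
        exact H6
    · have hz : (Expr.mul (.add (.lt (reg 8) (reg 9)) (.lt (reg 9) (reg 8)))
          (.add (.lt (reg 10) (reg 11)) (.lt (reg 11) (reg 10)))).eval M5 = 0 := by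
        rw [hev]
        by_cases hA : val w1 % m = val w2 % m
        · simp [hA]
        · have hB : val w3 % n = val w4 % n := by
            by_contra hB
            exact hcond ⟨hA, hB⟩
          simp [hB]
      have r7 := h7 M5 B H5.bdd
      rw [eval_lit] at r7
      refine ⟨_, (r7.ite_false hz).mono ?_, ?_, ?_⟩
      · have z1 : D7 * (B + 1) ^ 2 ≤ D7 * (B + 1) ^ 3 := Nat.mul_le_mul_left _ e1
        have z2 : D5 * (B + 1) ^ 2 ≤ D5 * (B + 1) ^ 3 := Nat.mul_le_mul_left _ e1
        have z3 : (1 + D5 + D6 + D7) * (B + 1) ^ 3 = (B + 1) ^ 3 + D5 * (B + 1) ^ 3 +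
          D6 * (B + 1) ^ 3 + D7 * (B + 1) ^ 3 := by ring
        omega
      · unfold stepX
        rw [if_neg hcond]
        exact H5.update_reg (by norm_num) (by norm_num) h0B
      · rw [Function.update_of_ne (by norm_num)]
  obtain ⟨M', r6, H6, e6⟩ := hlast
  refine ⟨M', ?_, H6, e6.trans g6⟩
  have htot := r1.seq (s1.seq (r2.seq (s2.seq (r3.seq (s3.seq (r4.seq (s4.seq (r5.seq r6))))))))
  have ew : w1 ++ ([] ++ (w2 ++ ([] ++ (w3 ++ ([] ++ (w4 ++ ([] ++ (w5 ++ [])))))))) =
      w1 ++ (w2 ++ (w3 ++ (w4 ++ w5))) := by simp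
  rw [ew] at htot
  refine htot.mono ?_
  have z1 : D1 * (B + 1) ^ 2 ≤ D1 * (B + 1) ^ 3 := Nat.mul_le_mul_left _ e1
  have z2 : D2 * (B + 1) ^ 2 ≤ D2 * (B + 1) ^ 3 := Nat.mul_le_mul_left _ e1
  have z3 : D3 * (B + 1) ^ 2 ≤ D3 * (B + 1) ^ 3 := Nat.mul_le_mul_left _ e1
  have z4 : D4 * (B + 1) ^ 2 ≤ D4 * (B + 1) ^ 3 := Nat.mul_le_mul_left _ e1
  have z5 : (5 * D0 + D1 + D2 + D3 + D4 + (1 + D5 + D6 + D7)) * (B + 1) ^ 3 =
    5 * (D0 * (B + 1) ^ 3) + D1 * (B + 1) ^ 3 + D2 * (B + 1) ^ 3 + D3 * (B + 1) ^ 3 +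
      D4 * (B + 1) ^ 3 + (1 + D5 + D6 + D7) * (B + 1) ^ 3 := by ring
  omega

/-! ## Tables are preserved -/

theorem blockUpd_cast {m n : ℕ} (X : Fin m → Fin n → ℕ) {u v : Fin m} {a b : Fin n}
    (huv : u ≠ v) (hab : a ≠ b) (R : ℕ) (i : Fin m) (j : Fin n) :
    (blockUpd X u v a b R i j : ℤ) = X i j +
      ((R % (min (X u a) (X v b) + min (X u b) (X v a) + 1) : ℕ) - (min (X u a) (X v b) : ℕ) : ℤ) *
        (((if i = u then 1 else 0) - (if i = v then 1 else 0)) *
          ((if j = a then 1 else 0) - (if j = b then 1 else 0))) := by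
  set p := min (X u a) (X v b) with hp
  set q := min (X u b) (X v a) with hq
  set K := R % (p + q + 1) with hK
  have hKle : K ≤ p + q := by
    have := Nat.mod_lt R (show 0 < p + q + 1 by omega)
    omega
  have hpu : p ≤ X u a := min_le_left _ _
  have hpv : p ≤ X v b := min_le_right _ _
  have hqu : q ≤ X u b := min_le_left _ _
  have hqv : q ≤ X v a := min_le_right _ _
  unfold blockUpd
  rw [← hp, ← hq, ← hK]
  by_cases hi : i = u
  · subst hi
    by_cases hj : j = a
    · subst hj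
      simp only [and_self, if_true, huv, hab, if_false]
      push_cast [hpu]
      ring
    · by_cases hj' : j = b
      · subst hj'
        simp only [hj, huv, and_false, false_and, if_false, and_self, if_true]
        have : K ≤ X i j + p := by omega
        push_cast [this]
        ring
      · simp only [hj, hj', and_false, if_false, sub_self, mul_zero, add_zero]
  · by_cases hi' : i = v
    · subst hi'
      by_cases hj : j = a
      · subst hj
        simp only [hi, hab, and_false, false_and, if_false, and_self, if_true]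
        have : K ≤ X i j + p := by omega
        push_cast [this]
        ring
      · by_cases hj' : j = b
        · subst hj'
          simp only [hi, hj, and_false, false_and, if_false, and_self, if_true]
          push_cast [hpv]
          ring
        · simp only [hj, hj', and_false, if_false, sub_self, mul_zero, add_zero]
    · simp only [hi, hi', false_and, if_false, sub_self, zero_mul, mul_zero, add_zero]

theorem blockUpd_isTable {m n : ℕ} {r : Fin m → ℕ} {c : Fin n → ℕ} {X : Fin m → Fin n → ℕ}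
    (hX : IsTable r c X) {u v : Fin m} {a b : Fin n} (huv : u ≠ v) (hab : a ≠ b) (R : ℕ) :
    IsTable r c (blockUpd X u v a b R) := by
  constructor
  · intro i
    have h := hX.1 i
    zify at h ⊢
    rw [← h, Finset.sum_congr rfl fun j _ => blockUpd_cast X huv hab R i j,
      Finset.sum_add_distrib]
    simp only [← Finset.mul_sum, Finset.sum_sub_distrib, Finset.sum_ite_eq', Finset.mem_univ,
      if_true, sub_self, mul_zero, add_zero]
  · intro j
    have h := hX.2 j
    zify at h ⊢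
    rw [← h, Finset.sum_congr rfl fun i _ => blockUpd_cast X huv hab R i j,
      Finset.sum_add_distrib]
    simp only [← Finset.mul_sum, ← Finset.sum_mul, Finset.sum_sub_distrib, Finset.sum_ite_eq',
      Finset.mem_univ, if_true, sub_self, mul_zero, zero_mul, add_zero]

theorem stepX_isTable {m n : ℕ} {r : Fin m → ℕ} {c : Fin n → ℕ} (hm : 0 < m) (hn : 0 < n)
    {X : Fin m → Fin n → ℕ} (hX : IsTable r c X) (R1 R2 R3 R4 R5 : ℕ) :
    IsTable r c (stepX hm hn X R1 R2 R3 R4 R5) := by
  unfold stepX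
  split_ifs with h
  · exact blockUpd_isTable hX (fun e => h.1 (Fin.ext_iff.1 e)) (fun e => h.2 (Fin.ext_iff.1 e)) _
  · exact hX

theorem IsTable.entry_le {m n : ℕ} {r : Fin m → ℕ} {c : Fin n → ℕ} {X : Fin m → Fin n → ℕ}
    (hX : IsTable r c X) (i : Fin m) (j : Fin n) : X i j ≤ ∑ i, r i := by
  calc X i j ≤ ∑ j, X i j := Finset.single_le_sum (fun _ _ => Nat.zero_le _) (Finset.mem_univ j)
    _ = r i := hX.1 i
    _ ≤ ∑ i, r i := Finset.single_le_sum (fun _ _ => Nat.zero_le _) (Finset.mem_univ i)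

/-! ## Many steps -/

/-- One step, with the random numbers read from a list of coins. -/
def stepL {m n : ℕ} (hm : 0 < m) (hn : 0 < n) (B : ℕ) (X : Fin m → Fin n → ℕ) (w : List Bool) :
    Fin m → Fin n → ℕ :=
  stepX hm hn X (val (w.take B)) (val ((w.drop B).take B)) (val ((w.drop (2 * B)).take B))
    (val ((w.drop (3 * B)).take B)) (val ((w.drop (4 * B)).take B))

/-- `T` steps. -/
def runX {m n : ℕ} (hm : 0 < m) (hn : 0 < n) (B : ℕ) :
    ℕ → (Fin m → Fin n → ℕ) → List Bool → (Fin m → Fin n → ℕ)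
  | 0, X, _ => X
  | T + 1, X, w => runX hm hn B T (stepL hm hn B X w) (w.drop (5 * B))

theorem runX_isTable {m n : ℕ} {r : Fin m → ℕ} {c : Fin n → ℕ} (hm : 0 < m) (hn : 0 < n)
    (B T : ℕ) {X : Fin m → Fin n → ℕ} (hX : IsTable r c X) (w : List Bool) :
    IsTable r c (runX hm hn B T X w) := by
  induction T generalizing X w with
  | zero => exact hX
  | succ T ih => exact ih (stepX_isTable hm hn hX _ _ _ _ _) _

theorem runX_succ {m n : ℕ} (hm : 0 < m) (hn : 0 < n) (B T : ℕ) (X : Fin m → Fin n → ℕ)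
    (w : List Bool) :
    runX hm hn B (T + 1) X w = stepL hm hn B (runX hm hn B T X w) (w.drop (T * (5 * B))) := by
  induction T generalizing X w with
  | zero => simp [runX]
  | succ T ih =>
    rw [runX, ih]
    rw [List.drop_drop]
    have e : 5 * B + T * (5 * B) = (T + 1) * (5 * B) := by ring
    rw [e]
    rfl

theorem stepL_take {m n : ℕ} (hm : 0 < m) (hn : 0 < n) (B : ℕ) (X : Fin m → Fin n → ℕ)
    (w : List Bool) : stepL hm hn B X (w.take (5 * B)) = stepL hm hn B X w := by
  unfold stepL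
  have h : ∀ k, k ≤ 4 → ((w.take (5 * B)).drop (k * B)).take B = (w.drop (k * B)).take B := by
    intro k hk
    rw [List.drop_take, List.take_take]
    congr 1
    have : k * B + B ≤ 5 * B := by nlinarith
    omega
  have h0 := h 0 (by norm_num)
  have h1 := h 1 (by norm_num)
  have h2 := h 2 (by norm_num)
  have h3 := h 3 (by norm_num)
  have h4 := h 4 (by norm_num)
  rw [zero_mul, List.drop_zero, List.drop_zero] at h0
  rw [one_mul] at h1
  rw [h0, h1, h2, h3, h4]

theorem flatMap_chunks (K : ℕ) : ∀ (T : ℕ) (w : List Bool), w.length = T * K →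
    (List.range T).flatMap (fun i => (w.drop (i * K)).take K) = w := by
  intro T
  induction T with
  | zero =>
    intro w hw
    have : w = [] := List.eq_nil_of_length_eq_zero (by simpa using hw)
    simp [this]
  | succ T ih =>
    intro w hw
    rw [List.range_succ_eq_map, List.flatMap_cons, List.flatMap_map]
    have h1 : (w.drop K).length = T * K := by
      rw [List.length_drop, hw]
      have : (T + 1) * K = T * K + K := by ring
      omega
    have h2 := ih (w.drop K) h1
    have h3 : ∀ i, (w.drop (Nat.succ i * K)).take K = ((w.drop K).drop (i * K)).take K := by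
      intro i
      rw [List.drop_drop]
      congr 2
      rw [Nat.succ_mul]; ring
    simp only [h3, h2, zero_mul, List.drop_zero]
    exact List.take_append_drop K w

/-- The main loop. -/
def mainLoop : Prog :=
  .seq (set 6 (.lit 0)) (.loop (.lt (reg 6) (reg 4))
    (.seq stepProg (set 6 (.add (reg 6) (.lit 1)))))

theorem mainLoop_spec : ∃ D : ℕ, ∀ {m n : ℕ} (hm : 0 < m) (hn : 0 < n) (r : Fin m → ℕ)
    (c : Fin n → ℕ) (B T : ℕ) (X : Fin m → Fin n → ℕ) (M : Mem) (w : List Bool)
    (_ : w.length = T * (5 * B)) (_ : 1 ≤ B) (_ : Holds B T X M) (_ : IsTable r c X)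
    (_ : 5 * ∑ i, r i < 2 ^ B),
    ∃ M', Runs mainLoop M w M' (D * (T + 1) * (B + 1) ^ 3) ∧
      Holds B T (runX hm hn B T X w) M' := by
  obtain ⟨D1, h1⟩ := set_bound 6 (.lit 0)
  obtain ⟨D2, h2⟩ := cost_le (.lt (reg 6) (reg 4))
  obtain ⟨D3, h3⟩ := stepProg_spec
  obtain ⟨D4, h4⟩ := set_bound 6 (.add (reg 6) (.lit 1))
  refine ⟨D1 + (1 + D2 + D3 + D4) + (1 + D2), ?_⟩
  intro m n hm hn r c B T X M w hw hB hH hX hN
  have h0B : 0 < 2 ^ B := by positivity
  have hTB : T < 2 ^ B := by simpa [hH.h4] using hH.bdd 4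
  have H1 : Holds B T X (Function.update M 6 0) :=
    hH.update_reg (by norm_num) (by norm_num) h0B
  have e1 : (B + 1) ^ 2 ≤ (B + 1) ^ 3 := Nat.pow_le_pow_right (by omega) (by norm_num)
  have e2 : 1 ≤ (B + 1) ^ 3 := Nat.one_le_pow _ _ (by omega)
  have hloop := runs_loop (c := .lt (reg 6) (reg 4))
    (p := .seq stepProg (set 6 (.add (reg 6) (.lit 1)))) (K := (D3 + D4) * (B + 1) ^ 3)
    (C := D2 * (B + 1) ^ 2) T
    (fun i M1 => Holds B T (runX hm hn B i X w) M1 ∧ M1 6 = i)
    (fun i => (w.drop (i * (5 * B))).take (5 * B)) ?_ ?_ ?_ ?_ (Function.update M 6 0)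
    ⟨H1, by simp⟩
  rotate_left
  · rintro i hi M1 ⟨hH1, h6⟩
    simp [h6, hH1.h4, hi]
  · rintro M1 ⟨hH1, h6⟩
    simp [h6, hH1.h4]
  · rintro i hi M1 ⟨hH1, h6⟩
    exact h2 M1 B hH1.bdd.size
  · rintro i hi M1 ⟨hH1, h6⟩
    set w' := (w.drop (i * (5 * B))).take (5 * B) with hw'
    have hlen : w'.length = 5 * B := by
      rw [hw', List.length_take, List.length_drop, hw]
      have : (i + 1) * (5 * B) ≤ T * (5 * B) := Nat.mul_le_mul_right _ hi
      have h' : (i + 1) * (5 * B) = i * (5 * B) + 5 * B := by ring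
      omega
    have hT' := runX_isTable hm hn B i hX w
    have hlt : ∀ i' j, 5 * runX hm hn B i X w i' j < 2 ^ B := by
      intro i' j
      have := hT'.entry_le i' j
      omega
    obtain ⟨M2, r2, H2, e6⟩ := h3 hm hn B T (runX hm hn B i X w) M1 (w'.take B)
      ((w'.drop B).take B) ((w'.drop (2 * B)).take B) ((w'.drop (3 * B)).take B)
      ((w'.drop (4 * B)).take B) (by simp [hlen]; omega) (by simp [hlen]; omega)
      (by simp [hlen]; omega) (by simp [hlen]; omega) (by simp [hlen]; omega) hB hH1 hlt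
    have ew : w'.take B ++ ((w'.drop B).take B ++ ((w'.drop (2 * B)).take B ++
        ((w'.drop (3 * B)).take B ++ (w'.drop (4 * B)).take B))) = w' := by
      have a4 : (w'.drop (4 * B)).take B = w'.drop (4 * B) := by
        rw [List.take_of_length_le]
        rw [List.length_drop, hlen]; omega
      have a3 : (w'.drop (3 * B)).take B ++ w'.drop (4 * B) = w'.drop (3 * B) := by
        have : w'.drop (4 * B) = (w'.drop (3 * B)).drop B := by
          rw [List.drop_drop]; congr 1; ring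
        rw [this, List.take_append_drop]
      have a2 : (w'.drop (2 * B)).take B ++ w'.drop (3 * B) = w'.drop (2 * B) := by
        have : w'.drop (3 * B) = (w'.drop (2 * B)).drop B := by
          rw [List.drop_drop]; congr 1; ring
        rw [this, List.take_append_drop]
      have a1 : (w'.drop B).take B ++ w'.drop (2 * B) = w'.drop B := by
        have : w'.drop (2 * B) = (w'.drop B).drop B := by
          rw [List.drop_drop]; congr 1; ring
        rw [this, List.take_append_drop]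
      rw [a4, a3, a2, a1, List.take_append_drop]
    rw [ew] at r2
    have H2' : Holds B T (runX hm hn B (i + 1) X w) M2 := by
      rw [runX_succ, ← stepL_take]
      exact H2
    have r3 := h4 M2 B H2'.bdd
    have e3 : (Expr.add (reg 6) (Expr.lit 1)).eval M2 = i + 1 := by
      simp [e6, h6]
    rw [e3] at r3
    refine ⟨_, ⟨H2'.update_reg (a := 6) (v := i + 1) (by norm_num) (by norm_num) (by omega),
      by simp⟩, ?_⟩
    have := r2.seq r3
    rw [List.append_nil] at this
    refine this.mono ?_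
    have z1 : D4 * (B + 1) ^ 2 ≤ D4 * (B + 1) ^ 3 := Nat.mul_le_mul_left _ e1
    have z2 : (D3 + D4) * (B + 1) ^ 3 = D3 * (B + 1) ^ 3 + D4 * (B + 1) ^ 3 := by ring
    omega
  · obtain ⟨M', ⟨hI, -⟩, hr⟩ := hloop
    refine ⟨M', ?_, hI⟩
    have r1 := h1 M B hH.bdd
    rw [eval_lit] at r1
    have := r1.seq hr
    rw [List.nil_append, flatMap_chunks (5 * B) T w hw] at this
    refine this.mono ?_
    have z1 : D1 * (B + 1) ^ 2 ≤ D1 * (B + 1) ^ 3 := Nat.mul_le_mul_left _ e1
    have z2 : D2 * (B + 1) ^ 2 ≤ D2 * (B + 1) ^ 3 := Nat.mul_le_mul_left _ e1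
    have z3 : T * (1 + D2 * (B + 1) ^ 2 + (D3 + D4) * (B + 1) ^ 3) ≤
        T * ((1 + D2 + D3 + D4) * (B + 1) ^ 3) := by
      apply Nat.mul_le_mul_left
      have : (1 + D2 + D3 + D4) * (B + 1) ^ 3 = (B + 1) ^ 3 + D2 * (B + 1) ^ 3 +
        (D3 + D4) * (B + 1) ^ 3 := by ring
      omega
    have z4 : (D1 + (1 + D2 + D3 + D4) + (1 + D2)) * (T + 1) * (B + 1) ^ 3 =
        D1 * (B + 1) ^ 3 + T * (D1 * (B + 1) ^ 3) + T * ((1 + D2 + D3 + D4) * (B + 1) ^ 3) +
        (1 + D2 + D3 + D4) * (B + 1) ^ 3 + T * ((1 + D2) * (B + 1) ^ 3) +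
        ((B + 1) ^ 3 + D2 * (B + 1) ^ 3) := by ring
    omega

end Vale.Agent.P328
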